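import Mathlib

/-!
# McDiarmid's bounded difference inequality on a finite product with the uniform law
-/

set_option autoImplicit false

namespace Crest.Agent.R34

open Finset Real

/-- uniform average of a real function on a finite type -/
noncomputable def avg {Ω : Type*} [Fintype Ω] (f : Ω → ℝ) : ℝ := (∑ ω, f ω) / Fintype.card Ω

lemma exp_le_cosh_add (θ c x : ℝ) (hc : 0 < c) (hx : |x| ≤ c) :
    exp (θ * x) ≤ cosh (θ * c) + x / c * sinh (θ * c) := by
  have h1 : -c ≤ x := (abs_le.mp hx).1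
  have h2 : x ≤ c := (abs_le.mp hx).2
  have ha : 0 ≤ (c + x) / (2 * c) := by apply div_nonneg <;> linarith
  have hb : 0 ≤ (c - x) / (2 * c) := by apply div_nonneg <;> linarith
  have hab : (c + x) / (2 * c) + (c - x) / (2 * c) = 1 := by field_simp; ring
  have := convexOn_exp.2 (Set.mem_univ (θ * c)) (Set.mem_univ (-(θ * c))) ha hb hab
  simp only [smul_eq_mul] at this
  have e : (c + x) / (2 * c) * (θ * c) + (c - x) / (2 * c) * -(θ * c) = θ * x := by
    field_simp; ring
  rw [e] at this
  refine this.trans (le_of_eq ?_)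
  rw [Real.cosh_eq, Real.sinh_eq]
  field_simp
  ring

lemma sum_exp_le {T : Type*} [Fintype T] (g : T → ℝ) (θ c : ℝ) (hg : ∀ t, |g t| ≤ c)
    (h0 : ∑ t, g t = 0) : ∑ t, exp (θ * g t) ≤ Fintype.card T * exp (θ ^ 2 * c ^ 2 / 2) := by
  rcases isEmpty_or_nonempty T with hT | hT
  · simp
  have hc : 0 ≤ c := (abs_nonneg _).trans (hg (Classical.arbitrary T))
  rcases hc.eq_or_lt with hc | hc
  · have : ∀ t, g t = 0 := fun t => abs_nonpos_iff.mp (hc ▸ hg t)
    simp [this, ← hc]
  calc ∑ t, exp (θ * g t) ≤ ∑ t, (cosh (θ * c) + g t / c * sinh (θ * c)) :=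
        sum_le_sum fun t _ => exp_le_cosh_add θ c (g t) hc (hg t)
    _ = Fintype.card T * cosh (θ * c) := by
        rw [sum_add_distrib, ← sum_mul, ← sum_div, h0]; simp
    _ ≤ _ := by
        apply mul_le_mul_of_nonneg_left _ (Nat.cast_nonneg _)
        refine (Real.cosh_le_exp_half_sq _).trans (le_of_eq ?_)
        congr 1; ring

lemma sum_cons {T : Type*} [Fintype T] (n : ℕ) (F : (Fin (n + 1) → T) → ℝ) :
    ∑ ω, F ω = ∑ t, ∑ ω' : Fin n → T, F (Fin.cons t ω') := by
  rw [← Fintype.sum_prod_type']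
  exact (Fintype.sum_equiv (Fin.consEquiv (fun _ => T)) _ _ (fun x => rfl)).symm

lemma mgf_fin {T : Type*} [Fintype T] [Nonempty T] (θ : ℝ) : ∀ (n : ℕ) (f : (Fin n → T) → ℝ)
    (c : Fin n → ℝ), (∀ ω i t, |f (Function.update ω i t) - f ω| ≤ c i) →
    ∑ ω, exp (θ * (f ω - avg f)) ≤ (Fintype.card T : ℝ) ^ n * exp (θ ^ 2 * (∑ i, c i ^ 2) / 2)
  | 0, f, c, _ => by
      simp [avg]
  | n + 1, f, c, hc => by
      have hT : (0 : ℝ) < Fintype.card T := by exact_mod_cast Fintype.card_pos
      set g : T → ℝ := fun t => avg (fun ω' : Fin n → T => f (Fin.cons t ω')) with hg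
      have hcard : (Fintype.card (Fin n → T) : ℝ) = (Fintype.card T : ℝ) ^ n := by simp
      have hpos : (0 : ℝ) < (Fintype.card T : ℝ) ^ n := pow_pos hT n
      have havg : avg f = (∑ t, g t) / Fintype.card T := by
        simp only [hg, avg]
        rw [sum_cons, ← sum_div, hcard]
        simp only [Fintype.card_pi, prod_const, card_univ, Fintype.card_fin, Nat.cast_pow]
        rw [div_div, pow_succ]
      have hdiff : ∀ t t', |g t - g t'| ≤ c 0 := by
        intro t t'
        simp only [hg, avg]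
        rw [← sub_div, ← sum_sub_distrib, abs_div, hcard, abs_of_pos hpos, div_le_iff₀ hpos]
        refine (abs_sum_le_sum_abs _ _).trans ?_
        have : ∀ ω' : Fin n → T, |f (Fin.cons t ω') - f (Fin.cons t' ω')| ≤ c 0 := by
          intro ω'
          have := hc (Fin.cons t' ω') 0 t
          rwa [Fin.update_cons_zero] at this
        refine (sum_le_sum fun ω' _ => this ω').trans (le_of_eq ?_)
        simp [mul_comm]
      have hdev : ∀ t, |g t - avg f| ≤ c 0 := by
        intro t
        rw [havg]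
        have : g t - (∑ t', g t') / Fintype.card T = (∑ t', (g t - g t')) / Fintype.card T := by
          rw [sum_sub_distrib]; simp; field_simp
        rw [this, abs_div, abs_of_pos hT, div_le_iff₀ hT]
        refine (abs_sum_le_sum_abs _ _).trans ((sum_le_sum fun t' _ => hdiff t t').trans
          (le_of_eq ?_))
        simp [mul_comm]
      have hsum0 : ∑ t, (g t - avg f) = 0 := by
        rw [sum_sub_distrib, havg]; simp; field_simp; ring
      have hin : ∀ t, ∑ ω' : Fin n → T, exp (θ * (f (Fin.cons t ω') - g t))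
          ≤ (Fintype.card T : ℝ) ^ n * exp (θ ^ 2 * (∑ i : Fin n, c i.succ ^ 2) / 2) := by
        intro t
        refine mgf_fin θ n (fun ω' => f (Fin.cons t ω')) (fun i => c i.succ) ?_
        intro ω' i u
        have := hc (Fin.cons t ω') i.succ u
        rwa [← Fin.cons_update] at this
      rw [sum_cons]
      calc ∑ t, ∑ ω' : Fin n → T, exp (θ * (f (Fin.cons t ω') - avg f))
          = ∑ t, exp (θ * (g t - avg f)) *
              ∑ ω' : Fin n → T, exp (θ * (f (Fin.cons t ω') - g t)) := by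
            refine sum_congr rfl fun t _ => ?_
            rw [mul_sum]
            refine sum_congr rfl fun ω' _ => ?_
            rw [← exp_add]; congr 1; ring
        _ ≤ ∑ t, exp (θ * (g t - avg f)) *
              ((Fintype.card T : ℝ) ^ n * exp (θ ^ 2 * (∑ i : Fin n, c i.succ ^ 2) / 2)) :=
            sum_le_sum fun t _ => mul_le_mul_of_nonneg_left (hin t) (exp_pos _).le
        _ = (∑ t, exp (θ * (g t - avg f))) *
              ((Fintype.card T : ℝ) ^ n * exp (θ ^ 2 * (∑ i : Fin n, c i.succ ^ 2) / 2)) := by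
            rw [sum_mul]
        _ ≤ (Fintype.card T * exp (θ ^ 2 * c 0 ^ 2 / 2)) *
              ((Fintype.card T : ℝ) ^ n * exp (θ ^ 2 * (∑ i : Fin n, c i.succ ^ 2) / 2)) :=
            mul_le_mul_of_nonneg_right (sum_exp_le _ θ _ hdev hsum0) (by positivity)
        _ = _ := by
            rw [Fin.sum_univ_succ, mul_add, add_div, exp_add, pow_succ]; ring

lemma mgf_pi {ι T : Type*} [Fintype ι] [DecidableEq ι] [Fintype T] [Nonempty T] (θ : ℝ)
    (f : (ι → T) → ℝ) (c : ι → ℝ) (hc : ∀ ω i t, |f (Function.update ω i t) - f ω| ≤ c i) :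
    ∑ ω, exp (θ * (f ω - avg f)) ≤
      (Fintype.card (ι → T) : ℝ) * exp (θ ^ 2 * (∑ i, c i ^ 2) / 2) := by
  set n := Fintype.card ι
  let e : ι ≃ Fin n := Fintype.equivFin ι
  let E : (Fin n → T) ≃ (ι → T) := Equiv.arrowCongr e.symm (Equiv.refl T)
  have hE : ∀ ω : Fin n → T, E ω = fun i => ω (e i) := fun ω => rfl
  have h := mgf_fin θ n (fun ω => f (E ω)) (fun k => c (e.symm k)) (by
    intro ω k t
    have : E (Function.update ω k t) = Function.update (E ω) (e.symm k) t := by
      rw [hE, hE]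
      funext i
      by_cases hi : i = e.symm k
      · subst hi; simp
      · have : e i ≠ k := fun h => hi (by rw [← h]; simp)
        simp [Function.update_of_ne hi, Function.update_of_ne this]
    simp only [this]
    exact hc _ _ _)
  have havg : avg (fun ω => f (E ω)) = avg f := by
    simp only [avg]
    rw [Equiv.sum_comp E f, Fintype.card_congr E]
  rw [havg, Equiv.sum_comp E (fun ω => exp (θ * (f ω - avg f))),
    Equiv.sum_comp e.symm (fun i => c i ^ 2)] at h
  simpa using h

/-- upper tail -/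
theorem mcdiarmid_upper {ι T : Type*} [Fintype ι] [DecidableEq ι] [Fintype T] [Nonempty T]
    (f : (ι → T) → ℝ) (c : ι → ℝ) (hc : ∀ ω i t, |f (Function.update ω i t) - f ω| ≤ c i)
    (V s : ℝ) (hV : ∑ i, c i ^ 2 ≤ V) (hV0 : 0 < V) (hs : 0 ≤ s)
    [DecidablePred fun ω => avg f + s ≤ f ω] :
    ((univ.filter (fun ω => avg f + s ≤ f ω)).card : ℝ) ≤
      (Fintype.card (ι → T) : ℝ) * exp (-(s ^ 2 / (2 * V))) := by
  have h := mgf_pi (s / V) f c hc
  have h1 : ((univ.filter (fun ω => avg f + s ≤ f ω)).card : ℝ) * exp (s / V * s)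
      ≤ ∑ ω, exp (s / V * (f ω - avg f)) := by
    calc ((univ.filter (fun ω => avg f + s ≤ f ω)).card : ℝ) * exp (s / V * s)
        = ∑ ω ∈ univ.filter (fun ω => avg f + s ≤ f ω), exp (s / V * s) := by simp
      _ ≤ ∑ ω ∈ univ.filter (fun ω => avg f + s ≤ f ω), exp (s / V * (f ω - avg f)) := by
          refine sum_le_sum fun ω hω => exp_le_exp.mpr ?_
          have := (mem_filter.mp hω).2
          exact mul_le_mul_of_nonneg_left (by linarith) (div_nonneg hs hV0.le)
      _ ≤ _ := sum_le_sum_of_subset_of_nonneg (filter_subset _ _) fun _ _ _ => (exp_pos _).le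
  have h2 : exp ((s / V) ^ 2 * (∑ i, c i ^ 2) / 2) ≤ exp ((s / V) ^ 2 * V / 2) := by
    apply exp_le_exp.mpr
    have := mul_le_mul_of_nonneg_left hV (sq_nonneg (s / V))
    linarith
  have h3 := h1.trans (h.trans (mul_le_mul_of_nonneg_left h2 (Nat.cast_nonneg _)))
  rw [← le_div_iff₀ (exp_pos _), mul_div_assoc, ← exp_sub] at h3
  refine h3.trans (le_of_eq ?_)
  congr 2
  field_simp
  ring

/-- lower tail -/
theorem mcdiarmid_lower {ι T : Type*} [Fintype ι] [DecidableEq ι] [Fintype T] [Nonempty T]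
    (f : (ι → T) → ℝ) (c : ι → ℝ) (hc : ∀ ω i t, |f (Function.update ω i t) - f ω| ≤ c i)
    (V s : ℝ) (hV : ∑ i, c i ^ 2 ≤ V) (hV0 : 0 < V) (hs : 0 ≤ s)
    [DecidablePred fun ω => f ω ≤ avg f - s] :
    ((univ.filter (fun ω => f ω ≤ avg f - s)).card : ℝ) ≤
      (Fintype.card (ι → T) : ℝ) * exp (-(s ^ 2 / (2 * V))) := by
  classical
  have h := mcdiarmid_upper (fun ω => -f ω) c (by
    intro ω i t
    have := hc ω i t
    rwa [← abs_neg, neg_sub, sub_eq_neg_add, ← sub_neg_eq_add] at this) V s hV hV0 hs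
  have havg : avg (fun ω => -f ω) = -avg f := by simp [avg, neg_div]
  refine le_trans (le_of_eq ?_) h
  congr 2
  ext ω
  simp only [havg, mem_filter, mem_univ, true_and]
  constructor <;> intro h <;> linarith

end Crest.Agent.R34
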