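import Mathlib
import Crest.Agent.R34.McDiarmid

/-!
# Counting matched patterns in a random function
-/

set_option autoImplicit false

namespace Crest.Agent.R34

open Finset Real

section
variable {ι T I : Type*} [Fintype ι] [DecidableEq ι] [Fintype T] [DecidableEq T]

/-- number of indices `i ∈ S` whose pattern `A i` is matched by `τ` -/
def cnt (S : Finset I) (A : I → ι → Finset T) (τ : ι → T) : ℕ :=
  (S.filter (fun i => ∀ a, τ a ∈ A i a)).card

lemma avg_cnt [Nonempty T] (S : Finset I) (A : I → ι → Finset T) :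
    avg (fun τ => (cnt S A τ : ℝ)) =
      ∑ i ∈ S, ∏ a, (((A i a).card : ℝ) / Fintype.card T) := by
  have hT : (0 : ℝ) < Fintype.card T := by exact_mod_cast Fintype.card_pos
  unfold avg cnt
  have : ∀ τ : ι → T, ((S.filter (fun i => ∀ a, τ a ∈ A i a)).card : ℝ)
      = ∑ i ∈ S, if (∀ a, τ a ∈ A i a) then (1 : ℝ) else 0 := by
    intro τ; rw [sum_boole]
  simp only [this]
  rw [sum_comm, sum_div]
  refine sum_congr rfl fun i _ => ?_
  rw [sum_boole]
  have h2 : (univ.filter (fun τ : ι → T => ∀ a, τ a ∈ A i a)) = Fintype.piFinset (A i) := by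
    ext τ; simp
  rw [h2, Fintype.card_piFinset, prod_div_distrib]
  simp

lemma cnt_update_le (S : Finset I) (A : I → ι → Finset T) (τ τ' : ι → T) (b : ι)
    (h : ∀ a, a ≠ b → τ a = τ' a) :
    cnt S A τ ≤ cnt S A τ' + (S.filter (fun i => A i b ≠ univ)).card := by
  classical
  unfold cnt
  refine le_trans (card_le_card ?_) (card_union_le _ _)
  intro i hi
  rw [mem_filter] at hi
  rw [mem_union, mem_filter, mem_filter]
  by_cases hb : A i b = univ
  · left
    refine ⟨hi.1, fun a => ?_⟩
    by_cases ha : a = b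
    · subst ha; rw [hb]; exact mem_univ _
    · rw [← h a ha]; exact hi.2 a
  · right; exact ⟨hi.1, hb⟩

lemma cnt_diff (S : Finset I) (A : I → ι → Finset T) (τ : ι → T) (b : ι) (t : T) :
    |(cnt S A (Function.update τ b t) : ℝ) - cnt S A τ|
      ≤ ((S.filter (fun i => A i b ≠ univ)).card : ℝ) := by
  have h1 := cnt_update_le S A (Function.update τ b t) τ b
    (fun a ha => Function.update_of_ne ha _ _)
  have h2 := cnt_update_le S A τ (Function.update τ b t) b
    (fun a ha => (Function.update_of_ne ha _ _).symm)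
  have h1' : (cnt S A (Function.update τ b t) : ℝ) ≤ cnt S A τ +
    (S.filter (fun i => A i b ≠ univ)).card := by exact_mod_cast h1
  have h2' : (cnt S A τ : ℝ) ≤ cnt S A (Function.update τ b t) +
    (S.filter (fun i => A i b ≠ univ)).card := by exact_mod_cast h2
  rw [abs_le]; constructor <;> linarith

lemma prod_card_ge [Nonempty T] (A : ι → Finset T) (r : ℕ) (hne : ∀ a, (A a).Nonempty)
    (hr : (univ.filter (fun a => A a ≠ univ)).card ≤ r) :
    (1 / (Fintype.card T : ℝ)) ^ r ≤ ∏ a, (((A a).card : ℝ) / Fintype.card T) := by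
  have hT : (0 : ℝ) < Fintype.card T := by exact_mod_cast Fintype.card_pos
  have hT1 : (1 : ℝ) ≤ Fintype.card T := by exact_mod_cast Fintype.card_pos
  rw [← prod_filter_mul_prod_filter_not univ (fun a => A a ≠ univ)]
  have h1 : ∏ a ∈ univ.filter (fun a => ¬ A a ≠ univ), (((A a).card : ℝ) / Fintype.card T) = 1 := by
    refine prod_eq_one fun a ha => ?_
    have : A a = univ := by simpa using ha
    rw [this, card_univ]; field_simp
  rw [h1, mul_one]
  calc (1 / (Fintype.card T : ℝ)) ^ r
      ≤ (1 / (Fintype.card T : ℝ)) ^ (univ.filter (fun a => A a ≠ univ)).card := by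
        apply pow_le_pow_of_le_one (by positivity) _ hr
        rw [div_le_one hT]; exact hT1
    _ = ∏ a ∈ univ.filter (fun a => A a ≠ univ), (1 / (Fintype.card T : ℝ)) := by
        rw [prod_const]
    _ ≤ _ := by
        refine prod_le_prod (fun _ _ => by positivity) fun a _ => ?_
        apply div_le_div_of_nonneg_right _ hT.le
        exact_mod_cast (hne a).card_pos

/-- lower tail for pattern counts -/
lemma cnt_lower [Nonempty T] (S : Finset I) (A : I → ι → Finset T) (V s μ : ℝ)
    (hV : ∑ b, ((S.filter (fun i => A i b ≠ univ)).card : ℝ) ^ 2 ≤ V) (hV0 : 0 < V) (hs : 0 ≤ s)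
    (hμ : μ ≤ avg (fun τ => (cnt S A τ : ℝ))) :
    ((univ.filter (fun τ => (cnt S A τ : ℝ) < μ - s)).card : ℝ) ≤
      (Fintype.card (ι → T) : ℝ) * exp (-(s ^ 2 / (2 * V))) := by
  classical
  refine le_trans ?_ (mcdiarmid_lower (fun τ => (cnt S A τ : ℝ)) _ (cnt_diff S A) V s hV hV0 hs)
  have : univ.filter (fun τ => (cnt S A τ : ℝ) < μ - s) ⊆
      univ.filter (fun τ => (cnt S A τ : ℝ) ≤ avg (fun τ => (cnt S A τ : ℝ)) - s) := by
    intro τ hτ
    simp only [mem_filter, mem_univ, true_and] at hτ ⊢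
    linarith
  exact_mod_cast card_le_card this

/-- upper tail for pattern counts -/
lemma cnt_upper [Nonempty T] (S : Finset I) (A : I → ι → Finset T) (V s μ : ℝ)
    (hV : ∑ b, ((S.filter (fun i => A i b ≠ univ)).card : ℝ) ^ 2 ≤ V) (hV0 : 0 < V) (hs : 0 ≤ s)
    (hμ : avg (fun τ => (cnt S A τ : ℝ)) ≤ μ) :
    ((univ.filter (fun τ => μ + s < (cnt S A τ : ℝ))).card : ℝ) ≤
      (Fintype.card (ι → T) : ℝ) * exp (-(s ^ 2 / (2 * V))) := by
  classical
  refine le_trans ?_ (mcdiarmid_upper (fun τ => (cnt S A τ : ℝ)) _ (cnt_diff S A) V s hV hV0 hs)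
  have : univ.filter (fun τ => μ + s < (cnt S A τ : ℝ)) ⊆
      univ.filter (fun τ => avg (fun τ => (cnt S A τ : ℝ)) + s ≤ (cnt S A τ : ℝ)) := by
    intro τ hτ
    simp only [mem_filter, mem_univ, true_and] at hτ ⊢
    linarith
  exact_mod_cast card_le_card this

/-- uniform bound on the bounded-difference constants -/
lemma sum_sq_le_of_le (c : ι → ℕ) (k : ℕ) (hc : ∀ b, c b ≤ k) :
    ∑ b, ((c b : ℕ) : ℝ) ^ 2 ≤ (k : ℝ) ^ 2 * Fintype.card ι := by
  calc ∑ b, ((c b : ℕ) : ℝ) ^ 2 ≤ ∑ _b : ι, (k : ℝ) ^ 2 := by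
        refine sum_le_sum fun b _ => ?_
        have : (c b : ℝ) ≤ k := by exact_mod_cast hc b
        exact pow_le_pow_left₀ (Nat.cast_nonneg _) this 2
    _ = _ := by simp [mul_comm]

/-- double counting bound on the bounded-difference constants -/
lemma sum_sq_le_of_double (S : Finset I) (A : I → ι → Finset T) (k r : ℕ)
    (hk : ∀ b, (S.filter (fun i => A i b ≠ univ)).card ≤ k)
    (hr : ∀ i ∈ S, (univ.filter (fun b => A i b ≠ univ)).card ≤ r) :
    ∑ b, ((S.filter (fun i => A i b ≠ univ)).card : ℝ) ^ 2 ≤ (k : ℝ) * r * S.card := by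
  have h1 : ∑ b, (S.filter (fun i => A i b ≠ univ)).card ≤ r * S.card := by
    calc ∑ b, (S.filter (fun i => A i b ≠ univ)).card
        = ∑ b, ∑ i ∈ S, if A i b ≠ univ then 1 else 0 := by
          refine sum_congr rfl fun b _ => ?_
          rw [card_filter]
      _ = ∑ i ∈ S, ∑ b, if A i b ≠ univ then 1 else 0 := sum_comm
      _ ≤ ∑ _i ∈ S, r := by
          refine sum_le_sum fun i hi => ?_
          rw [← card_filter]; exact hr i hi
      _ = r * S.card := by simp [mul_comm]
  have h1' : ∑ b, ((S.filter (fun i => A i b ≠ univ)).card : ℝ) ≤ r * S.card := by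
    exact_mod_cast h1
  calc ∑ b, ((S.filter (fun i => A i b ≠ univ)).card : ℝ) ^ 2
      ≤ ∑ b, (k : ℝ) * ((S.filter (fun i => A i b ≠ univ)).card : ℝ) := by
        refine sum_le_sum fun b _ => ?_
        have : ((S.filter (fun i => A i b ≠ univ)).card : ℝ) ≤ k := by exact_mod_cast hk b
        rw [sq]; exact mul_le_mul_of_nonneg_right this (Nat.cast_nonneg _)
    _ = k * ∑ b, ((S.filter (fun i => A i b ≠ univ)).card : ℝ) := by rw [mul_sum]
    _ ≤ k * (r * S.card) := mul_le_mul_of_nonneg_left h1' (Nat.cast_nonneg _)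
    _ = _ := by ring

end

/-- union bound -/
lemma card_filter_exists_le {Ω J : Type*} [Fintype Ω] [Fintype J] (P : J → Ω → Prop)
    [∀ j, DecidablePred (P j)] [DecidablePred fun ω => ∃ j, P j ω] (x : ℝ)
    (h : ∀ j, ((univ.filter (P j)).card : ℝ) ≤ x) :
    ((univ.filter (fun ω => ∃ j, P j ω)).card : ℝ) ≤ Fintype.card J * x := by
  classical
  have : univ.filter (fun ω => ∃ j, P j ω) = univ.biUnion (fun j => univ.filter (P j)) := by
    ext ω; simp
  rw [this]
  have h1 : ((univ.biUnion (fun j => univ.filter (P j))).card : ℝ)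
      ≤ ∑ j, ((univ.filter (P j)).card : ℝ) := by exact_mod_cast card_biUnion_le
  refine h1.trans ((sum_le_sum fun j _ => h j).trans (le_of_eq ?_))
  simp

end Crest.Agent.R34
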