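import Mathlib
import Crest.Agent.R34.Defs
import Crest.Agent.R34.Pattern

/-!
# The six line families and the random types
-/

set_option autoImplicit false
set_option linter.unusedSectionVars false

namespace Crest.Agent.R34

open Finset

/-- small positive integers are nonzero in `F` -/
def CharBig (F : Type) [Field F] : Prop := ∀ n : ℕ, 0 < n → n ≤ 100 → (n : F) ≠ 0

/-- integer offsets of the six families: two split families, two merged pairs -/
def offZ : Fin 6 → ℤ := ![0, 10, -1, 1, 7, 13]

/-- which families are active for a type -/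
def act : Fin 4 → Fin 6 → Bool :=
  ![![true, false, false, false, false, false], ![false, true, false, false, false, false],
    ![true, true, true, true, false, false], ![true, true, false, false, true, true]]

/-- probability that a family line is inactive -/
noncomputable def pin : Fin 6 → ℝ := ![1/4, 1/4, 3/4, 3/4, 3/4, 3/4]

lemma card_inactive (j : Fin 6) :
    (((univ.filter (fun t : Fin 4 => act t j = false)).card : ℕ) : ℝ) / 4 = pin j := by
  have h : ∀ j : Fin 6, (univ.filter (fun t : Fin 4 => act t j = false)).card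
      = ![1, 1, 3, 3, 3, 3] j := by decide
  rw [h]
  fin_cases j <;> simp [pin]

lemma pin_ge (j : Fin 6) : 1 / 4 ≤ pin j := by fin_cases j <;> simp [pin] <;> norm_num
lemma pin_le (j : Fin 6) : pin j ≤ 1 := by fin_cases j <;> simp [pin] <;> norm_num

section
variable {F : Type} [Field F]

lemma CharBig.int_ne (hF : CharBig F) {n : ℤ} (h0 : n ≠ 0) (h1 : |n| ≤ 100) : (n : F) ≠ 0 := by
  have h2 : n.natAbs ≤ 100 := by
    have := abs_le.mp h1
    omega
  have := hF n.natAbs (Int.natAbs_pos.mpr h0) h2
  intro h
  apply this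
  rcases Int.natAbs_eq n with e | e
  · rw [e, Int.cast_natCast] at h; exact h
  · rw [e, Int.cast_neg, Int.cast_natCast] at h; exact neg_eq_zero.mp h

lemma CharBig.int_inj (hF : CharBig F) {m n : ℤ} (h1 : |m - n| ≤ 100) (h : (m : F) = n) :
    m = n := by
  by_contra hne
  refine hF.int_ne (sub_ne_zero.mpr hne) h1 ?_
  push_cast; rw [h, sub_self]

lemma CharBig.two_ne (hF : CharBig F) : (2 : F) ≠ 0 := by
  have := hF 2 (by norm_num) (by norm_num); exact_mod_cast this

lemma CharBig.ringChar_ne (hF : CharBig F) : ringChar F ≠ 2 := by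
  intro h
  have := (ringChar.spec F 2).mpr (by rw [h])
  exact hF 2 (by norm_num) (by norm_num) this

/-- offsets in the field -/
def off (F : Type) [Field F] (j : Fin 6) : F := (offZ j : F)

lemma off_inj (hF : CharBig F) {j j' : Fin 6} (h : off F j = off F j') : j = j' := by
  have h1 : ∀ j j' : Fin 6, |offZ j - offZ j'| ≤ 100 := by decide
  have h2 : ∀ j j' : Fin 6, offZ j = offZ j' → j = j' := by decide
  exact h2 _ _ (hF.int_inj (h1 j j') h)

/-- the line of family `j` with slope `a` -/
def fam (j : Fin 6) (a : F) : Line F := (some a, a ^ 2 + off F j)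

lemma fam_inj (hF : CharBig F) {j j' : Fin 6} {a a' : F} (h : fam j a = fam j' a') :
    j = j' ∧ a = a' := by
  have h1 : a = a' := Option.some.inj (congrArg Prod.fst h)
  subst h1
  have h2 : a ^ 2 + off F j = a ^ 2 + off F j' := congrArg Prod.snd h
  exact ⟨off_inj hF (add_left_cancel h2), rfl⟩

lemma on_fam {p : Pt F} {j : Fin 6} {a : F} :
    On p (fam j a) ↔ p.2 - a * p.1 = a ^ 2 + off F j := Iff.rfl

lemma fam_ne_vert (j : Fin 6) (a c : F) : fam j a ≠ (none, c) := by
  intro h; exact absurd (congrArg Prod.fst h) (by simp [fam])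

lemma on_fam_unique (hF : CharBig F) {p : Pt F} {j j' : Fin 6} {a : F}
    (h : On p (fam j a)) (h' : On p (fam j' a)) : j = j' := by
  rw [on_fam] at h h'
  exact off_inj hF (add_left_cancel (h.symm.trans h'))

lemma on_fam_iff_sq (hF : CharBig F) {p : Pt F} {j : Fin 6} {a : F} :
    On p (fam j a) ↔ (a + p.1 / 2) ^ 2 = p.1 ^ 2 / 4 + p.2 - off F j := by
  rw [on_fam]
  have h2 := hF.two_ne
  have h4 : (4 : F) ≠ 0 := by
    have : (4 : F) = 2 * 2 := by norm_num
    rw [this]; exact mul_ne_zero h2 h2
  have e : (a + p.1 / 2) ^ 2 = a ^ 2 + a * p.1 + p.1 ^ 2 / 4 := by field_simp; ring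
  rw [e]
  constructor <;> intro h <;> linear_combination -h

/-- active lines -/
def Active (τ : F → Fin 4) (l : Line F) : Prop :=
  l = (none, 0) ∨ ∃ j a, act (τ a) j = true ∧ l = fam j a

variable [Fintype F] [DecidableEq F]

lemma card_sq_le (w : F) : (univ.filter (fun t : F => t ^ 2 = w)).card ≤ 2 := by
  by_cases h : ∃ t : F, t ^ 2 = w
  · obtain ⟨t, ht⟩ := h
    refine le_trans (card_le_card (t := {t, -t}) ?_) card_le_two
    intro s hs
    simp only [mem_filter, mem_univ, true_and] at hs
    rw [← ht, sq_eq_sq_iff_eq_or_eq_neg] at hs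
    simpa using hs
  · rw [filter_false_of_mem (fun t _ ht => h ⟨t, ht⟩)]; simp

lemma card_on_fam_eq (hF : CharBig F) (p : Pt F) (j : Fin 6) :
    (univ.filter (fun a : F => On p (fam j a))).card
      = (univ.filter (fun t : F => t ^ 2 = p.1 ^ 2 / 4 + p.2 - off F j)).card := by
  refine card_bij (fun a _ => a + p.1 / 2) ?_ ?_ ?_
  · intro a ha
    simp only [mem_filter, mem_univ, true_and] at ha ⊢
    exact (on_fam_iff_sq hF).mp ha
  · intro a _ a' _ h; exact add_right_cancel h
  · intro t ht
    simp only [mem_filter, mem_univ, true_and] at ht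
    refine ⟨t - p.1 / 2, ?_, by ring⟩
    simp only [mem_filter, mem_univ, true_and]
    rw [on_fam_iff_sq hF, ← ht]; ring

lemma card_on_fam_le (hF : CharBig F) (p : Pt F) (j : Fin 6) :
    (univ.filter (fun a : F => On p (fam j a))).card ≤ 2 := by
  rw [card_on_fam_eq hF]; exact card_sq_le _

lemma card_dirs_le (hF : CharBig F) (p : Pt F) :
    (univ.filter (fun a : F => ∃ j, On p (fam j a))).card ≤ 12 := by
  have : univ.filter (fun a : F => ∃ j, On p (fam j a))
      = univ.biUnion (fun j => univ.filter (fun a : F => On p (fam j a))) := by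
    ext a; simp
  rw [this]
  refine card_biUnion_le.trans ((sum_le_sum fun j _ => card_on_fam_le hF p j).trans ?_)
  simp

/-- the set of all family lines -/
def famSet (F : Type) [Field F] [Fintype F] [DecidableEq F] : Finset (Line F) :=
  univ.image (fun x : Fin 6 × F => fam x.1 x.2)

lemma fam_mem (j : Fin 6) (a : F) : fam j a ∈ famSet F :=
  mem_image.mpr ⟨(j, a), mem_univ _, rfl⟩

lemma mult_famSet_le (hF : CharBig F) (p : Pt F) : mult (famSet F) p ≤ 12 := by
  unfold mult
  have : (famSet F).filter (fun l => On p l) ⊆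
      univ.biUnion (fun j => (univ.filter (fun a : F => On p (fam j a))).image (fam j)) := by
    intro l hl
    rw [mem_filter, famSet, mem_image] at hl
    obtain ⟨⟨x, _, rfl⟩, h⟩ := hl
    exact mem_biUnion.mpr ⟨x.1, mem_univ _, mem_image.mpr ⟨x.2, by simpa using h, rfl⟩⟩
  refine (card_le_card this).trans (card_biUnion_le.trans ?_)
  refine (sum_le_sum fun j _ => card_image_le.trans (card_on_fam_le hF p j)).trans ?_
  simp

/-- types of slope `b` for which no active family line outside `E` passes through `p` -/
def alw (E : Finset (Line F)) (p : Pt F) (b : F) : Finset (Fin 4) :=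
  univ.filter (fun t => ∀ j, act t j = true → fam j b ∉ E → ¬ On p (fam j b))

lemma alw_ne_univ {E : Finset (Line F)} {p : Pt F} {b : F} (h : alw E p b ≠ univ) :
    ∃ j, fam j b ∉ E ∧ On p (fam j b) := by
  by_contra hc
  apply h
  ext t
  simp only [alw, mem_filter, mem_univ, true_and, iff_true]
  intro j _ hE hp
  exact hc ⟨j, hE, hp⟩

lemma alw_nonempty (hF : CharBig F) (E : Finset (Line F)) (p : Pt F) (b : F) :
    (alw E p b).Nonempty := by
  by_cases h : On p (fam 0 b)
  · refine ⟨1, ?_⟩
    simp only [alw, mem_filter, mem_univ, true_and]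
    intro j hj _ hp
    have := on_fam_unique hF h hp
    subst this
    exact absurd hj (by decide)
  · refine ⟨0, ?_⟩
    simp only [alw, mem_filter, mem_univ, true_and]
    intro j hj _ hp
    have : j = 0 := (by decide : ∀ j : Fin 6, act 0 j = true → j = 0) j hj
    subst this
    exact h hp

lemma card_alw_ne_univ (hF : CharBig F) (E : Finset (Line F)) (p : Pt F) :
    (univ.filter (fun b => alw E p b ≠ univ)).card ≤ 12 := by
  refine le_trans (card_le_card ?_) (card_dirs_le hF p)
  intro b hb
  simp only [mem_filter, mem_univ, true_and] at hb ⊢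
  obtain ⟨j, _, h⟩ := alw_ne_univ hb
  exact ⟨j, h⟩

lemma card_alw (hF : CharBig F) (E : Finset (Line F)) (p : Pt F) (b : F) :
    ((alw E p b).card : ℝ) / 4 = ∏ j, if fam j b ∉ E ∧ On p (fam j b) then pin j else 1 := by
  by_cases h : ∃ j, fam j b ∉ E ∧ On p (fam j b)
  · obtain ⟨j, hE, hp⟩ := h
    rw [prod_eq_single j, if_pos ⟨hE, hp⟩, ← card_inactive]
    · congr 3
      ext t
      simp only [alw, mem_filter, mem_univ, true_and]
      constructor
      · intro h
        by_contra hc
        exact h j (by simpa using hc) hE hp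
      · intro h j' hj' _ hp'
        have := on_fam_unique hF hp hp'
        subst this
        rw [h] at hj'; exact absurd hj' (by simp)
    · intro j' _ hne
      rw [if_neg]
      rintro ⟨_, hp'⟩
      exact hne (on_fam_unique hF hp' hp)
    · intro h; exact absurd (mem_univ j) h
  · have h1 : alw E p b = univ := by
      by_contra hc; exact h (alw_ne_univ hc)
    rw [h1, prod_eq_one]
    · simp
    · intro j _; rw [if_neg (fun hc => h ⟨j, hc⟩)]

lemma prod_alw (hF : CharBig F) (E : Finset (Line F)) (p : Pt F) :
    ∏ b, (((alw E p b).card : ℝ) / Fintype.card (Fin 4)) =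
      ∏ j, pin j ^ (univ.filter (fun b : F => fam j b ∉ E ∧ On p (fam j b))).card := by
  simp only [Fintype.card_fin, Nat.cast_ofNat, card_alw hF]
  rw [prod_comm]
  refine prod_congr rfl fun j _ => ?_
  rw [prod_ite, prod_const, prod_const_one, mul_one]

end

end Crest.Agent.R34
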