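import Mathlib
import Crest.Agent.R34.RDefs

/-!
# Gadget candidates on a split line
-/

set_option autoImplicit false
set_option linter.unusedSectionVars false

namespace Crest.Agent.R34

open Finset Real

/-- four points on a split line, with four slopes (and their types) linking the two classes -/
structure Cand (F : Type) where
  /-- first class -/
  X : Fin 2 → Pt F
  /-- second class -/
  Y : Fin 2 → Pt F
  /-- linking slopes -/
  B : Fin 2 → Fin 2 → F
  /-- types of the linking slopes -/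
  G : Fin 2 → Fin 2 → Fin 4

/-- first merged family of a type -/
def loF : Fin 4 → Fin 6 := ![2, 2, 2, 4]
/-- second merged family of a type -/
def hiF : Fin 4 → Fin 6 := ![3, 3, 3, 5]

variable {F : Type} [Field F] [Fintype F] [DecidableEq F]

namespace Cand

/-- the four points -/
def pts (c : Cand F) : Finset (Pt F) := univ.image c.X ∪ univ.image c.Y

lemma mem_pts {c : Cand F} {z : Pt F} : z ∈ c.pts ↔ (∃ i, c.X i = z) ∨ ∃ j, c.Y j = z := by
  simp [pts]

lemma X_mem (c : Cand F) (i : Fin 2) : c.X i ∈ c.pts := mem_pts.mpr (Or.inl ⟨i, rfl⟩)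
lemma Y_mem (c : Cand F) (i : Fin 2) : c.Y i ∈ c.pts := mem_pts.mpr (Or.inr ⟨i, rfl⟩)

lemma card_pts_le (c : Cand F) : c.pts.card ≤ 4 := by
  refine (card_union_le _ _).trans ?_
  have h1 : (univ.image c.X).card ≤ 2 := card_image_le.trans (by simp)
  have h2 : (univ.image c.Y).card ≤ 2 := card_image_le.trans (by simp)
  omega

/-- conditions on a candidate that do not depend on the random types -/
structure Valid (c : Cand F) (l : Line F) : Prop where
  on : ∀ z ∈ c.pts, On z l
  X_inj : Function.Injective c.X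
  Y_inj : Function.Injective c.Y
  XY : ∀ i j, c.X i ≠ c.Y j
  B_inj : ∀ i j i' j', c.B i j = c.B i' j' → i = i' ∧ j = j'
  G_mem : ∀ i j, c.G i j = 2 ∨ c.G i j = 3
  partner : ∀ i j,
    (On (c.X i) (fam (loF (c.G i j)) (c.B i j)) ∧ On (c.Y j) (fam (hiF (c.G i j)) (c.B i j))) ∨
    (On (c.X i) (fam (hiF (c.G i j)) (c.B i j)) ∧ On (c.Y j) (fam (loF (c.G i j)) (c.B i j)))
  split_avoid : ∀ i j, ∀ z ∈ c.pts, ¬ On z (fam 0 (c.B i j)) ∧ ¬ On z (fam 1 (c.B i j))
  other : ∀ b, (∀ z ∈ c.pts, On z (fam 0 b) → fam 0 b = l) ∨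
    (∀ z ∈ c.pts, On z (fam 1 b) → fam 1 b = l)
  xne : l ≠ (none, 0) → ∀ z ∈ c.pts, z.1 ≠ 0

/-- the candidate succeeds for the types `τ` -/
def Succ (c : Cand F) (l : Line F) (τ : F → Fin 4) : Prop :=
  (∀ i j, τ (c.B i j) = c.G i j) ∧
    ∀ b, (∀ i j, c.B i j ≠ b) → ∀ j', act (τ b) j' = true → ∀ z ∈ c.pts,
      On z (fam j' b) → fam j' b = l

/-- allowed types of the slope `b` -/
def calw (c : Cand F) (l : Line F) (b : F) : Finset (Fin 4) :=
  univ.filter (fun t => (∀ i j, c.B i j = b → t = c.G i j) ∧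
    ((∀ i j, c.B i j ≠ b) → ∀ j', act t j' = true → ∀ z ∈ c.pts, On z (fam j' b) → fam j' b = l))

lemma succ_iff (c : Cand F) (l : Line F) (τ : F → Fin 4) :
    (∀ b, τ b ∈ c.calw l b) ↔ c.Succ l τ := by
  simp only [calw, mem_filter, mem_univ, true_and, Succ]
  constructor
  · intro h
    exact ⟨fun i j => (h _).1 i j rfl, fun b => (h b).2⟩
  · intro h b
    exact ⟨fun i j e => e ▸ h.1 i j, h.2 b⟩

lemma calw_nonempty {c : Cand F} {l : Line F} (hv : c.Valid l) (b : F) :
    (c.calw l b).Nonempty := by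
  by_cases h : ∃ i j, c.B i j = b
  · obtain ⟨i, j, rfl⟩ := h
    refine ⟨c.G i j, ?_⟩
    simp only [calw, mem_filter, mem_univ, true_and]
    refine ⟨fun i' j' e => ?_, fun h => absurd rfl (h i j)⟩
    obtain ⟨rfl, rfl⟩ := hv.B_inj _ _ _ _ e
    rfl
  · rcases hv.other b with h1 | h1
    · refine ⟨0, ?_⟩
      simp only [calw, mem_filter, mem_univ, true_and]
      refine ⟨fun i j e => absurd ⟨i, j, e⟩ h, fun _ j' hj' => ?_⟩
      have : j' = 0 := (by decide : ∀ j : Fin 6, act 0 j = true → j = 0) j' hj'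
      subst this; exact h1
    · refine ⟨1, ?_⟩
      simp only [calw, mem_filter, mem_univ, true_and]
      refine ⟨fun i j e => absurd ⟨i, j, e⟩ h, fun _ j' hj' => ?_⟩
      have : j' = 1 := (by decide : ∀ j : Fin 6, act 1 j = true → j = 1) j' hj'
      subst this; exact h1

lemma calw_ne_univ {c : Cand F} {l : Line F} {b : F} (h : c.calw l b ≠ univ) :
    (∃ i j, c.B i j = b) ∨ ∃ j', ∃ z ∈ c.pts, On z (fam j' b) ∧ fam j' b ≠ l := by
  by_contra hc
  push Not at hc
  apply h
  ext t
  simp only [calw, mem_filter, mem_univ, true_and, iff_true]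
  exact ⟨fun i j e => absurd e (hc.1 i j), fun _ j' _ z hz hon => hc.2 j' z hz hon⟩

lemma card_calw_ne_univ (hF : CharBig F) (c : Cand F) (l : Line F) :
    (univ.filter (fun b => c.calw l b ≠ univ)).card ≤ 52 := by
  have : univ.filter (fun b => c.calw l b ≠ univ) ⊆
      univ.image (fun x : Fin 2 × Fin 2 => c.B x.1 x.2) ∪
        c.pts.biUnion (fun z => univ.filter (fun a : F => ∃ j, On z (fam j a))) := by
    intro b hb
    rcases calw_ne_univ (mem_filter.mp hb).2 with ⟨i, j, e⟩ | ⟨j', z, hz, hon, _⟩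
    · exact mem_union_left _ (mem_image.mpr ⟨(i, j), mem_univ _, e⟩)
    · exact mem_union_right _ (mem_biUnion.mpr ⟨z, hz, mem_filter.mpr ⟨mem_univ _, j', hon⟩⟩)
  refine (card_le_card this).trans ((card_union_le _ _).trans ?_)
  have h1 : (univ.image (fun x : Fin 2 × Fin 2 => c.B x.1 x.2)).card ≤ 4 :=
    card_image_le.trans (by simp)
  have h2 : (c.pts.biUnion (fun z => univ.filter (fun a : F => ∃ j, On z (fam j a)))).card
      ≤ 48 := by
    refine card_biUnion_le.trans ((sum_le_sum fun z _ => card_dirs_le hF z).trans ?_)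
    have := c.card_pts_le
    simp only [sum_const, smul_eq_mul]
    omega
  omega

end Cand

/-- A family of candidates on the line `l` with bounded overlaps. -/
structure CandFam (l : Line F) (I : Finset F) (c : F → Cand F) : Prop where
  valid : ∀ u ∈ I, (c u).Valid l
  hB : ∀ b, (I.filter (fun u => ∃ i j, (c u).B i j = b)).card ≤ 4
  hP : ∀ z, (I.filter (fun u => z ∈ (c u).pts)).card ≤ 8
  big : (Fintype.card F : ℝ) / 32 ≤ I.card

lemma CandFam.card_ne_univ {l : Line F} {I : Finset F} {c : F → Cand F} (h : CandFam l I c)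
    (b : F) : (I.filter (fun u => (c u).calw l b ≠ univ)).card ≤ 52 := by
  classical
  have key : ∀ j' : Fin 6, (I.filter (fun u => ∃ z ∈ (c u).pts,
      On z (fam j' b) ∧ fam j' b ≠ l)).card ≤ 8 := by
    intro j'
    by_cases hz : ∃ z, On z l ∧ On z (fam j' b) ∧ fam j' b ≠ l
    · obtain ⟨z, h1, h2, h3⟩ := hz
      refine le_trans (card_le_card ?_) (h.hP z)
      intro u hu
      rw [mem_filter] at hu ⊢
      obtain ⟨hu, z', hz', h4, _⟩ := hu
      have := eq_of_on_on h3 h4 ((h.valid u hu).on z' hz') h2 h1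
      exact ⟨hu, this ▸ hz'⟩
    · rw [filter_false_of_mem]
      · simp
      · rintro u hu ⟨z, hz', h4, h5⟩
        exact hz ⟨z, (h.valid u hu).on z hz', h4, h5⟩
  have : I.filter (fun u => (c u).calw l b ≠ univ) ⊆
      I.filter (fun u => ∃ i j, (c u).B i j = b) ∪
        univ.biUnion (fun j' : Fin 6 => I.filter (fun u => ∃ z ∈ (c u).pts,
          On z (fam j' b) ∧ fam j' b ≠ l)) := by
    intro u hu
    rw [mem_filter] at hu
    rcases Cand.calw_ne_univ hu.2 with h1 | ⟨j', h1⟩
    · exact mem_union_left _ (mem_filter.mpr ⟨hu.1, h1⟩)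
    · exact mem_union_right _ (mem_biUnion.mpr ⟨j', mem_univ _, mem_filter.mpr ⟨hu.1, h1⟩⟩)
  refine (card_le_card this).trans ((card_union_le _ _).trans ?_)
  have h2 := card_biUnion_le.trans (sum_le_sum fun j' (_ : j' ∈ univ) => key j')
  have h1 := h.hB b
  simp only [sum_const, card_univ, Fintype.card_fin, smul_eq_mul] at h2
  omega

/-- the constant in the gadget estimate -/
noncomputable def kap : ℝ := 1 / (64 * 4 ^ 52)

lemma kap_pos : 0 < kap := by unfold kap; positivity

lemma CandFam.tail (hF : CharBig F) {l : Line F} {I : Finset F} {c : F → Cand F}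
    (h : CandFam l I c) :
    ((univ.filter (fun τ : F → Fin 4 =>
        (cnt I (fun u => (c u).calw l) τ : ℝ) < kap * Fintype.card F)).card : ℝ) ≤
      (Fintype.card (F → Fin 4) : ℝ) * exp (-(kap ^ 2 / 5408 * Fintype.card F)) := by
  have hq : (0 : ℝ) < Fintype.card F := by exact_mod_cast Fintype.card_pos
  have hμ : 2 * kap * Fintype.card F ≤ avg (fun τ => (cnt I (fun u => (c u).calw l) τ : ℝ)) := by
    rw [avg_cnt]
    calc 2 * kap * Fintype.card F = (Fintype.card F : ℝ) / 32 * (1 / 4) ^ 52 := by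
          unfold kap; field_simp; norm_num
      _ ≤ I.card * (1 / 4) ^ 52 := mul_le_mul_of_nonneg_right h.big (by positivity)
      _ = ∑ _u ∈ I, (1 / (Fintype.card (Fin 4) : ℝ)) ^ 52 := by simp
      _ ≤ _ := sum_le_sum fun u hu => prod_card_ge _ 52 (Cand.calw_nonempty (h.valid u hu))
          (Cand.card_calw_ne_univ hF _ _)
  have := cnt_lower I (fun u => (c u).calw l) ((52 : ℕ) ^ 2 * Fintype.card F)
    (kap * Fintype.card F) (2 * kap * Fintype.card F)
    (sum_sq_le_of_le _ 52 h.card_ne_univ) (by positivity) (by have := kap_pos; positivity) hμ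
  have e1 : 2 * kap * Fintype.card F - kap * Fintype.card F = kap * Fintype.card F := by ring
  have e2 : (kap * Fintype.card F) ^ 2 / (2 * (((52 : ℕ) : ℝ) ^ 2 * Fintype.card F))
      = kap ^ 2 / 5408 * Fintype.card F := by
    push_cast; field_simp; ring
  rw [e1, e2] at this
  exact this

end Crest.Agent.R34
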