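import Mathlib
import Crest.Agent.R34.Cand

/-!
# Gadget candidates on the non-vertical split lines
-/

set_option autoImplicit false
set_option linter.unusedSectionVars false

namespace Crest.Agent.R34

open Finset Polynomial

/-- split families -/
def spF : Fin 2 → Fin 6 := ![0, 1]
/-- merged types -/
def mT : Fin 2 → Fin 4 := ![2, 3]
/-- half distance of the merged pair -/
def delZ : Fin 2 → ℤ := ![1, 3]

variable {F : Type} [Field F] [Fintype F] [DecidableEq F]

lemma card_roots_le (p : F[X]) (hp : p ≠ 0) :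
    (univ.filter (fun u : F => p.eval u = 0)).card ≤ p.natDegree := by
  refine le_trans (card_le_card (t := p.roots.toFinset) ?_)
    ((Multiset.toFinset_card_le _).trans (card_roots' p))
  intro u hu
  simp only [mem_filter, mem_univ, true_and] at hu
  simp [hp, hu]

lemma card_quad_le (α β γ : F) (h : α ≠ 0 ∨ γ ≠ 0) :
    (univ.filter (fun u : F => α * u ^ 2 + β * u + γ = 0)).card ≤ 2 := by
  have hp : (C α * X ^ 2 + C β * X + C γ : F[X]) ≠ 0 := by
    intro e
    have h2 := congrArg (fun p => p.coeff 2) e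
    have h0 := congrArg (fun p => p.coeff 0) e
    simp [coeff_X, coeff_C] at h2 h0
    tauto
  have := card_roots_le _ hp
  simp only [eval_add, eval_mul, eval_C, eval_pow, eval_X] at this
  exact this.trans natDegree_quadratic_le

lemma card_quartic_le (α β γ : F) (h : γ ≠ 0) :
    (univ.filter (fun u : F => α * u ^ 4 + β * u ^ 2 + γ = 0)).card ≤ 4 := by
  have hp : (C α * X ^ 4 + C β * X ^ 2 + C γ : F[X]) ≠ 0 := by
    intro e
    have h0 := congrArg (fun p => p.coeff 0) e
    simp at h0
    exact h h0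
  have := card_roots_le _ hp
  simp only [eval_add, eval_mul, eval_C, eval_pow, eval_X] at this
  refine this.trans ?_
  compute_degree

/-- the point with parameter `ξ` on the split line -/
def ptOn (s : Fin 2) (a ξ : F) : Pt F := (ξ - 2 * a, a * (ξ - 2 * a) + a ^ 2 + off F (spF s))

lemma ptOn_on (s : Fin 2) (a ξ : F) (j : Fin 6) (b : F) :
    On (ptOn s a ξ) (fam j b) ↔ (b - a) * (ξ + (b - a)) = off F (spF s) - off F j := by
  rw [on_fam]
  simp only [ptOn]
  constructor <;> intro h <;> linear_combination -h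

lemma ptOn_inj (s : Fin 2) (a : F) {ξ ξ' : F} (h : ptOn s a ξ = ptOn s a ξ') : ξ = ξ' := by
  have := congrArg Prod.fst h
  simp only [ptOn] at this
  linear_combination this

/-- the candidate with parameters `u`, `v` -/
def candUV (s : Fin 2) (a u v : F) : Cand F where
  X := ![ptOn s a (-u + v), ptOn s a (u - v)]
  Y := ![ptOn s a (-u - v), ptOn s a (u + v)]
  B := ![![a + u, a - v], ![a + v, a - u]]
  G := fun _ _ => mT s

/-- the candidate with parameter `u` -/
def candS (s : Fin 2) (a u : F) : Cand F := candUV s a u ((delZ s : F) / u)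

lemma mem_pts_candUV {s : Fin 2} {a u v : F} {z : Pt F} :
    z ∈ (candUV s a u v).pts ↔ z = ptOn s a (-u + v) ∨ z = ptOn s a (u - v) ∨
      z = ptOn s a (-u - v) ∨ z = ptOn s a (u + v) := by
  rw [Cand.mem_pts]
  simp only [candUV, Fin.exists_fin_two]
  simp only [Fin.isValue, Matrix.cons_val_zero, Matrix.cons_val_one]
  constructor
  · rintro ((h | h) | h | h) <;> simp [← h]
  · rintro (h | h | h | h) <;> simp [h]

/-- nondegeneracy of the parameters -/
def GoodUV (u v : F) : Prop :=
  ∀ n ∈ Icc (-60 : ℤ) 60, 2 * u ^ 2 ≠ n ∧ 2 * v ^ 2 ≠ n ∧ 2 * u ^ 2 + 2 * v ^ 2 ≠ n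

noncomputable instance (u v : F) : Decidable (GoodUV u v) := Classical.dec _

/-- the arithmetic core: a product `w (ξ + w)` avoids the values `κ` -/
lemma avoid_core (hF : CharBig F) {u v : F} (hg : GoodUV u v) {δ κ : ℤ} (huv : u * v = δ)
    (hδ : δ = 1 ∨ δ = 3) (hκ : κ = 0 ∨ κ = 10 ∨ κ = -10) {w ξ : F}
    (hw : w = u ∨ w = -v ∨ w = v ∨ w = -u)
    (hξ : ξ = -u + v ∨ ξ = u - v ∨ ξ = -u - v ∨ ξ = u + v) : w * (ξ + w) ≠ κ := by
  intro h
  have A1 : (2 * u ^ 2 : F) ≠ ((κ + δ : ℤ) : F) := (hg _ (by rw [mem_Icc]; omega)).1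
  have A2 : (2 * u ^ 2 : F) ≠ ((κ - δ : ℤ) : F) := (hg _ (by rw [mem_Icc]; omega)).1
  have A3 : (2 * v ^ 2 : F) ≠ ((κ + δ : ℤ) : F) := (hg _ (by rw [mem_Icc]; omega)).2.1
  have A4 : (2 * v ^ 2 : F) ≠ ((κ - δ : ℤ) : F) := (hg _ (by rw [mem_Icc]; omega)).2.1
  have A5 : ((κ + δ : ℤ) : F) ≠ 0 := hF.int_ne (by omega) (by rw [abs_le]; omega)
  have A6 : ((κ - δ : ℤ) : F) ≠ 0 := hF.int_ne (by omega) (by rw [abs_le]; omega)
  push_cast at A1 A2 A3 A4 A5 A6
  rcases hw with rfl | rfl | rfl | rfl <;> rcases hξ with rfl | rfl | rfl | rfl <;>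
    first
    | exact A1 (by linear_combination h + huv)
    | exact A1 (by linear_combination h - huv)
    | exact A2 (by linear_combination h + huv)
    | exact A2 (by linear_combination h - huv)
    | exact A3 (by linear_combination h + huv)
    | exact A3 (by linear_combination h - huv)
    | exact A4 (by linear_combination h + huv)
    | exact A4 (by linear_combination h - huv)
    | exact A5 (by linear_combination -h + huv)
    | exact A5 (by linear_combination -h - huv)
    | exact A6 (by linear_combination -h + huv)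

lemma avoid_core2 (hF : CharBig F) {u v : F} (hg : GoodUV u v) {δ κ : ℤ} (huv : u * v = δ)
    (hδ : δ = 1 ∨ δ = 3) (hκ : κ = 10 ∨ κ = -10) {ξ ξ' : F}
    (hξ : ξ = -u + v ∨ ξ = u - v ∨ ξ = -u - v ∨ ξ = u + v)
    (hξ' : ξ' = -u + v ∨ ξ' = u - v ∨ ξ' = -u - v ∨ ξ' = u + v) : ξ * (ξ - ξ') ≠ κ := by
  intro h
  have A1 : (2 * u ^ 2 : F) ≠ ((κ + 2 * δ : ℤ) : F) := (hg _ (by rw [mem_Icc]; omega)).1
  have A2 : (2 * u ^ 2 : F) ≠ ((κ - 2 * δ : ℤ) : F) := (hg _ (by rw [mem_Icc]; omega)).1
  have A3 : (2 * v ^ 2 : F) ≠ ((κ + 2 * δ : ℤ) : F) := (hg _ (by rw [mem_Icc]; omega)).2.1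
  have A4 : (2 * v ^ 2 : F) ≠ ((κ - 2 * δ : ℤ) : F) := (hg _ (by rw [mem_Icc]; omega)).2.1
  have A5 : (2 * u ^ 2 + 2 * v ^ 2 : F) ≠ ((κ + 4 * δ : ℤ) : F) :=
    (hg _ (by rw [mem_Icc]; omega)).2.2
  have A6 : (2 * u ^ 2 + 2 * v ^ 2 : F) ≠ ((κ - 4 * δ : ℤ) : F) :=
    (hg _ (by rw [mem_Icc]; omega)).2.2
  have A7 : ((κ : ℤ) : F) ≠ 0 := hF.int_ne (by omega) (by rw [abs_le]; omega)
  push_cast at A1 A2 A3 A4 A5 A6
  rcases hξ with rfl | rfl | rfl | rfl <;> rcases hξ' with rfl | rfl | rfl | rfl <;>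
    first
    | exact A7 (by linear_combination -h)
    | exact A1 (by linear_combination h + 2 * huv)
    | exact A2 (by linear_combination h - 2 * huv)
    | exact A3 (by linear_combination h + 2 * huv)
    | exact A4 (by linear_combination h - 2 * huv)
    | exact A5 (by linear_combination h + 4 * huv)
    | exact A6 (by linear_combination h - 4 * huv)

lemma candUV_valid (hF : CharBig F) (s : Fin 2) (a u v : F) (hg : GoodUV u v)
    (huv : u * v = (delZ s : F)) (hx : ∀ z ∈ (candUV s a u v).pts, z.1 ≠ 0) :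
    (candUV s a u v).Valid (fam (spF s) a) := by
  have hδ : delZ s = 1 ∨ delZ s = 3 := (by decide : ∀ s : Fin 2, delZ s = 1 ∨ delZ s = 3) s
  have h2 := hF.two_ne
  have hu : u ≠ 0 := by
    intro h; exact (hg 0 (by simp)).1 (by rw [h]; simp)
  have hv : v ≠ 0 := by
    intro h; exact (hg 0 (by simp)).2.1 (by rw [h]; simp)
  have h1 : u - v ≠ 0 := by
    intro h
    refine (hg (2 * delZ s) (by rw [mem_Icc]; omega)).1 ?_
    push_cast; linear_combination 2 * huv + 2 * u * h
  have h3 : u + v ≠ 0 := by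
    intro h
    refine (hg (-(2 * delZ s)) (by rw [mem_Icc]; omega)).1 ?_
    push_cast; linear_combination -2 * huv + 2 * u * h
  have hu2 : 2 * u ≠ 0 := mul_ne_zero h2 hu
  have hv2 : 2 * v ≠ 0 := mul_ne_zero h2 hv
  have h12 : 2 * (u - v) ≠ 0 := mul_ne_zero h2 h1
  have h32 : 2 * (u + v) ≠ 0 := mul_ne_zero h2 h3
  have hpt : ∀ z ∈ (candUV s a u v).pts, ∃ ξ, z = ptOn s a ξ ∧
      (ξ = -u + v ∨ ξ = u - v ∨ ξ = -u - v ∨ ξ = u + v) := by
    intro z hz
    rcases mem_pts_candUV.mp hz with h | h | h | h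
    · exact ⟨_, h, by simp⟩
    · exact ⟨_, h, by simp⟩
    · exact ⟨_, h, by simp⟩
    · exact ⟨_, h, by simp⟩
  have hB : ∀ i j, (candUV s a u v).B i j - a = u ∨ (candUV s a u v).B i j - a = -v ∨
      (candUV s a u v).B i j - a = v ∨ (candUV s a u v).B i j - a = -u := by
    intro i j
    fin_cases i <;> fin_cases j <;> simp [candUV]
  have hlo : off F (spF s) - off F (loF (mT s)) = delZ s := by
    fin_cases s <;> simp [off, spF, loF, mT, delZ, offZ] <;> norm_num
  have hhi : off F (spF s) - off F (hiF (mT s)) = -delZ s := by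
    fin_cases s <;> simp [off, spF, hiF, mT, delZ, offZ] <;> norm_num
  refine ⟨?_, ?_, ?_, ?_, ?_, ?_, ?_, ?_, ?_, fun _ => hx⟩
  · intro z hz
    obtain ⟨ξ, rfl, _⟩ := hpt z hz
    rw [ptOn_on]; ring
  · intro i j h
    fin_cases i <;> fin_cases j <;> simp only [candUV] at h ⊢
    · exact absurd (by linear_combination -(ptOn_inj s a h)) h12
    · exact absurd (by linear_combination (ptOn_inj s a h)) h12
  · intro i j h
    fin_cases i <;> fin_cases j <;> simp only [candUV] at h ⊢
    · exact absurd (by linear_combination -(ptOn_inj s a h)) h32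
    · exact absurd (by linear_combination (ptOn_inj s a h)) h32
  · intro i j h
    fin_cases i <;> fin_cases j <;> simp only [candUV] at h
    · exact hv2 (by linear_combination (ptOn_inj s a h))
    · exact hu2 (by linear_combination -(ptOn_inj s a h))
    · exact hu2 (by linear_combination (ptOn_inj s a h))
    · exact hv2 (by linear_combination -(ptOn_inj s a h))
  · intro i j i' j' h
    fin_cases i <;> fin_cases j <;> fin_cases i' <;> fin_cases j' <;>
      simp [candUV] at h ⊢ <;>
      first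
      | exact h1 (by linear_combination h)
      | exact h1 (by linear_combination -h)
      | exact h3 (by linear_combination h)
      | exact h3 (by linear_combination -h)
      | exact hu2 (by linear_combination h)
      | exact hu2 (by linear_combination -h)
      | exact hv2 (by linear_combination h)
      | exact hv2 (by linear_combination -h)
  · intro i j
    simp only [candUV]
    exact (by decide : ∀ s : Fin 2, mT s = 2 ∨ mT s = 3) s
  · intro i j
    left
    fin_cases i <;> fin_cases j <;> simp only [candUV] <;>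
      simp only [Fin.zero_eta, Fin.mk_one, Fin.isValue, Matrix.cons_val_zero, Matrix.cons_val_one,
        Matrix.cons_val_fin_one, ptOn_on, hlo, hhi] <;>
      constructor <;> first | linear_combination huv | linear_combination -huv
  · intro i j z hz
    obtain ⟨ξ, rfl, hξ⟩ := hpt z hz
    have k0 : ∃ κ : ℤ, (κ = 0 ∨ κ = 10 ∨ κ = -10) ∧ off F (spF s) - off F 0 = κ := by
      fin_cases s
      · exact ⟨0, by simp, by simp [off, spF, offZ]⟩
      · exact ⟨10, by simp, by simp [off, spF, offZ]⟩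
    have k1 : ∃ κ : ℤ, (κ = 0 ∨ κ = 10 ∨ κ = -10) ∧ off F (spF s) - off F 1 = κ := by
      fin_cases s
      · exact ⟨-10, by simp, by simp [off, spF, offZ]⟩
      · exact ⟨0, by simp, by simp [off, spF, offZ]⟩
    obtain ⟨κ0, hκ0, e0⟩ := k0
    obtain ⟨κ1, hκ1, e1⟩ := k1
    rw [ptOn_on, ptOn_on, e0, e1]
    exact ⟨avoid_core hF hg huv hδ hκ0 (hB i j) hξ, avoid_core hF hg huv hδ hκ1 (hB i j) hξ⟩
  · intro b
    by_cases hb : b = a
    · subst hb
      fin_cases s
      · left; intro _ _ _; rfl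
      · right; intro _ _ _; rfl
    · have hw : b - a ≠ 0 := sub_ne_zero.mpr hb
      by_contra hc
      push Not at hc
      obtain ⟨⟨z, hz, h0, _⟩, ⟨z', hz', h1', _⟩⟩ := hc
      obtain ⟨ξ, rfl, hξ⟩ := hpt z hz
      obtain ⟨ξ', rfl, hξ'⟩ := hpt z' hz'
      rw [ptOn_on] at h0 h1'
      fin_cases s
      · have e0 : ξ + (b - a) = 0 := by
          have : (b - a) * (ξ + (b - a)) = 0 := by rw [h0]; simp [spF]
          exact (mul_eq_zero.mp this).resolve_left hw
        refine avoid_core2 hF hg huv hδ (κ := -10) (by simp) hξ hξ' ?_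
        have e1 : (b - a) * (ξ' + (b - a)) = -10 := by rw [h1']; simp [off, spF, offZ]
        push_cast
        linear_combination e1 + (ξ - ξ' - (b - a)) * e0
      · have e0 : ξ' + (b - a) = 0 := by
          have : (b - a) * (ξ' + (b - a)) = 0 := by rw [h1']; simp [spF]
          exact (mul_eq_zero.mp this).resolve_left hw
        refine avoid_core2 hF hg huv hδ (κ := 10) (by simp) hξ' hξ ?_
        have e1 : (b - a) * (ξ + (b - a)) = 10 := by rw [h0]; simp [off, spF, offZ]
        push_cast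
        linear_combination e1 + (ξ' - ξ - (b - a)) * e0

/-- admissible parameters -/
noncomputable def parS (s : Fin 2) (a : F) : Finset F :=
  univ.filter (fun u => u ≠ 0 ∧ GoodUV u ((delZ s : F) / u) ∧ ∀ z ∈ (candS s a u).pts, z.1 ≠ 0)

lemma delZ_ne (hF : CharBig F) (s : Fin 2) : (delZ s : F) ≠ 0 := by
  have hδ : delZ s = 1 ∨ delZ s = 3 := (by decide : ∀ s : Fin 2, delZ s = 1 ∨ delZ s = 3) s
  exact hF.int_ne (by omega) (by rw [abs_le]; omega)

lemma card_pts_candS (hF : CharBig F) (s : Fin 2) (a : F) (P : F → Prop) [DecidablePred P]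
    (hP : ∀ ξ ξ', P ξ → P ξ' → ξ = ξ') (Q : Pt F → Prop) [DecidablePred Q]
    (hQ : ∀ ξ, Q (ptOn s a ξ) → P ξ) :
    (univ.filter (fun u : F => u ≠ 0 ∧ ∃ z ∈ (candS s a u).pts, Q z)).card ≤ 8 := by
  by_cases hex : ∃ ξ, P ξ
  · obtain ⟨ξ, hξ⟩ := hex
    have hδ := delZ_ne hF s
    set δ : F := (delZ s : F)
    have hsub : univ.filter (fun u : F => u ≠ 0 ∧ ∃ z ∈ (candS s a u).pts, Q z) ⊆
        (univ.filter (fun u : F => (-1) * u ^ 2 + (-ξ) * u + δ = 0) ∪
          univ.filter (fun u : F => 1 * u ^ 2 + (-ξ) * u + (-δ) = 0)) ∪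
        (univ.filter (fun u : F => (-1) * u ^ 2 + (-ξ) * u + (-δ) = 0) ∪
          univ.filter (fun u : F => 1 * u ^ 2 + (-ξ) * u + δ = 0)) := by
      intro u hu
      simp only [mem_filter, mem_univ, true_and, mem_union] at hu ⊢
      obtain ⟨hu0, z, hz, hq⟩ := hu
      have huv : u * (δ / u) = δ := by field_simp
      rcases mem_pts_candUV.mp hz with h | h | h | h <;> rw [h] at hq <;>
        have e := hP _ _ (hQ _ hq) hξ
      · left; left; linear_combination u * e - huv
      · left; right; linear_combination u * e + huv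
      · right; left; linear_combination u * e + huv
      · right; right; linear_combination u * e - huv
    refine (card_le_card hsub).trans ((card_union_le _ _).trans ?_)
    have h1 := card_quad_le (-1 : F) (-ξ) δ (Or.inr hδ)
    have h2 := card_quad_le (1 : F) (-ξ) (-δ) (Or.inl one_ne_zero)
    have h3 := card_quad_le (-1 : F) (-ξ) (-δ) (Or.inr (neg_ne_zero.mpr hδ))
    have h4 := card_quad_le (1 : F) (-ξ) δ (Or.inl one_ne_zero)
    have h5 := card_union_le (univ.filter (fun u : F => (-1) * u ^ 2 + (-ξ) * u + δ = 0))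
      (univ.filter (fun u : F => 1 * u ^ 2 + (-ξ) * u + (-δ) = 0))
    have h6 := card_union_le (univ.filter (fun u : F => (-1) * u ^ 2 + (-ξ) * u + (-δ) = 0))
      (univ.filter (fun u : F => 1 * u ^ 2 + (-ξ) * u + δ = 0))
    omega
  · rw [filter_false_of_mem]
    · simp
    · rintro u _ ⟨_, z, hz, hq⟩
      rcases mem_pts_candUV.mp hz with h | h | h | h <;> rw [h] at hq <;> exact hex ⟨_, hQ _ hq⟩

lemma card_not_good (hF : CharBig F) (s : Fin 2) :
    (univ.filter (fun u : F => u ≠ 0 ∧ ¬ GoodUV u ((delZ s : F) / u))).card ≤ 968 := by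
  have hδ := delZ_ne hF s
  set δ : F := (delZ s : F)
  have h2 := hF.two_ne
  have hδ2 : 2 * δ ^ 2 ≠ 0 := mul_ne_zero h2 (pow_ne_zero _ hδ)
  have hsub : univ.filter (fun u : F => u ≠ 0 ∧ ¬ GoodUV u (δ / u)) ⊆
      (Icc (-60 : ℤ) 60).biUnion (fun n =>
        (univ.filter (fun u : F => 2 * u ^ 2 + 0 * u + (-(n : F)) = 0) ∪
          univ.filter (fun u : F => (-(n : F)) * u ^ 2 + 0 * u + 2 * δ ^ 2 = 0)) ∪
        univ.filter (fun u : F => 2 * u ^ 4 + (-(n : F)) * u ^ 2 + 2 * δ ^ 2 = 0)) := by
    intro u hu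
    simp only [mem_filter, mem_univ, true_and] at hu
    obtain ⟨hu0, hg⟩ := hu
    unfold GoodUV at hg
    push Not at hg
    obtain ⟨n, hn, hg⟩ := hg
    have huv : u * (δ / u) = δ := by field_simp
    refine mem_biUnion.mpr ⟨n, hn, ?_⟩
    simp only [mem_filter, mem_univ, true_and, mem_union]
    by_cases h1 : 2 * u ^ 2 = n
    · left; left; linear_combination h1
    · by_cases h3 : 2 * (δ / u) ^ 2 = n
      · left; right; linear_combination u ^ 2 * h3 - 2 * (u * (δ / u) + δ) * huv
      · right; linear_combination u ^ 2 * (hg h1 h3) - 2 * (u * (δ / u) + δ) * huv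
  refine (card_le_card hsub).trans (card_biUnion_le.trans ?_)
  refine (sum_le_sum (g := fun _ => 8) fun n _ => ?_).trans (by simp)
  have h1 := card_quad_le (2 : F) 0 (-(n : F)) (Or.inl h2)
  have h3 := card_quad_le (-(n : F)) 0 (2 * δ ^ 2) (Or.inr hδ2)
  have h4 := card_quartic_le (2 : F) (-(n : F)) (2 * δ ^ 2) hδ2
  have h5 := card_union_le (univ.filter (fun u : F => 2 * u ^ 2 + 0 * u + (-(n : F)) = 0))
    (univ.filter (fun u : F => (-(n : F)) * u ^ 2 + 0 * u + 2 * δ ^ 2 = 0))
  refine (card_union_le _ _).trans ?_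
  omega

theorem candFam_slope (hF : CharBig F) (hq : 1100 ≤ Fintype.card F) (s : Fin 2) (a : F) :
    CandFam (fam (spF s) a) (parS s a) (candS s a) := by
  have hδ := delZ_ne hF s
  refine ⟨?_, ?_, ?_, ?_⟩
  · intro u hu
    simp only [parS, mem_filter, mem_univ, true_and] at hu
    exact candUV_valid hF s a u _ hu.2.1 (by field_simp [hu.1]) hu.2.2
  · intro b
    have hsub : (parS s a).filter (fun u => ∃ i j, (candS s a u).B i j = b) ⊆
        {b - a, a - b, (delZ s : F) / (a - b), (delZ s : F) / (b - a)} := by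
      intro u hu
      simp only [parS, mem_filter, mem_univ, true_and] at hu
      obtain ⟨⟨hu0, _⟩, i, j, h⟩ := hu
      simp only [mem_insert, mem_singleton]
      fin_cases i <;> fin_cases j <;> simp [candS, candUV] at h
      · left; linear_combination h
      · right; right; left; rw [← h, sub_sub_cancel]; field_simp
      · right; right; right; rw [← h, add_sub_cancel_left]; field_simp
      · right; left; linear_combination -h
    exact (card_le_card hsub).trans card_le_four
  · intro z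
    refine le_trans (card_le_card ?_) (card_pts_candS hF s a (fun ξ => ptOn s a ξ = z)
      (fun ξ ξ' h h' => ptOn_inj s a (h.trans h'.symm)) (fun p => p = z) (fun _ h => h))
    intro u hu
    simp only [parS, mem_filter, mem_univ, true_and] at hu ⊢
    exact ⟨hu.1.1, z, hu.2, rfl⟩
  · have h1 := card_not_good hF s
    have h2 := card_pts_candS hF s a (fun ξ => ξ = 2 * a) (fun ξ ξ' h h' => h.trans h'.symm)
      (fun p => p.1 = 0) (fun ξ h => by simp only [ptOn] at h; linear_combination h)
    have hsub : (univ : Finset F) ⊆ parS s a ∪ ({0} ∪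
        (univ.filter (fun u : F => u ≠ 0 ∧ ¬ GoodUV u ((delZ s : F) / u)) ∪
          univ.filter (fun u : F => u ≠ 0 ∧ ∃ z ∈ (candS s a u).pts, z.1 = 0))) := by
      intro u _
      simp only [parS, mem_union, mem_filter, mem_univ, true_and, mem_singleton]
      by_cases h0 : u = 0
      · exact Or.inr (Or.inl h0)
      by_cases hg : GoodUV u ((delZ s : F) / u)
      · by_cases hz : ∃ z ∈ (candS s a u).pts, z.1 = 0
        · exact Or.inr (Or.inr (Or.inr ⟨h0, hz⟩))
        · push Not at hz
          exact Or.inl ⟨h0, hg, hz⟩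
      · exact Or.inr (Or.inr (Or.inl ⟨h0, hg⟩))
    have h3 := (card_le_card hsub).trans ((card_union_le _ _).trans (Nat.add_le_add_left
      ((card_union_le _ _).trans (Nat.add_le_add_left (card_union_le _ _) _)) _))
    rw [card_univ, card_singleton] at h3
    have h4 : Fintype.card F ≤ (parS s a).card + 977 := by omega
    have h5 : (Fintype.card F : ℝ) ≤ (parS s a).card + 977 := by exact_mod_cast h4
    have h6 : (1100 : ℝ) ≤ Fintype.card F := by exact_mod_cast hq
    linarith

end Crest.Agent.R34
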