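import Mathlib
import Crest.Agent.R34.Cand

/-!
# Gadget candidates on the vertical split line
-/

set_option autoImplicit false
set_option linter.unusedSectionVars false

namespace Crest.Agent.R34

open Finset

/-- shifts whose square roots are the linking slopes -/
def shZ : Fin 2 → Fin 2 → ℤ := ![![1, -7], ![-5, 7]]
/-- offsets of the first class -/
def vxZ : Fin 2 → ℤ := ![0, 8]
/-- offsets of the second class -/
def vyZ : Fin 2 → ℤ := ![2, 6]
/-- types of the linking slopes -/
def vG : Fin 2 → Fin 2 → Fin 4 := ![![2, 3], ![3, 2]]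

variable {F : Type} [Field F] [Fintype F] [DecidableEq F]

open Classical in
/-- a square root, when there is one -/
noncomputable def rt (w : F) : F := if h : ∃ t : F, t ^ 2 = w then h.choose else 0

lemma rt_sq {w : F} (h : IsSquare w) : rt w ^ 2 = w := by
  have h' : ∃ t : F, t ^ 2 = w := by
    obtain ⟨t, ht⟩ := h
    exact ⟨t, by rw [ht, sq]⟩
  unfold rt
  rw [dif_pos h']
  exact h'.choose_spec

/-- the vertical candidate with parameter `y` -/
noncomputable def candV (y : F) : Cand F where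
  X := fun i => (0, y + vxZ i)
  Y := fun j => (0, y + vyZ j)
  B := fun i j => rt (y + shZ i j)
  G := vG

open Classical in
/-- admissible parameters -/
noncomputable def parV (F : Type) [Field F] [Fintype F] : Finset F :=
  univ.filter (fun y => ∀ i j, IsSquare (y + (shZ i j : F)))

lemma mem_pts_candV {y : F} {z : Pt F} (hz : z ∈ (candV y).pts) :
    ∃ e : ℤ, (e = 0 ∨ e = 2 ∨ e = 6 ∨ e = 8) ∧ z = (0, y + e) := by
  rcases Cand.mem_pts.mp hz with ⟨i, h⟩ | ⟨i, h⟩
  · exact ⟨vxZ i, (by decide : ∀ i, vxZ i = 0 ∨ vxZ i = 2 ∨ vxZ i = 6 ∨ vxZ i = 8) i, h.symm⟩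
  · exact ⟨vyZ i, (by decide : ∀ i, vyZ i = 0 ∨ vyZ i = 2 ∨ vyZ i = 6 ∨ vyZ i = 8) i, h.symm⟩

lemma on_fam_vert (y : F) (e c : ℤ) (j : Fin 6) (b : F) (hb : b ^ 2 = y + c) :
    On ((0, y + e) : Pt F) (fam j b) ↔ ((e : ℤ) : F) = ((c + offZ j : ℤ) : F) := by
  rw [on_fam]
  simp only [off, hb]
  push_cast
  constructor <;> intro h <;> linear_combination h

lemma candV_valid (hF : CharBig F) {y : F} (hy : y ∈ parV F) :
    (candV y).Valid (none, 0) := by
  have hsq : ∀ i j, (candV y).B i j ^ 2 = y + shZ i j := by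
    intro i j
    simp only [parV, mem_filter, mem_univ, true_and] at hy
    exact rt_sq (hy i j)
  refine ⟨?_, ?_, ?_, ?_, ?_, ?_, ?_, ?_, ?_, fun h => absurd rfl h⟩
  · intro z hz
    obtain ⟨e, _, rfl⟩ := mem_pts_candV hz
    rfl
  · intro i j h
    have h1 : (vxZ i : F) = vxZ j := add_left_cancel (congrArg Prod.snd h)
    exact (by decide : ∀ i j, vxZ i = vxZ j → i = j) _ _
      (hF.int_inj ((by decide : ∀ i j, |vxZ i - vxZ j| ≤ 100) i j) h1)
  · intro i j h
    have h1 : (vyZ i : F) = vyZ j := add_left_cancel (congrArg Prod.snd h)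
    exact (by decide : ∀ i j, vyZ i = vyZ j → i = j) _ _
      (hF.int_inj ((by decide : ∀ i j, |vyZ i - vyZ j| ≤ 100) i j) h1)
  · intro i j h
    have h1 : (vxZ i : F) = vyZ j := add_left_cancel (congrArg Prod.snd h)
    exact (by decide : ∀ i j, vxZ i ≠ vyZ j) _ _
      (hF.int_inj ((by decide : ∀ i j, |vxZ i - vyZ j| ≤ 100) i j) h1)
  · intro i j i' j' h
    have h1 : (shZ i j : F) = shZ i' j' := by
      have := hsq i j
      rw [h, hsq] at this
      exact (add_left_cancel this).symm
    exact (by decide : ∀ i j i' j', shZ i j = shZ i' j' → i = i' ∧ j = j') _ _ _ _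
      (hF.int_inj ((by decide : ∀ i j i' j', |shZ i j - shZ i' j'| ≤ 100) i j i' j') h1)
  · exact (by decide : ∀ i j, vG i j = 2 ∨ vG i j = 3)
  · intro i j
    have h := (by decide : ∀ i j,
      (vxZ i = shZ i j + offZ (loF (vG i j)) ∧ vyZ j = shZ i j + offZ (hiF (vG i j))) ∨
      (vxZ i = shZ i j + offZ (hiF (vG i j)) ∧ vyZ j = shZ i j + offZ (loF (vG i j)))) i j
    have e1 : (candV y).X i = (0, y + vxZ i) := rfl
    have e2 : (candV y).Y j = (0, y + vyZ j) := rfl
    have e3 : (candV y).G i j = vG i j := rfl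
    rw [e1, e2, e3]
    simp only [on_fam_vert y _ _ _ _ (hsq i j)]
    rcases h with ⟨h1, h2⟩ | ⟨h1, h2⟩
    · left; exact ⟨by rw [← h1], by rw [← h2]⟩
    · right; exact ⟨by rw [← h1], by rw [← h2]⟩
  · intro i j z hz
    obtain ⟨e, he, rfl⟩ := mem_pts_candV hz
    have hs := (by decide : ∀ i j, shZ i j = 1 ∨ shZ i j = -7 ∨ shZ i j = -5 ∨ shZ i j = 7) i j
    have o0 : offZ 0 = 0 := rfl
    have o1 : offZ 1 = 10 := rfl
    rw [on_fam_vert y _ _ _ _ (hsq i j), on_fam_vert y _ _ _ _ (hsq i j), o0, o1]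
    constructor
    · intro h
      have := hF.int_inj (by rw [abs_le]; omega) h
      omega
    · intro h
      have := hF.int_inj (by rw [abs_le]; omega) h
      omega
  · intro b
    by_contra hc
    push Not at hc
    obtain ⟨⟨z, hz, h0, _⟩, ⟨z', hz', h1, _⟩⟩ := hc
    obtain ⟨e, he, rfl⟩ := mem_pts_candV hz
    obtain ⟨e', he', rfl⟩ := mem_pts_candV hz'
    rw [on_fam] at h0 h1
    have o0 : off F 0 = 0 := by simp [off, offZ]
    have o1 : off F 1 = 10 := by simp [off, offZ]
    rw [o0] at h0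
    rw [o1] at h1
    have h2 : ((e' : ℤ) : F) = ((e + 10 : ℤ) : F) := by
      push_cast
      simp only at h0 h1
      linear_combination h1 - h0
    have := hF.int_inj (by rw [abs_le]; omega) h2
    omega

theorem candFam_vert (hW : WeilProdStmt) : ∃ q₀ : ℕ,
    ∀ (F : Type) [Field F] [Fintype F] [DecidableEq F], CharBig F → q₀ ≤ Fintype.card F →
      CandFam (none, 0) (parV F) candV := by
  obtain ⟨C, hC0, hC⟩ := hW
  refine ⟨⌈(32 * C) ^ 2⌉₊, fun F _ _ _ hF hq => ⟨fun u hu => candV_valid hF hu, ?_, ?_, ?_⟩⟩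
  · intro b
    refine le_trans (card_le_card (t := univ.image
      (fun x : Fin 2 × Fin 2 => b ^ 2 - (shZ x.1 x.2 : F))) ?_) (card_image_le.trans (by simp))
    intro u hu
    simp only [parV, mem_filter, mem_univ, true_and] at hu
    obtain ⟨hu, i, j, h⟩ := hu
    refine mem_image.mpr ⟨(i, j), mem_univ _, ?_⟩
    have := rt_sq (hu i j)
    have e : (candV u).B i j = rt (u + shZ i j) := rfl
    rw [← h, e, this]; ring
  · intro z
    refine le_trans (card_le_card (t := ({0, 2, 6, 8} : Finset ℤ).image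
      (fun e : ℤ => z.2 - (e : F))) ?_) (card_image_le.trans (card_le_four.trans (by norm_num)))
    intro u hu
    obtain ⟨e, he, h⟩ := mem_pts_candV (mem_filter.mp hu).2
    refine mem_image.mpr ⟨e, by simpa using he, ?_⟩
    rw [h]; ring
  · have hinj : Set.InjOn (fun x : Fin 2 × Fin 2 => -(shZ x.1 x.2 : F))
        ((univ : Finset (Fin 2 × Fin 2)) : Set (Fin 2 × Fin 2)) := by
      intro x _ x' _ h
      have := (by decide : ∀ i j i' j', shZ i j = shZ i' j' → i = i' ∧ j = j') _ _ _ _
        (hF.int_inj ((by decide : ∀ i j i' j', |shZ i j - shZ i' j'| ≤ 100) x.1 x.2 x'.1 x'.2)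
          (neg_inj.mp h))
      exact Prod.ext this.1 this.2
    have h := hC F hF.ringChar_ne (Fin 2 × Fin 2) univ _ (fun _ t => if t = -1 then 0 else 1)
      (by simp) hinj (fun _ t => by split_ifs <;> norm_num)
    have h1 : ∑ z : F, ∏ x : Fin 2 × Fin 2,
        (if quadraticChar F (z - -(shZ x.1 x.2 : F)) = -1 then (0 : ℝ) else 1)
        = (parV F).card := by
      classical
      unfold parV
      rw [← sum_boole]
      refine sum_congr rfl fun z _ => ?_
      split_ifs with hz
      · refine prod_eq_one fun x _ => ?_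
        rw [if_neg]
        rw [quadraticChar_neg_one_iff_not_isSquare, sub_neg_eq_add]
        exact not_not.mpr (hz _ _)
      · push Not at hz
        obtain ⟨i, j, hz⟩ := hz
        refine prod_eq_zero (mem_univ (i, j)) ?_
        rw [if_pos]
        rw [quadraticChar_neg_one_iff_not_isSquare, sub_neg_eq_add]
        exact hz
    rw [h1] at h
    have h2 := (abs_le.mp h).1
    norm_num at h2
    have h3 : (32 * C) ^ 2 ≤ (Fintype.card F : ℝ) := Nat.ceil_le.mp hq
    have h4 : 32 * C ≤ Real.sqrt (Fintype.card F) := Real.le_sqrt_of_sq_le h3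
    have h5 : Real.sqrt (Fintype.card F) * Real.sqrt (Fintype.card F) = Fintype.card F :=
      Real.mul_self_sqrt (Nat.cast_nonneg _)
    have h6 : 0 ≤ Real.sqrt (Fintype.card F) := Real.sqrt_nonneg _
    nlinarith

end Crest.Agent.R34
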