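import Mathlib
import Crest.Agent.R34.Defs

/-!
# Row 34: a good configuration gives the hypergraph
-/

set_option autoImplicit false

namespace Crest.Agent.R34

open Finset

/-- A labelling of points with a large covering number gives the hypergraph. -/
lemma config_of_labels {q : ℕ} {P D : Type} [Fintype P] [Fintype D] [DecidableEq D]
    (hD : Fintype.card D = q + 1) (lam : P → D → Fin (q + 1))
    (hint : ∀ p p', ∃ d, lam p d = lam p' d)
    (hcov : ∀ S : Finset (D × Fin (q + 1)), (∀ p, ∃ d, (d, lam p d) ∈ S) → q + 1 ≤ S.card) :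
    Ryser q := by
  classical
  let e : D ≃ Fin (q + 1) := Fintype.equivFinOfCardEq hD
  let φ : D × Fin (q + 1) ≃ Fin (Fintype.card (D × Fin (q + 1))) := Fintype.equivFin _
  let edge : P → Finset (Fin (Fintype.card (D × Fin (q + 1)))) := fun p =>
    univ.image fun d => φ (d, lam p d)
  have hmem : ∀ p v, v ∈ edge p ↔ ∃ d, φ (d, lam p d) = v := fun p v => by simp [edge]
  refine ⟨_, fun v => e (φ.symm v).1, univ.image edge, ?_, ?_, ?_, ?_, ?_, ?_⟩
  · by_contra h
    have := hcov ∅ fun p => (h ⟨edge p, mem_image_of_mem _ (mem_univ p)⟩).elim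
    simp at this
  · intro f hf i
    obtain ⟨p, -, rfl⟩ := mem_image.1 hf
    rw [card_eq_one]
    refine ⟨φ (e.symm i, lam p (e.symm i)), ?_⟩
    ext v
    simp only [mem_filter, hmem, mem_singleton]
    constructor
    · rintro ⟨⟨d, rfl⟩, h⟩
      rw [Equiv.symm_apply_apply] at h
      rw [← h]; simp
    · rintro rfl
      exact ⟨⟨_, rfl⟩, by simp⟩
  · intro f hf g hg
    obtain ⟨p, -, rfl⟩ := mem_image.1 hf
    obtain ⟨p', -, rfl⟩ := mem_image.1 hg
    obtain ⟨d, hd⟩ := hint p p'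
    exact ⟨φ (d, lam p d), mem_inter.2 ⟨(hmem _ _).2 ⟨d, rfl⟩, (hmem _ _).2 ⟨d, by rw [hd]⟩⟩⟩
  · intro i
    have : (univ.filter fun v => e (φ.symm v).1 = i)
        = univ.image fun j : Fin (q + 1) => φ (e.symm i, j) := by
      ext v
      simp only [mem_filter, mem_univ, true_and, mem_image]
      constructor
      · intro h
        refine ⟨(φ.symm v).2, ?_⟩
        rw [← h]; simp
      · rintro ⟨j, rfl⟩
        simp
    rw [this, card_image_of_injective _ fun j j' h => by simpa using h]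
    simp
  · intro v
    obtain ⟨⟨d, j⟩, rfl⟩ := φ.surjective v
    by_contra h
    have h1 := hcov ((univ.erase j).image fun j' => (d, j')) fun p =>
      ⟨d, mem_image.2 ⟨lam p d, mem_erase.2 ⟨fun hj => h ⟨edge p, mem_image_of_mem _ (mem_univ p),
        (hmem _ _).2 ⟨d, by rw [hj]⟩⟩, mem_univ _⟩, rfl⟩⟩
    have h2 := card_image_le (s := univ.erase j) (f := fun j' => (d, j'))
    rw [card_erase_of_mem (mem_univ _), card_univ, Fintype.card_fin] at h2
    omega
  · intro S hS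
    have h1 := hcov (S.map φ.symm.toEmbedding) fun p => by
      obtain ⟨v, hv⟩ := hS (edge p) (mem_image_of_mem _ (mem_univ p))
      obtain ⟨h1, h2⟩ := mem_inter.1 hv
      obtain ⟨d, rfl⟩ := (hmem _ _).1 h1
      exact ⟨d, mem_map.2 ⟨_, h2, by simp⟩⟩
    rwa [card_map] at h1

namespace Config

variable {F : Type} [Field F] [Fintype F] [DecidableEq F] {Γ : Config F} {r : ℕ}

/-- The points that are kept. -/
def Kept (Γ : Config F) (p : Pt F) : Prop := (∀ d, proj d p ∉ Γ.split d) ∨ p ∈ Γ.Z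

/-- The vertex of a non-split line. -/
def vert (Γ : Config F) (d : Dir F) (c : F) : F ⊕ F :=
  if Γ.isM d = true ∧ c = Γ.hi d then Sum.inl (Γ.lo d) else Sum.inl c

omit [Fintype F] in
lemma lab_of_not_split {d : Dir F} {p : Pt F} (h : proj d p ∉ Γ.split d) :
    Γ.lab d p = Γ.vert d (proj d p) := by
  unfold lab vert
  rw [if_neg fun h' => h h'.1]

omit [Fintype F] in
lemma lab_of_not_isG {d : Dir F} {p : Pt F} (h : ¬Γ.IsG (d, proj d p)) :
    Γ.lab d p = Sum.inl (proj d p) := by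
  unfold lab
  rw [if_neg fun h' => h (Or.inl h'.1), if_neg fun h' => h (Or.inr ⟨h'.1, Or.inr h'.2⟩)]

omit [Fintype F] in
lemma proj_eq_or_partner {b : Dir F} {p p' : Pt F} (h : Γ.lab b p = Γ.lab b p') :
    proj b p = proj b p' ∨ Γ.Partner b p p' := by
  unfold lab at h
  unfold Partner
  split_ifs at h with h1 h2 h3 h4 h5 h6 h7
  · exact Or.inl (Sum.inr.inj h)
  · exact Or.inl (h4.2.trans h6.2.symm)
  · exact Or.inr ⟨h4.1, Or.inr ⟨h4.2, (Sum.inl.inj h).symm⟩⟩
  · exact Or.inr ⟨by tauto, Or.inl ⟨Sum.inl.inj h, by tauto⟩⟩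
  · exact Or.inl (Sum.inl.inj h)

lemma Good.lab_of_partner (hΓ : Γ.Good r) {b : Dir F} {p p' : Pt F} (h : Γ.Partner b p p') :
    Γ.lab b p = Γ.lab b p' := by
  obtain ⟨hM, h⟩ := h
  have h1 : ∀ x : Pt F, proj b x = Γ.lo b → Γ.lab b x = Sum.inl (Γ.lo b) := by
    intro x hx
    rw [lab_of_not_split (by rw [hx]; exact hΓ.lo_not_split b hM), hx, vert,
      if_neg fun h' => hΓ.lo_ne_hi b hM h'.2]
  have h2 : ∀ x : Pt F, proj b x = Γ.hi b → Γ.lab b x = Sum.inl (Γ.lo b) := by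
    intro x hx
    rw [lab_of_not_split (by rw [hx]; exact hΓ.hi_not_split b hM), hx, vert, if_pos ⟨hM, rfl⟩]
  rcases h with ⟨a1, a2⟩ | ⟨a1, a2⟩
  · rw [h1 _ a1, h2 _ a2]
  · rw [h2 _ a1, h1 _ a2]

lemma Good.intersecting (hΓ : Γ.Good r) {p p' : Pt F} (hp : Γ.Kept p) (hp' : Γ.Kept p') :
    ∃ d, Γ.lab d p = Γ.lab d p' := by
  obtain ⟨d, hd⟩ := exists_dir p p'
  by_cases hs : proj d p ∈ Γ.split d
  · have hz : p ∈ Γ.Z := hp.resolve_left fun h => h d hs
    have hz' : p' ∈ Γ.Z := hp'.resolve_left fun h => h d (hd ▸ hs)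
    by_cases hc : Γ.cls p = Γ.cls p'
    · exact ⟨d, by unfold lab; rw [hd, hc]⟩
    · obtain ⟨b, hb⟩ := hΓ.cross p hz p' hz' d hs hd.symm hc
      exact ⟨b, hΓ.lab_of_partner hb⟩
  · exact ⟨d, by rw [lab_of_not_split hs, lab_of_not_split (hd ▸ hs), hd]⟩

lemma Good.exists_labels (hΓ : Γ.Good r) (d : Dir F) :
    ∃ U : Finset (F ⊕ F), U.card ≤ Fintype.card F + 1 ∧ ∀ p, Γ.lab d p ∈ U := by
  by_cases hM : Γ.isM d = true
  · refine ⟨(univ.erase (Γ.hi d)).disjSum (Γ.split d), ?_, fun p => ?_⟩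
    · rw [card_disjSum, card_erase_of_mem (mem_univ _), hΓ.card_split, if_pos hM, card_univ]
      have : 0 < Fintype.card F := Fintype.card_pos
      omega
    · unfold lab
      split_ifs with h1 h2
      · exact inr_mem_disjSum.2 h1.1
      · exact inl_mem_disjSum.2 (mem_erase.2 ⟨hΓ.lo_ne_hi d hM, mem_univ _⟩)
      · exact inl_mem_disjSum.2 (mem_erase.2 ⟨fun h => h2 ⟨hM, h⟩, mem_univ _⟩)
  · refine ⟨univ.disjSum (Γ.split d), ?_, fun p => ?_⟩
    · rw [card_disjSum, hΓ.card_split, if_neg hM, card_univ]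
    · unfold lab
      split_ifs with h1 h2
      · exact inr_mem_disjSum.2 h1.1
      · exact inl_mem_disjSum.2 (mem_univ _)
      · exact inl_mem_disjSum.2 (mem_univ _)

lemma Good.card_special (hΓ : Γ.Good r) {ι : Type} [DecidableEq ι] (L : Finset ι)
    (dir : ι → Dir F) (c : ι → F)
    (hinj : ∀ i ∈ L, ∀ j ∈ L, dir i = dir j → c i = c j → i = j)
    (hs : ∀ i ∈ L, c i ∈ Γ.split (dir i)) (Y : Finset (Pt F))
    (hY : ∀ z ∈ Γ.Z, ∀ i ∈ L, proj (dir i) z = c i → z ∈ Y) : 4 * L.card ≤ Y.card := by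
  let f : ι × Bool → Finset (Pt F) := fun x =>
    Γ.Z.filter fun z => proj (dir x.1) z = c x.1 ∧ Γ.cls z = x.2
  have h1 : ((L ×ˢ (univ : Finset Bool)).biUnion f).card = ∑ x ∈ L ×ˢ univ, (f x).card := by
    refine card_biUnion fun x hx y hy hxy => ?_
    have hx1 : x.1 ∈ L := (mem_product.1 hx).1
    have hy1 : y.1 ∈ L := (mem_product.1 hy).1
    refine disjoint_left.2 fun z hz hz' => hxy ?_
    obtain ⟨a1, a2, a3⟩ := mem_filter.1 hz
    obtain ⟨-, b2, b3⟩ := mem_filter.1 hz'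
    have hd : dir x.1 = dir y.1 := hΓ.priv z a1 _ _ (a2 ▸ hs _ hx1) (b2 ▸ hs _ hy1)
    exact Prod.ext (hinj _ hx1 _ hy1 hd (by rw [← a2, ← b2, hd])) (a3.symm.trans b3)
  have h2 : ∑ x ∈ L ×ˢ (univ : Finset Bool), (f x).card = ∑ x ∈ L ×ˢ (univ : Finset Bool), 2 :=
    sum_congr rfl fun x hx => hΓ.card_cls _ _ (hs _ (mem_product.1 hx).1) x.2
  have h3 : (L ×ˢ (univ : Finset Bool)).biUnion f ⊆ Y := by
    intro z hz
    obtain ⟨x, hx, hz⟩ := mem_biUnion.1 hz
    obtain ⟨a1, a2, -⟩ := mem_filter.1 hz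
    exact hY z a1 x.1 (mem_product.1 hx).1 a2
  have h4 := card_le_card h3
  rw [h1, h2, sum_const, card_product, card_univ, Fintype.card_bool, smul_eq_mul] at h4
  omega

lemma Good.forced (hΓ : Γ.Good r) {S : Finset (Dir F × (F ⊕ F))}
    (hS : ∀ p, Γ.Kept p → ∃ d, (d, Γ.lab d p) ∈ S) (hq : S.card ≤ Fintype.card F) :
    ∃ O : PP F, ∀ l : Line F, l.2 ∉ Γ.split l.1 → POn O l → (l.1, Γ.vert l.1 l.2) ∈ S := by
  classical
  let C : Finset (Line F) := univ.filter fun l => ¬Γ.IsG l ∧ (l.1, Sum.inl l.2) ∈ S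
  have hC : ∀ l, l ∈ C ↔ ¬Γ.IsG l ∧ (l.1, Sum.inl l.2) ∈ S := fun l => by simp [C]
  have hCq : C.card ≤ Fintype.card F := by
    refine le_trans (card_le_card_of_injOn (fun l => (l.1, Sum.inl l.2))
      (fun l hl => ((hC l).1 hl).2) fun l _ l' _ h => ?_) hq
    obtain ⟨h1, h2⟩ := Prod.ext_iff.1 h
    exact Prod.ext h1 (Sum.inl.inj h2)
  obtain ⟨O, hO⟩ := hΓ.pencil C (fun l hl => ((hC l).1 hl).1) hCq fun p hp => by
    obtain ⟨d, hd⟩ := hS p (Or.inl fun d h => hp d (Or.inl h))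
    rw [lab_of_not_isG (hp d)] at hd
    exact ⟨(d, proj d p), (hC _).2 ⟨hp d, hd⟩, rfl⟩
  refine ⟨O, fun l hl hOl => ?_⟩
  by_contra hv
  obtain ⟨T, hT, hT'⟩ := hΓ.rich l hl
  have key : ∀ p ∈ T, ∃ m ∈ C, m.1 ≠ l.1 ∧ On p m := by
    intro p hp
    obtain ⟨a1, a2⟩ := hT' p hp
    have a1' : proj l.1 p = l.2 := a1
    obtain ⟨d, hd⟩ := hS p (Or.inl fun d h => by
      by_cases hdl : d = l.1
      · rw [hdl, a1'] at h; exact hl h
      · exact a2 d hdl (Or.inl h))
    by_cases hdl : d = l.1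
    · rw [hdl, lab_of_not_split (by rw [a1']; exact hl), a1'] at hd
      exact (hv hd).elim
    · rw [lab_of_not_isG (a2 d hdl)] at hd
      exact ⟨(d, proj d p), (hC _).2 ⟨a2 d hdl, hd⟩, hdl, rfl⟩
  choose! m hm1 hm2 hm3 using key
  have hne : ∀ p ∈ T, m p ≠ l := fun p hp h => hm2 p hp (by rw [h])
  have h1 : (T.filter fun p => (Sum.inl p : PP F) ≠ O).card
      ≤ (C.filter fun l => ¬POn O l).card := by
    refine card_le_card_of_injOn m (fun p hp => ?_) fun p hp p' hp' h => ?_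
    · obtain ⟨b1, b2⟩ := mem_filter.1 (mem_coe.1 hp)
      refine mem_coe.2 (mem_filter.2 ⟨hm1 p b1, fun h => b2 ?_⟩)
      exact pp_eq_of_pon (hne p b1) (hm3 p b1) (hT' p b1).1 h hOl
    · have b1 := (mem_filter.1 (mem_coe.1 hp)).1
      have b2 := (mem_filter.1 (mem_coe.1 hp')).1
      exact eq_of_on_on (hne p b1) (hm3 p b1) (hT' p b1).1 (h ▸ hm3 p' b2) (hT' p' b2).1
  have h2 : (T.filter fun p => ¬(Sum.inl p : PP F) ≠ O).card ≤ 1 := by
    refine card_le_one.2 fun p hp p' hp' => ?_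
    have b1 := not_not.1 (mem_filter.1 hp).2
    have b2 := not_not.1 (mem_filter.1 hp').2
    exact Sum.inl.inj (b1.trans b2.symm)
  have h3 : (T.filter fun p => (Sum.inl p : PP F) ≠ O).card
      + (T.filter fun p => ¬(Sum.inl p : PP F) ≠ O).card = T.card :=
    card_filter_add_card_filter_not _
  have h4 := card_filter_add_card_filter_not (s := C) fun l => POn O l
  omega

lemma Good.cover (hΓ : Γ.Good r) {S : Finset (Dir F × (F ⊕ F))}
    (hS : ∀ p, Γ.Kept p → ∃ d, (d, Γ.lab d p) ∈ S) : Fintype.card F + 1 ≤ S.card := by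
  classical
  by_contra hq
  have hq : S.card ≤ Fintype.card F := by omega
  obtain ⟨O, hO⟩ := hΓ.forced hS hq
  rcases O with O | d₀
  · -- an affine centre
    let K : Finset (Dir F) := univ.filter fun d => proj d O ∈ Γ.split d
    let Fo : Finset (Dir F × (F ⊕ F)) :=
      (univ.filter fun d => ¬proj d O ∈ Γ.split d).image fun d => (d, Γ.lab d O)
    have hFo : Fo ⊆ S := by
      intro v hv
      obtain ⟨d, hd, rfl⟩ := mem_image.1 hv
      have hd' := (mem_filter.1 hd).2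
      rw [lab_of_not_split hd']
      exact hO (d, proj d O) hd' rfl
    have hFc : K.card + Fo.card = Fintype.card F + 1 := by
      rw [card_image_of_injective _ fun d d' h => (Prod.ext_iff.1 h).1,
        card_filter_add_card_filter_not, card_univ, Fintype.card_option]
    have hR := card_sdiff_add_card_eq_card hFo
    have hpart : ∀ z d b, z ≠ O → proj d O ∈ Γ.split d → proj d z = proj d O →
        (b, Γ.lab b z) ∈ Fo → Γ.lab b z = Γ.lab b O ∧ proj b z ≠ proj b O := by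
      intro z d b hz hd hzd hb
      obtain ⟨b', hb', h⟩ := mem_image.1 hb
      obtain ⟨h1, h2⟩ := Prod.ext_iff.1 h
      have h1' : b' = b := h1
      subst h1'
      refine ⟨h2.symm, fun h3 => hz (eq_of_proj_eq (d := d) (d' := b') ?_ hzd h3)⟩
      rintro rfl
      exact (mem_filter.1 hb').2 hd
    by_cases hZ : O ∈ Γ.Z
    · have hK : K.card ≤ 1 := card_le_one.2 fun d hd d' hd' =>
        hΓ.priv O hZ d d' (mem_filter.1 hd).2 (mem_filter.1 hd').2
      obtain ⟨d, hd⟩ : K.Nonempty := card_pos.1 (by omega)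
      have hd' := (mem_filter.1 hd).2
      have hS' : S \ Fo = ∅ := card_eq_zero.1 (by omega)
      obtain ⟨z, hz, hzO⟩ := exists_mem_ne
        (s := Γ.Z.filter fun z => proj d z = proj d O ∧ Γ.cls z = Γ.cls O)
        (by rw [hΓ.card_cls d _ hd']; norm_num) O
      obtain ⟨a1, a2, a3⟩ := mem_filter.1 hz
      obtain ⟨b, hb⟩ := hS z (Or.inr a1)
      obtain ⟨c1, c2⟩ := hpart z d b hzO hd' a2 (sdiff_eq_empty_iff_subset.1 hS' hb)
      have hP := (proj_eq_or_partner c1.symm).resolve_left fun h => c2 h.symm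
      exact (hΓ.clean O hZ d hd' z a2 b hP).2 a3
    · let Y : Finset (Pt F) := Γ.Z.filter fun z => ∃ d, proj d z ∈ Γ.split d ∧ proj d z = proj d O
      have h1 : 4 * K.card ≤ Y.card :=
        hΓ.card_special K id (fun d => proj d O) (fun _ _ _ _ h _ => h)
          (fun d hd => (mem_filter.1 hd).2) Y fun z hz d hd h =>
            mem_filter.2 ⟨hz, d, by
              have h' : proj d z = proj d O := h
              rw [h']; exact (mem_filter.1 hd).2, h⟩
      have h2 : Y ⊆ (S \ Fo).biUnion fun v => Γ.Z.filter fun z =>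
          (∃ d, proj d z ∈ Γ.split d ∧ proj d z = proj d O) ∧ Γ.lab v.1 z = v.2 := by
        intro z hz
        obtain ⟨a1, d, a2, a3⟩ := mem_filter.1 hz
        obtain ⟨b, hb⟩ := hS z (Or.inr a1)
        refine mem_biUnion.2 ⟨(b, Γ.lab b z), mem_sdiff.2 ⟨hb, fun h => ?_⟩,
          mem_filter.2 ⟨a1, ⟨d, a2, a3⟩, rfl⟩⟩
        obtain ⟨c1, c2⟩ := hpart z d b (fun h => hZ (h ▸ a1)) (a3 ▸ a2) a3 h
        exact hZ (hΓ.clean z a1 d a2 O a3.symm b ((proj_eq_or_partner c1).resolve_left c2)).1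
      have h3 := (card_le_card h2).trans
        (card_biUnion_le_card_mul _ _ 4 fun v _ => hΓ.cover_pt O v.1 v.2)
      omega
  · -- a centre at infinity
    let Cs : Finset F := univ.filter fun c => c ∉ Γ.split d₀ ∧ ¬(Γ.isM d₀ = true ∧ c = Γ.hi d₀)
    let Fo : Finset (Dir F × (F ⊕ F)) := Cs.image fun c => (d₀, Sum.inl c)
    have hFo : Fo ⊆ S := by
      intro v hv
      obtain ⟨c, hc, rfl⟩ := mem_image.1 hv
      obtain ⟨a1, a2⟩ := (mem_filter.1 hc).2
      have := hO (d₀, c) a1 rfl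
      rwa [vert, if_neg a2] at this
    have hFc : Fo.card = Cs.card :=
      card_image_of_injective _ fun c c' h => Sum.inl.inj (Prod.ext_iff.1 h).2
    have hCs : Fintype.card F + 1 ≤ Cs.card + 2 * (Γ.split d₀).card := by
      have hsp := hΓ.card_split d₀
      by_cases hM : Γ.isM d₀ = true
      · rw [if_pos hM] at hsp
        have h1 : (univ : Finset F) ⊆ insert (Γ.hi d₀) (Cs ∪ Γ.split d₀) := by
          intro c _
          simp only [Cs, mem_insert, mem_union, mem_filter, mem_univ, true_and]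
          tauto
        have h2 := (card_le_card h1).trans (card_insert_le _ _)
        have h3 := card_union_le Cs (Γ.split d₀)
        rw [card_univ] at h2
        omega
      · rw [if_neg hM] at hsp
        have h1 : (univ : Finset F) ⊆ Cs ∪ Γ.split d₀ := by
          intro c _
          simp only [Cs, mem_union, mem_filter, mem_univ, true_and]
          tauto
        have h2 := card_le_card h1
        have h3 := card_union_le Cs (Γ.split d₀)
        rw [card_univ] at h2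
        omega
    have hR := card_sdiff_add_card_eq_card hFo
    let Y : Finset (Pt F) := Γ.Z.filter fun z => proj d₀ z ∈ Γ.split d₀
    have h1 : 4 * (Γ.split d₀).card ≤ Y.card :=
      hΓ.card_special (Γ.split d₀) (fun _ => d₀) id (fun _ _ _ _ _ h => h) (fun c hc => hc) Y
        fun z hz c hc h => mem_filter.2 ⟨hz, by
          have h' : proj d₀ z = c := h
          rw [h']; exact hc⟩
    have h2 : Y ⊆ (S \ Fo).biUnion fun v => Γ.Z.filter fun z =>
        proj d₀ z ∈ Γ.split d₀ ∧ Γ.lab v.1 z = v.2 := by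
      intro z hz
      obtain ⟨a1, a2⟩ := mem_filter.1 hz
      obtain ⟨b, hb⟩ := hS z (Or.inr a1)
      refine mem_biUnion.2 ⟨(b, Γ.lab b z), mem_sdiff.2 ⟨hb, fun h => ?_⟩,
        mem_filter.2 ⟨a1, a2, rfl⟩⟩
      obtain ⟨c, hc, h⟩ := mem_image.1 h
      obtain ⟨h1, h2⟩ := Prod.ext_iff.1 h
      have h1' : d₀ = b := h1
      subst h1'
      have h2' : Sum.inl c = Γ.lab d₀ z := h2
      have hc' := (mem_filter.1 hc).2.1
      unfold lab at h2'
      split_ifs at h2' with e1 e2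
      · exact hΓ.hi_not_split d₀ e2.1 (e2.2 ▸ a2)
      · exact hc' (Sum.inl.inj h2' ▸ a2)
    have h3 := (card_le_card h2).trans
      (card_biUnion_le_card_mul _ _ 2 fun v _ => hΓ.cover_dir d₀ v.1 v.2)
    omega

end Config

theorem config_ryser : ConfigStmt := by
  classical
  intro F _ _ _ Γ r hΓ
  choose U hU hU' using hΓ.exists_labels
  have hg : ∀ d, ∃ g : F ⊕ F → Fin (Fintype.card F + 1), Set.InjOn g (U d) := by
    intro d
    obtain ⟨g, -, hg⟩ := (U d).finite_toSet.exists_injOn_of_encard_le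
      (t := (Set.univ : Set (Fin (Fintype.card F + 1)))) (by
        rw [Set.encard_coe_eq_coe_finsetCard, Set.encard_univ, ENat.card_eq_coe_fintype_card,
          Fintype.card_fin]
        exact_mod_cast hU d)
    exact ⟨g, hg⟩
  choose g hg using hg
  refine config_of_labels (P := {p : Pt F // Γ.Kept p}) (D := Dir F) Fintype.card_option
    (fun p d => g d (Γ.lab d p.1)) (fun p p' => ?_) fun S hS => ?_
  · obtain ⟨d, hd⟩ := hΓ.intersecting p.2 p'.2
    exact ⟨d, by simp only [hd]⟩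
  · have h1 := hΓ.cover
      (S := univ.filter fun x : Dir F × (F ⊕ F) => x.2 ∈ U x.1 ∧ (x.1, g x.1 x.2) ∈ S)
      fun p hp => by
        obtain ⟨d, hd⟩ := hS ⟨p, hp⟩
        exact ⟨d, mem_filter.2 ⟨mem_univ _, hU' d p, hd⟩⟩
    refine h1.trans (card_le_card_of_injOn (fun x => (x.1, g x.1 x.2))
      (fun x hx => (mem_filter.1 (mem_coe.1 hx)).2.2) fun x hx y hy h => ?_)
    obtain ⟨d, v⟩ := x
    obtain ⟨d', v'⟩ := y
    obtain ⟨a1, a2⟩ := Prod.ext_iff.1 h
    have a1' : d = d' := a1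
    subst a1'
    exact Prod.ext rfl (hg d (mem_filter.1 (mem_coe.1 hx)).2.1 (mem_filter.1 (mem_coe.1 hy)).2.1 a2)

end Crest.Agent.R34
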