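import Mathlib
import Crest.Agent.R34.RDefs

/-!
# Expected number of free points on a line
-/

set_option autoImplicit false
set_option linter.unusedSectionVars false

namespace Crest.Agent.R34

open Finset

/-- the density of free points -/
noncomputable def rho : ℝ := ∏ j, (pin j ^ 2 + 1) / 2

/-- `pin j ^ (number of square roots)` as a function of the character value -/
noncomputable def ph (j : Fin 6) (t : ℤ) : ℝ :=
  if t = 1 then pin j ^ 2 else if t = 0 then pin j else 1

lemma pin_pos (j : Fin 6) : 0 < pin j := lt_of_lt_of_le (by norm_num) (pin_ge j)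

lemma ph_mem (j : Fin 6) (t : ℤ) : 0 ≤ ph j t ∧ ph j t ≤ 2 := by
  have h1 := pin_pos j
  have h2 := pin_le j
  unfold ph
  split_ifs
  · constructor <;> nlinarith
  · constructor <;> linarith
  · constructor <;> norm_num

lemma rho_ge : 1 / 64 ≤ rho := by
  unfold rho
  have : (1 / 64 : ℝ) = ∏ _j : Fin 6, (1 / 2 : ℝ) := by simp; norm_num
  rw [this]
  refine prod_le_prod (fun _ _ => by norm_num) fun j _ => ?_
  nlinarith [sq_nonneg (pin j)]

lemma rho_le : rho ≤ 1 := by
  unfold rho
  refine prod_le_one (fun j _ => by positivity) fun j _ => ?_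
  have h1 := pin_pos j
  have h2 := pin_le j
  nlinarith

section
variable {F : Type} [Field F] [Fintype F] [DecidableEq F]

/-- number of square roots -/
def nsq (w : F) : ℕ := (univ.filter (fun t : F => t ^ 2 = w)).card

lemma nsq_eq (hF : CharBig F) (w : F) : (nsq w : ℤ) = quadraticChar F w + 1 := by
  rw [← quadraticChar_card_sqrts hF.ringChar_ne w]
  unfold nsq
  congr 2
  ext t; simp

lemma chi_cases (hF : CharBig F) (w : F) :
    (quadraticChar F w = 1 ∧ nsq w = 2) ∨ (quadraticChar F w = 0 ∧ nsq w = 1) ∨
      (quadraticChar F w = -1 ∧ nsq w = 0) := by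
  have h := nsq_eq hF w
  rcases quadraticChar_isQuadratic F w with h1 | h1 | h1
  · right; left; refine ⟨h1, ?_⟩; rw [h1] at h; omega
  · left; refine ⟨h1, ?_⟩; rw [h1] at h; omega
  · right; right; refine ⟨h1, ?_⟩; rw [h1] at h; omega

lemma pin_pow_nsq (hF : CharBig F) (j : Fin 6) (w : F) :
    pin j ^ nsq w = ph j (quadraticChar F w) := by
  rcases chi_cases hF w with ⟨h1, h2⟩ | ⟨h1, h2⟩ | ⟨h1, h2⟩ <;> rw [h1, h2] <;> simp [ph]

lemma sum_sq_comp (hF : CharBig F) (a γ : F) (Ψ : F → ℝ) :
    ∑ x : F, Ψ ((a + x / 2) ^ 2 + γ) = ∑ z : F, (nsq (z - γ) : ℝ) * Ψ z := by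
  have h2 := hF.two_ne
  have e1 : ∑ x : F, Ψ ((a + x / 2) ^ 2 + γ) = ∑ t : F, Ψ (t ^ 2 + γ) := by
    refine Fintype.sum_bijective (fun x => a + x / 2) ?_ _ _ (fun _ => rfl)
    refine Finite.injective_iff_bijective.mp ?_
    intro x y h
    have : x / 2 = y / 2 := add_left_cancel h
    exact (div_left_inj' h2).mp this
  rw [e1, ← sum_fiberwise_of_maps_to (s := univ) (t := univ) (g := fun t : F => t ^ 2 + γ)
    (fun _ _ => mem_univ _)]
  refine sum_congr rfl fun z _ => ?_
  rw [sum_congr rfl (g := fun _ => Ψ z) (fun t ht => by rw [(mem_filter.mp ht).2]), sum_const,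
    nsmul_eq_mul]
  congr 3
  ext t
  simp only [mem_filter, mem_univ, true_and]
  constructor <;> intro h <;> linear_combination h

/-- probability that `p` is free of active family lines other than `l` -/
noncomputable def wt (l : Line F) (p : Pt F) : ℝ :=
  ∏ j, pin j ^ (univ.filter (fun b : F => fam j b ∉ ({l} : Finset (Line F)) ∧ On p (fam j b))).card

lemma wt_nonneg (l : Line F) (p : Pt F) : 0 ≤ wt l p :=
  prod_nonneg fun j _ => pow_nonneg (pin_pos j).le _

lemma wt_le_one (l : Line F) (p : Pt F) : wt l p ≤ 1 :=
  prod_le_one (fun j _ => pow_nonneg (pin_pos j).le _)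
    fun j _ => pow_le_one₀ (pin_pos j).le (pin_le j)

lemma card_other_of_ne (hF : CharBig F) (l : Line F) (p : Pt F) (j : Fin 6)
    (h : ∀ b, fam j b ≠ l) :
    (univ.filter (fun b : F => fam j b ∉ ({l} : Finset (Line F)) ∧ On p (fam j b))).card
      = nsq (p.1 ^ 2 / 4 + p.2 - off F j) := by
  unfold nsq
  rw [← card_on_fam_eq hF]
  congr 1
  ext b
  simp [h b]

lemma card_other_of_eq (hF : CharBig F) (a : F) (p : Pt F) (j : Fin 6) (hp : On p (fam j a)) :
    (univ.filter (fun b : F => fam j b ∉ ({fam j a} : Finset (Line F)) ∧ On p (fam j b))).card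
      = nsq (p.1 ^ 2 / 4 + p.2 - off F j) - 1 := by
  unfold nsq
  rw [← card_on_fam_eq hF, ← card_erase_of_mem (a := a) (by simpa using hp)]
  congr 1
  ext b
  simp only [mem_singleton, mem_filter, mem_univ, true_and, mem_erase, ne_eq]
  constructor
  · rintro ⟨h1, h2⟩; exact ⟨fun e => h1 (by rw [e]), h2⟩
  · rintro ⟨h1, h2⟩; exact ⟨fun e => h1 (fam_inj hF e).2, h2⟩

lemma sum_line_vert (c : F) (g : Pt F → ℝ) :
    ∑ p ∈ univ.filter (fun p : Pt F => On p (none, c)), g p = ∑ y : F, g (c, y) := by
  symm
  refine sum_bij (fun y _ => (c, y)) ?_ ?_ ?_ (fun _ _ => rfl)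
  · intro y _; simp [On]
  · intro y _ y' _ h; exact (Prod.ext_iff.mp h).2
  · intro p hp
    simp only [On, proj_none, mem_filter, mem_univ, true_and] at hp
    exact ⟨p.2, mem_univ _, Prod.ext hp.symm rfl⟩

lemma sum_line_some (a c : F) (g : Pt F → ℝ) :
    ∑ p ∈ univ.filter (fun p : Pt F => On p (some a, c)), g p = ∑ x : F, g (x, c + a * x) := by
  symm
  refine sum_bij (fun x _ => (x, c + a * x)) ?_ ?_ ?_ (fun _ _ => rfl)
  · intro y _; simp [On]
  · intro y _ y' _ h; exact (Prod.ext_iff.mp h).1
  · intro p hp
    simp only [On, proj_some, mem_filter, mem_univ, true_and] at hp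
    refine ⟨p.1, mem_univ _, Prod.ext rfl ?_⟩
    simp only
    rw [← hp]; ring

/-- total weight of a line -/
noncomputable def tot (l : Line F) : ℝ := ∑ p ∈ univ.filter (fun p : Pt F => On p l), wt l p

lemma w_on_line (hF : CharBig F) (a c x : F) :
    x ^ 2 / 4 + (c + a * x) = (a + x / 2) ^ 2 + (c - a ^ 2) := by
  have h2 := hF.two_ne
  have h4 : (4 : F) ≠ 0 := by
    have : (4 : F) = 2 * 2 := by norm_num
    rw [this]; exact mul_ne_zero h2 h2
  field_simp; ring

end

/-- the weighted count on every line is `q` times a number between `1/128` and `rho`, up to the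
character sum error; for vertical lines the number is `rho`. -/
theorem tot_estimate (hW : WeilProdStmt) : ∃ C : ℝ, 0 ≤ C ∧
    ∀ (F : Type) [Field F] [Fintype F] [DecidableEq F], CharBig F → ∀ l : Line F,
      ∃ r : ℝ, 1 / 128 ≤ r ∧ r ≤ rho ∧ (l.1 = none → r = rho) ∧
        |tot l - Fintype.card F * r| ≤ C * Real.sqrt (Fintype.card F) := by
  obtain ⟨C, hC0, hC⟩ := hW
  refine ⟨C, hC0, fun F _ _ _ hF l => ?_⟩
  have hinj : Set.InjOn (off F) ((univ : Finset (Fin 6)) : Set (Fin 6)) :=
    fun j _ j' _ h => off_inj hF h
  have hmean : ∀ j, (ph j 1 + ph j (-1)) / 2 = (pin j ^ 2 + 1) / 2 := by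
    intro j; simp [ph]
  obtain ⟨d, c⟩ := l
  cases d with
  | none =>
    refine ⟨rho, le_trans (by norm_num) rho_ge, le_rfl, fun _ => rfl, ?_⟩
    have h := hC F hF.ringChar_ne (Fin 6) univ (off F) ph (by simp) hinj ph_mem
    simp only [hmean] at h
    have e : tot ((none, c) : Line F) = ∑ z : F, ∏ j, ph j (quadraticChar F (z - off F j)) := by
      unfold tot
      rw [sum_line_vert]
      refine Fintype.sum_bijective (fun y => c ^ 2 / 4 + y) (AddGroup.addLeft_bijective _) _ _ ?_
      intro y
      unfold wt
      refine prod_congr rfl fun j _ => ?_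
      rw [card_other_of_ne hF _ _ j (fun b => fam_ne_vert j b c), pin_pow_nsq hF]
    rw [e]; exact h
  | some a =>
    by_cases ht : ∃ j0, c = a ^ 2 + off F j0
    · obtain ⟨j0, rfl⟩ := ht
      let φ : Fin 6 → ℤ → ℝ := fun j t =>
        if j = j0 then (if t = 1 then 2 * pin j0 else if t = 0 then 1 else 0) else ph j t
      have hφ : ∀ j t, 0 ≤ φ j t ∧ φ j t ≤ 2 := by
        intro j t
        have h1 := pin_pos j0
        have h2 := pin_le j0
        simp only [φ]
        split_ifs
        · constructor <;> linarith
        · constructor <;> norm_num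
        · constructor <;> norm_num
        · exact ph_mem j t
      have h := hC F hF.ringChar_ne (Fin 6) univ (off F) φ (by simp) hinj hφ
      have hm : ∏ j, (φ j 1 + φ j (-1)) / 2 =
          pin j0 * ∏ j ∈ univ.erase j0, (pin j ^ 2 + 1) / 2 := by
        rw [← mul_prod_erase univ _ (mem_univ j0)]
        congr 1
        · simp [φ]
        · refine prod_congr rfl fun j hj => ?_
          simp only [φ, if_neg (ne_of_mem_erase hj), hmean]
      refine ⟨pin j0 * ∏ j ∈ univ.erase j0, (pin j ^ 2 + 1) / 2, ?_, ?_, by simp, ?_⟩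
      · have h1 : (1 / 32 : ℝ) ≤ ∏ j ∈ univ.erase j0, (pin j ^ 2 + 1) / 2 := by
          have : (1 / 32 : ℝ) = ∏ _j ∈ univ.erase j0, (1 / 2 : ℝ) := by
            rw [prod_const, card_erase_of_mem (mem_univ _)]; simp; norm_num
          rw [this]
          refine prod_le_prod (fun _ _ => by norm_num) fun j _ => ?_
          nlinarith [sq_nonneg (pin j)]
        have h2 := pin_ge j0
        nlinarith
      · unfold rho
        rw [← mul_prod_erase univ _ (mem_univ j0)]
        refine mul_le_mul_of_nonneg_right ?_ (prod_nonneg fun j _ => by positivity)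
        nlinarith [sq_nonneg (pin j0 - 1)]
      · rw [hm] at h
        have e : tot ((some a, a ^ 2 + off F j0) : Line F)
            = ∑ z : F, ∏ j, φ j (quadraticChar F (z - off F j)) := by
          unfold tot
          rw [sum_line_some]
          let Ψ : F → ℝ := fun z => pin j0 ^ (nsq (z - off F j0) - 1) *
            ∏ j ∈ univ.erase j0, ph j (quadraticChar F (z - off F j))
          have e1 : ∀ x : F, wt ((some a, a ^ 2 + off F j0) : Line F) (x, a ^ 2 + off F j0 + a * x)
              = Ψ ((a + x / 2) ^ 2 + off F j0) := by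
            intro x
            have hw : x ^ 2 / 4 + (a ^ 2 + off F j0 + a * x) = (a + x / 2) ^ 2 + off F j0 := by
              rw [w_on_line hF]; ring
            unfold wt
            rw [← mul_prod_erase univ _ (mem_univ j0)]
            simp only [Ψ]
            congr 1
            · have := card_other_of_eq hF a (x, a ^ 2 + off F j0 + a * x) j0
                (by rw [on_fam]; ring)
              simp only [hw] at this
              rw [← this]; rfl
            · refine prod_congr rfl fun j hj => ?_
              rw [card_other_of_ne hF ((some a, a ^ 2 + off F j0) : Line F) _ j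
                (fun b e => ne_of_mem_erase hj (fam_inj hF (j' := j0) (a' := a) e).1),
                pin_pow_nsq hF]
              simp only [hw]
          simp only [e1]
          rw [sum_sq_comp hF]
          refine sum_congr rfl fun z _ => ?_
          rw [← mul_prod_erase univ _ (mem_univ j0)]
          simp only [Ψ]
          rw [← mul_assoc]
          congr 1
          · rcases chi_cases hF (z - off F j0) with ⟨h1, h2⟩ | ⟨h1, h2⟩ | ⟨h1, h2⟩ <;>
              rw [h1, h2] <;> simp [φ]
          · refine prod_congr rfl fun j hj => ?_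
            simp only [φ, if_neg (ne_of_mem_erase hj)]
        rw [e]; exact h
    · refine ⟨rho, le_trans (by norm_num) rho_ge, le_rfl, fun _ => rfl, ?_⟩
      let κ : Option (Fin 6) → F := fun o => o.elim (c - a ^ 2) (off F)
      let φ : Option (Fin 6) → ℤ → ℝ := fun o t =>
        o.elim (if t = 1 then 2 else if t = 0 then 1 else 0) (fun j => ph j t)
      have hφ : ∀ j t, 0 ≤ φ j t ∧ φ j t ≤ 2 := by
        intro j t
        cases j with
        | none => simp only [φ, Option.elim]; split_ifs <;> constructor <;> norm_num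
        | some j => exact ph_mem j t
      have hκ : Set.InjOn κ ((univ : Finset (Option (Fin 6))) : Set (Option (Fin 6))) := by
        intro o _ o' _ h
        cases o with
        | none =>
          cases o' with
          | none => rfl
          | some j =>
            exact absurd ⟨j, by simp only [κ, Option.elim] at h; linear_combination h⟩ ht
        | some j =>
          cases o' with
          | none =>
            exact absurd ⟨j, by simp only [κ, Option.elim] at h; linear_combination -h⟩ ht
          | some j' => exact congrArg some (off_inj hF h)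
      have h := hC F hF.ringChar_ne (Option (Fin 6)) univ κ φ (by simp) hκ hφ
      have hm : ∏ j, (φ j 1 + φ j (-1)) / 2 = rho := by
        rw [Fintype.prod_option]
        simp only [φ, Option.elim, hmean]
        simp [rho]
      rw [hm] at h
      have e : tot ((some a, c) : Line F)
          = ∑ z : F, ∏ j, φ j (quadraticChar F (z - κ j)) := by
        unfold tot
        rw [sum_line_some]
        let Ψ : F → ℝ := fun z => ∏ j, ph j (quadraticChar F (z - off F j))
        have e1 : ∀ x : F, wt ((some a, c) : Line F) (x, c + a * x)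
            = Ψ ((a + x / 2) ^ 2 + (c - a ^ 2)) := by
          intro x
          unfold wt
          simp only [Ψ]
          refine prod_congr rfl fun j _ => ?_
          rw [card_other_of_ne hF _ _ j, pin_pow_nsq hF]
          · simp only [w_on_line hF]
          · intro b e
            have h1 : b = a := Option.some.inj (congrArg Prod.fst e)
            subst h1
            exact ht ⟨j, (congrArg Prod.snd e).symm⟩
        simp only [e1]
        rw [sum_sq_comp hF]
        refine sum_congr rfl fun z _ => ?_
        rw [Fintype.prod_option]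
        simp only [Ψ, φ, κ, Option.elim]
        congr 1
        rcases chi_cases hF (z - (c - a ^ 2)) with ⟨h1, h2⟩ | ⟨h1, h2⟩ | ⟨h1, h2⟩ <;>
          rw [h1, h2] <;> simp
      rw [e]; exact h

end Crest.Agent.R34
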