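import Mathlib
import Crest.Agent.R34.CandSlope

/-!
# Choice of the gadgets and the configuration
-/

set_option autoImplicit false
set_option linter.unusedSectionVars false

namespace Crest.Agent.R34

open Finset

variable {F : Type} [Field F] [Fintype F] [DecidableEq F]

/-- the potential split lines -/
def sline : Option (Fin 2 × F) → Line F
  | none => (none, 0)
  | some x => fam (spF x.1) x.2

/-- the active split lines -/
def sact (τ : F → Fin 4) : Option (Fin 2 × F) → Prop
  | none => True
  | some x => act (τ x.2) (spF x.1) = true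

instance (τ : F → Fin 4) : DecidablePred (sact τ) := fun k =>
  match k with
  | none => isTrue trivial
  | some x => inferInstanceAs (Decidable (act (τ x.2) (spF x.1) = true))

lemma sline_inj (hF : CharBig F) {k k' : Option (Fin 2 × F)} (h : sline k = sline k') :
    k = k' := by
  cases k with
  | none =>
    cases k' with
    | none => rfl
    | some x => exact absurd h.symm (fam_ne_vert _ _ _)
  | some x =>
    cases k' with
    | none => exact absurd h (fam_ne_vert _ _ _)
    | some x' =>
      obtain ⟨h1, h2⟩ := fam_inj hF h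
      have h3 : x.1 = x'.1 := (by decide : ∀ s s' : Fin 2, spF s = spF s' → s = s') _ _ h1
      exact congrArg some (Prod.ext h3 h2)

lemma fam_ne_sline (hF : CharBig F) {j : Fin 6} (h0 : j ≠ 0) (h1 : j ≠ 1) (b : F)
    (k : Option (Fin 2 × F)) : fam j b ≠ sline k := by
  cases k with
  | none => exact fam_ne_vert _ _ _
  | some x =>
    intro h
    have h2 := (fam_inj hF h).1
    rcases (by decide : ∀ s : Fin 2, spF s = 0 ∨ spF s = 1) x.1 with e | e
    · exact h0 (h2.trans e)
    · exact h1 (h2.trans e)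

/-- a system of gadgets -/
structure Gads (τ : F → Fin 4) (g : Option (Fin 2 × F) → Cand F) : Prop where
  valid : ∀ k, (g k).Valid (sline k)
  succ : ∀ k, (g k).Succ (sline k) τ
  Gtype : ∀ x i j, (g (some x)).G i j = mT x.1
  Bdisj : ∀ x i j i' j', (g (some x)).B i j ≠ (g none).B i' j'
  avoid : ∀ (a a' : F) (m : Line F) (O : Pt F), O.1 = 0 → On O (fam 0 a) → On O (fam 1 a') →
    m ≠ fam 1 a' → ∀ z0 ∈ (g none).pts, ∀ z1 ∈ (g (some (0, a))).pts,
    ∀ z2 ∈ (g (some (1, a'))).pts, On z0 m → On z1 m → On z2 m → False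

lemma exists_succ_avoid {l : Line F} {I : Finset F} {c : F → Cand F} (h : CandFam l I c)
    {τ : F → Fin 4} (hc : 300 ≤ cnt I (fun u => (c u).calw l) τ) (Bs : Finset F)
    (hB : Bs.card ≤ 4) (P : Finset (Pt F)) (hP : P.card ≤ 32) :
    ∃ u ∈ I, (c u).Succ l τ ∧ (∀ i j, (c u).B i j ∉ Bs) ∧ ∀ z ∈ (c u).pts, z ∉ P := by
  by_contra hne
  push Not at hne
  have hsub : I.filter (fun u => ∀ b, τ b ∈ (c u).calw l b) ⊆
      Bs.biUnion (fun b => I.filter (fun u => ∃ i j, (c u).B i j = b)) ∪
        P.biUnion (fun z => I.filter (fun u => z ∈ (c u).pts)) := by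
    intro u hu
    rw [mem_filter, Cand.succ_iff] at hu
    by_cases h1 : ∀ i j, (c u).B i j ∉ Bs
    · obtain ⟨z, hz, hzP⟩ := hne u hu.1 hu.2 h1
      exact mem_union_right _ (mem_biUnion.mpr ⟨z, hzP, mem_filter.mpr ⟨hu.1, hz⟩⟩)
    · push Not at h1
      obtain ⟨i, j, hij⟩ := h1
      exact mem_union_left _ (mem_biUnion.mpr ⟨_, hij, mem_filter.mpr ⟨hu.1, i, j, rfl⟩⟩)
  have h1 := card_biUnion_le.trans (sum_le_sum fun b (_ : b ∈ Bs) => h.hB b)
  have h2 := card_biUnion_le.trans (sum_le_sum fun z (_ : z ∈ P) => h.hP z)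
  have h3 := (card_le_card hsub).trans (card_union_le _ _)
  simp only [sum_const, smul_eq_mul] at h1 h2
  have hc' : 300 ≤ (I.filter (fun u => ∀ b, τ b ∈ (c u).calw l b)).card := hc
  omega

lemma exists_gads (hF : CharBig F) {τ : F → Fin 4} (I : Option (Fin 2 × F) → Finset F)
    (c : Option (Fin 2 × F) → F → Cand F) (hfam : ∀ k, CandFam (sline k) (I k) (c k))
    (hG : ∀ x u i j, (c (some x) u).G i j = mT x.1)
    (hc : ∀ k, 300 ≤ cnt (I k) (fun u => (c k u).calw (sline k)) τ) :
    ∃ g, Gads τ g := by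
  classical
  obtain ⟨u₀, hu₀, hs₀, -, -⟩ := exists_succ_avoid (hfam none) (hc none) ∅ (by simp) ∅ (by simp)
  set Bs : Finset F := univ.image (fun x : Fin 2 × Fin 2 => (c none u₀).B x.1 x.2) with hBs
  have hB : Bs.card ≤ 4 := card_image_le.trans (by simp)
  choose u₁ hu₁ hs₁ hB₁ _ using fun a : F =>
    exists_succ_avoid (hfam (some (0, a))) (hc (some (0, a))) Bs hB ∅ (by simp)
  set P : F → Finset (Pt F) := fun a' =>
    (univ.filter (fun a : F => On ((0, a' ^ 2 + off F 1) : Pt F) (fam 0 a))).biUnion (fun a =>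
      (c none u₀).pts.biUnion (fun z0 => (c (some (0, a)) (u₁ a)).pts.biUnion (fun z1 =>
        univ.filter (fun p : Pt F => On p (fam 1 a') ∧
          ∃ m, m ≠ fam 1 a' ∧ On z0 m ∧ On z1 m ∧ On p m)))) with hPdef
  have hP : ∀ a', (P a').card ≤ 32 := by
    intro a'
    refine card_biUnion_le.trans ((sum_le_sum (g := fun _ => 16) fun a _ => ?_).trans ?_)
    · refine card_biUnion_le.trans ((sum_le_sum (g := fun _ => 4) fun z0 hz0 => ?_).trans ?_)
      · refine card_biUnion_le.trans ((sum_le_sum (g := fun _ => 1) fun z1 hz1 => ?_).trans ?_)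
        · refine card_le_one.mpr fun p hp p' hp' => ?_
          simp only [mem_filter, mem_univ, true_and] at hp hp'
          obtain ⟨h1, m, h2, h3, h4, h5⟩ := hp
          obtain ⟨h1', m', h2', h3', h4', h5'⟩ := hp'
          have hz : z0 ≠ z1 := by
            intro e
            have e0 : z0.1 = 0 := ((hfam none).valid _ hu₀).on z0 hz0
            exact ((hfam (some (0, a))).valid _ (hu₁ a)).xne (fam_ne_vert _ _ _) z1 hz1 (e ▸ e0)
          have hm : m = m' := line_eq_of_on_on hz h3 h3' h4 h4'
          subst hm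
          exact eq_of_on_on h2 h5 h1 h5' h1'
        · have := (c (some (0, a)) (u₁ a)).card_pts_le
          simp only [sum_const, smul_eq_mul]; omega
      · have := (c none u₀).card_pts_le
        simp only [sum_const, smul_eq_mul]; omega
    · have := card_on_fam_le hF ((0, a' ^ 2 + off F 1) : Pt F) 0
      simp only [sum_const, smul_eq_mul]; omega
  choose u₂ hu₂ hs₂ hB₂ hP₂ using fun a : F =>
    exists_succ_avoid (hfam (some (1, a))) (hc (some (1, a))) Bs hB (P a) (hP a)
  set u : Option (Fin 2 × F) → F := fun k => match k with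
    | none => u₀
    | some x => if x.1 = 0 then u₁ x.2 else u₂ x.2 with hu
  have two : ∀ (Q : Fin 2 × F → Prop), (∀ a, Q (0, a)) → (∀ a, Q (1, a)) → ∀ x, Q x := by
    rintro Q h0 h1 ⟨s, a⟩
    fin_cases s
    · exact h0 a
    · exact h1 a
  have e0 : ∀ a, u (some (0, a)) = u₁ a := fun a => by simp [hu]
  have e1 : ∀ a, u (some (1, a)) = u₂ a := fun a => by simp [hu]
  have hI : ∀ k, u k ∈ I k := by
    intro k
    cases k with
    | none => exact hu₀
    | some x =>
      exact two (fun x => u (some x) ∈ I (some x)) (fun a => by rw [e0]; exact hu₁ a)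
        (fun a => by rw [e1]; exact hu₂ a) x
  refine ⟨fun k => c k (u k), fun k => (hfam k).valid _ (hI k), ?_, fun x => hG x _, ?_, ?_⟩
  · intro k
    cases k with
    | none => exact hs₀
    | some x =>
      exact two (fun x => (c (some x) (u (some x))).Succ (sline (some x)) τ)
        (fun a => by rw [e0]; exact hs₁ a) (fun a => by rw [e1]; exact hs₂ a) x
  · intro x i j i' j' h
    have : ∀ x i j, (c (some x) (u (some x))).B i j ∉ Bs :=
      two (fun x => ∀ i j, (c (some x) (u (some x))).B i j ∉ Bs)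
        (fun a => by rw [e0]; exact hB₁ a) (fun a => by rw [e1]; exact hB₂ a)
    exact this x i j (mem_image.mpr ⟨(i', j'), mem_univ _, h.symm⟩)
  · intro a a' m O hO h0 h1 hm z0 hz0 z1 hz1 z2 hz2 k0 k1 k2
    simp only [e0, e1] at hz1 hz2
    refine hP₂ a' z2 hz2 ?_
    have hO' : O = (0, a' ^ 2 + off F 1) := by
      refine Prod.ext hO ?_
      rw [on_fam, hO] at h1
      simp only
      linear_combination h1
    simp only [hPdef, mem_biUnion, mem_filter, mem_univ, true_and]
    exact ⟨a, hO' ▸ h0, z0, hz0, z1, hz1,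
      ((hfam (some (1, a'))).valid _ (hu₂ a')).on z2 hz2, m, hm, k0, k1, k2⟩

open Classical in
/-- the configuration attached to types and gadgets -/
noncomputable def cfg (τ : F → Fin 4) (g : Option (Fin 2 × F) → Cand F) : Config F where
  split d := univ.filter (fun c => ∃ k, sact τ k ∧ sline k = (d, c))
  isM d := match d with
    | none => false
    | some a => decide (τ a = 2 ∨ τ a = 3)
  lo d := match d with
    | none => 0
    | some a => a ^ 2 + off F (loF (τ a))
  hi d := match d with
    | none => 0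
    | some a => a ^ 2 + off F (hiF (τ a))
  Z := (univ.filter (sact τ)).biUnion (fun k => (g k).pts)
  cls z := decide (∃ k, sact τ k ∧ ∃ j, (g k).Y j = z)

section
variable {τ : F → Fin 4} {g : Option (Fin 2 × F) → Cand F}

lemma mem_split {d : Dir F} {c : F} :
    c ∈ (cfg τ g).split d ↔ ∃ k, sact τ k ∧ sline k = (d, c) := by
  simp [cfg]

lemma mem_Z {z : Pt F} : z ∈ (cfg τ g).Z ↔ ∃ k, sact τ k ∧ z ∈ (g k).pts := by
  simp [cfg]

lemma cls_iff {z : Pt F} : (cfg τ g).cls z = true ↔ ∃ k, sact τ k ∧ ∃ j, (g k).Y j = z := by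
  simp only [cfg, decide_eq_true_eq]

lemma isM_iff {d : Dir F} : (cfg τ g).isM d = true ↔ ∃ a, d = some a ∧ (τ a = 2 ∨ τ a = 3) := by
  cases d with
  | none => simp [cfg]
  | some a => simp [cfg]

lemma lo_iff {a : F} {p : Pt F} :
    proj (some a) p = (cfg τ g).lo (some a) ↔ On p (fam (loF (τ a)) a) := Iff.rfl

lemma hi_iff {a : F} {p : Pt F} :
    proj (some a) p = (cfg τ g).hi (some a) ↔ On p (fam (hiF (τ a)) a) := Iff.rfl

lemma split_none : (cfg τ g).split none = {0} := by
  ext c
  rw [mem_split, mem_singleton]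
  constructor
  · rintro ⟨k, _, h⟩
    cases k with
    | none => exact (congrArg Prod.snd h).symm
    | some x => exact absurd h (fam_ne_vert _ _ _)
  · rintro rfl; exact ⟨none, trivial, rfl⟩

lemma split_some (a : F) : (cfg τ g).split (some a) =
    (univ.filter (fun s : Fin 2 => act (τ a) (spF s) = true)).image
      (fun s => a ^ 2 + off F (spF s)) := by
  ext c
  rw [mem_split, mem_image]
  constructor
  · rintro ⟨k, h1, h⟩
    cases k with
    | none => exact absurd (congrArg Prod.fst h) (by simp [sline])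
    | some x =>
      obtain ⟨s, a'⟩ := x
      have h2 : a' = a := Option.some.inj (congrArg Prod.fst h)
      subst h2
      exact ⟨s, mem_filter.mpr ⟨mem_univ _, h1⟩, congrArg Prod.snd h⟩
  · rintro ⟨s, hs, rfl⟩
    exact ⟨some (s, a), (mem_filter.mp hs).2, rfl⟩

lemma isG_iff (l : Line F) : (cfg τ g).IsG l ↔ Active τ l := by
  have key : ∀ (t : Fin 4) (j : Fin 6), act t j = true ↔
      (∃ s, j = spF s ∧ act t (spF s) = true) ∨ ((t = 2 ∨ t = 3) ∧ (j = loF t ∨ j = hiF t)) := by
    decide
  unfold Config.IsG Active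
  constructor
  · rintro (h | ⟨h1, h2⟩)
    · obtain ⟨k, hk, e⟩ := mem_split.mp h
      cases k with
      | none => left; exact e.symm
      | some x => right; exact ⟨_, _, hk, e.symm⟩
    · obtain ⟨a, ha, ht⟩ := isM_iff.mp h1
      obtain ⟨d, c⟩ := l
      simp only at ha h2
      subst ha
      right
      rcases h2 with h2 | h2
      · exact ⟨loF (τ a), a, (key _ _).mpr (Or.inr ⟨ht, Or.inl rfl⟩), Prod.ext rfl h2⟩
      · exact ⟨hiF (τ a), a, (key _ _).mpr (Or.inr ⟨ht, Or.inr rfl⟩), Prod.ext rfl h2⟩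
  · rintro (rfl | ⟨j, a, h, rfl⟩)
    · left; exact mem_split.mpr ⟨none, trivial, rfl⟩
    · rcases (key _ _).mp h with ⟨s, rfl, hs⟩ | ⟨ht, hj⟩
      · left; exact mem_split.mpr ⟨some (s, a), hs, rfl⟩
      · right
        refine ⟨isM_iff.mpr ⟨a, rfl, ht⟩, ?_⟩
        rcases hj with rfl | rfl
        · left; rfl
        · right; rfl

end

end Crest.Agent.R34
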