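import Mathlib
import Crest.Agent.R34.Setup

/-!
# The configuration satisfies the local conditions
-/

set_option autoImplicit false
set_option linter.unusedSectionVars false

namespace Crest.Agent.R34

open Finset

variable {F : Type} [Field F] [Fintype F] [DecidableEq F]

/-- the three kinds of vertices -/
lemma lab_cases (Γ : Config F) (b : Dir F) (v : F ⊕ F)
    (hlo : Γ.isM b = true → Γ.lo b ∉ Γ.split b) :
    (∃ (c : F) (t : Bool), ∀ z, Γ.lab b z = v → c ∈ Γ.split b ∧ proj b z = c ∧ Γ.cls z = t) ∨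
    (Γ.isM b = true ∧ ∀ z, Γ.lab b z = v → proj b z = Γ.lo b ∨ proj b z = Γ.hi b) ∨
    (∃ c, c ∉ Γ.split b ∧ ∀ z, Γ.lab b z = v → proj b z = c) := by
  cases v with
  | inr c =>
    left
    refine ⟨c, true, fun z hz => ?_⟩
    unfold Config.lab at hz
    split_ifs at hz with h1 h2
    have := Sum.inr.inj hz
    exact ⟨this ▸ h1.1, this, h1.2⟩
  | inl c =>
    by_cases hc : c ∈ Γ.split b
    · left
      refine ⟨c, false, fun z hz => ?_⟩
      unfold Config.lab at hz
      split_ifs at hz with h1 h2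
      · exact absurd ((Sum.inl.inj hz) ▸ hc) (hlo h2.1)
      · have := Sum.inl.inj hz
        refine ⟨hc, this, ?_⟩
        by_contra h
        exact h1 ⟨this ▸ hc, by simpa using h⟩
    · right
      by_cases hm : Γ.isM b = true ∧ c = Γ.lo b
      · left
        refine ⟨hm.1, fun z hz => ?_⟩
        unfold Config.lab at hz
        split_ifs at hz with h1 h2
        · right; exact h2.2
        · left; exact (Sum.inl.inj hz).trans hm.2
      · right
        refine ⟨c, hc, fun z hz => ?_⟩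
        unfold Config.lab at hz
        split_ifs at hz with h1 h2
        · exact absurd ⟨h2.1, (Sum.inl.inj hz).symm⟩ hm
        · exact Sum.inl.inj hz

variable {τ : F → Fin 4} {g : Option (Fin 2 × F) → Cand F}

lemma cfg_card_split (hF : CharBig F) (d : Dir F) :
    ((cfg τ g).split d).card = if (cfg τ g).isM d = true then 2 else 1 := by
  cases d with
  | none => rw [split_none]; simp [cfg]
  | some a =>
    rw [split_some, card_image_of_injective]
    · have key : ∀ t : Fin 4, (univ.filter (fun s : Fin 2 => act t (spF s) = true)).card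
          = if (t = 2 ∨ t = 3) then 2 else 1 := by decide
      rw [key]
      simp [cfg]
    · intro s s' h
      exact (by decide : ∀ s s' : Fin 2, spF s = spF s' → s = s') _ _
        (off_inj hF (add_left_cancel h))

lemma cfg_card_split_le (hF : CharBig F) (d : Dir F) : ((cfg τ g).split d).card ≤ 2 := by
  rw [cfg_card_split hF]; split_ifs <;> norm_num

lemma loF_ne (t : Fin 4) : loF t ≠ 0 ∧ loF t ≠ 1 ∧ hiF t ≠ 0 ∧ hiF t ≠ 1 ∧ loF t ≠ hiF t := by
  revert t; decide

lemma act_lo_hi {t : Fin 4} (h : t = 2 ∨ t = 3) : act t (loF t) = true ∧ act t (hiF t) = true := by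
  revert t; decide

lemma cfg_lo_ne_hi (hF : CharBig F) (d : Dir F) (h : (cfg τ g).isM d = true) :
    (cfg τ g).lo d ≠ (cfg τ g).hi d := by
  obtain ⟨a, rfl, _⟩ := isM_iff.mp h
  intro e
  exact (loF_ne _).2.2.2.2 (off_inj hF (add_left_cancel e))

lemma cfg_lo_not_split (hF : CharBig F) (d : Dir F) (h : (cfg τ g).isM d = true) :
    (cfg τ g).lo d ∉ (cfg τ g).split d := by
  obtain ⟨a, rfl, _⟩ := isM_iff.mp h
  intro e
  obtain ⟨k, _, hk⟩ := mem_split.mp e
  exact fam_ne_sline hF (loF_ne _).1 (loF_ne _).2.1 a k hk.symm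

lemma cfg_hi_not_split (hF : CharBig F) (d : Dir F) (h : (cfg τ g).isM d = true) :
    (cfg τ g).hi d ∉ (cfg τ g).split d := by
  obtain ⟨a, rfl, _⟩ := isM_iff.mp h
  intro e
  obtain ⟨k, _, hk⟩ := mem_split.mp e
  exact fam_ne_sline hF (loF_ne _).2.2.1 (loF_ne _).2.2.2.1 a k hk.symm

namespace Gads

lemma link (hg : Gads τ g) {k : Option (Fin 2 × F)} {z : Pt F} (hz : z ∈ (g k).pts)
    {j : Fin 6} {b : F} (ha : act (τ b) j = true) (hon : On z (fam j b))
    (hne : fam j b ≠ sline k) : ∃ i i', (g k).B i i' = b ∧ (g k).G i i' = τ b := by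
  by_contra hc
  push Not at hc
  refine hne ((hg.succ k).2 b (fun i i' e => ?_) j ha z hz hon)
  exact hc i i' e (by rw [← e]; exact ((hg.succ k).1 i i').symm)

lemma uniq (hF : CharBig F) (hg : Gads τ g) {k k' : Option (Fin 2 × F)} {z : Pt F}
    (hz : z ∈ (g k).pts) (hk' : sact τ k') (hon : On z (sline k')) : k' = k := by
  by_contra hne
  have hl : sline k' ≠ sline k := fun e => hne (sline_inj hF e)
  cases k' with
  | none => exact (hg.valid k).xne hl.symm z hz hon
  | some x =>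
    obtain ⟨i, i', e, _⟩ := hg.link hz hk' hon hl
    have := (hg.valid k).split_avoid i i' z hz
    rw [e] at this
    rcases (by decide : ∀ s : Fin 2, spF s = 0 ∨ spF s = 1) x.1 with h | h
    · exact this.1 (h ▸ hon)
    · exact this.2 (h ▸ hon)

lemma loc (hF : CharBig F) (hg : Gads τ g) {z : Pt F} (hz : z ∈ (cfg τ g).Z) {d : Dir F}
    (hd : proj d z ∈ (cfg τ g).split d) :
    ∃ k, sact τ k ∧ z ∈ (g k).pts ∧ sline k = (d, proj d z) := by
  obtain ⟨k, hk, hzk⟩ := mem_Z.mp hz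
  obtain ⟨k', hk', e⟩ := mem_split.mp hd
  have : k' = k := hg.uniq hF hzk hk' (by rw [e]; rfl)
  subst this
  exact ⟨k', hk, hzk, e⟩

lemma cls_X (hF : CharBig F) (hg : Gads τ g) {k : Option (Fin 2 × F)} (hk : sact τ k)
    (i : Fin 2) : (cfg τ g).cls ((g k).X i) = false := by
  by_contra h
  obtain ⟨k', _, j, e⟩ := cls_iff.mp (by simpa using h)
  have : k = k' := hg.uniq hF (e ▸ (g k').Y_mem j) hk ((hg.valid k).on _ ((g k).X_mem i))
  subst this
  exact (hg.valid k).XY i j e.symm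

lemma cls_Y {k : Option (Fin 2 × F)} (hk : sact τ k) (j : Fin 2) :
    (cfg τ g).cls ((g k).Y j) = true := cls_iff.mpr ⟨k, hk, j, rfl⟩

lemma priv (hF : CharBig F) (hg : Gads τ g) : ∀ z ∈ (cfg τ g).Z, ∀ d d',
    proj d z ∈ (cfg τ g).split d → proj d' z ∈ (cfg τ g).split d' → d = d' := by
  intro z hz d d' hd hd'
  obtain ⟨k, _, hzk, e⟩ := hg.loc hF hz hd
  obtain ⟨k', hk', _, e'⟩ := hg.loc hF hz hd'
  have : k' = k := hg.uniq hF hzk hk' (by rw [e']; rfl)
  subst this
  exact congrArg Prod.fst (e.symm.trans e')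

lemma card_cls (hF : CharBig F) (hg : Gads τ g) : ∀ d, ∀ c ∈ (cfg τ g).split d, ∀ t : Bool,
    ((cfg τ g).Z.filter (fun z => proj d z = c ∧ (cfg τ g).cls z = t)).card = 2 := by
  intro d c hc t
  obtain ⟨k, hk, e⟩ := mem_split.mp hc
  have hmem : ∀ z, (z ∈ (cfg τ g).Z ∧ proj d z = c) ↔ z ∈ (g k).pts := by
    intro z
    constructor
    · rintro ⟨h1, h2⟩
      obtain ⟨k', _, hz, e'⟩ := hg.loc hF h1 (h2 ▸ hc)
      have : k' = k := sline_inj hF (by rw [e, e', h2])
      exact this ▸ hz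
    · intro hz
      refine ⟨mem_Z.mpr ⟨k, hk, hz⟩, ?_⟩
      have := (hg.valid k).on z hz
      rw [e] at this
      exact this
  cases t with
  | false =>
    have : (cfg τ g).Z.filter (fun z => proj d z = c ∧ (cfg τ g).cls z = false)
        = univ.image (g k).X := by
      ext z
      rw [mem_filter, ← and_assoc, hmem, mem_image, Cand.mem_pts]
      constructor
      · rintro ⟨⟨i, rfl⟩ | ⟨j, rfl⟩, h⟩
        · exact ⟨i, mem_univ _, rfl⟩
        · rw [cls_Y hk] at h; exact absurd h (by simp)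
      · rintro ⟨i, _, rfl⟩
        exact ⟨Or.inl ⟨i, rfl⟩, hg.cls_X hF hk i⟩
    rw [this, card_image_of_injective _ (hg.valid k).X_inj]; simp
  | true =>
    have : (cfg τ g).Z.filter (fun z => proj d z = c ∧ (cfg τ g).cls z = true)
        = univ.image (g k).Y := by
      ext z
      rw [mem_filter, ← and_assoc, hmem, mem_image, Cand.mem_pts]
      constructor
      · rintro ⟨⟨i, rfl⟩ | ⟨j, rfl⟩, h⟩
        · rw [hg.cls_X hF hk] at h; exact absurd h (by simp)
        · exact ⟨j, mem_univ _, rfl⟩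
      · rintro ⟨i, _, rfl⟩
        exact ⟨Or.inr ⟨i, rfl⟩, cls_Y hk i⟩
    rw [this, card_image_of_injective _ (hg.valid k).Y_inj]; simp

lemma partner_XY (hg : Gads τ g) (k : Option (Fin 2 × F)) (i j : Fin 2) :
    (cfg τ g).Partner (some ((g k).B i j)) ((g k).X i) ((g k).Y j) := by
  have h1 := (hg.succ k).1 i j
  refine ⟨isM_iff.mpr ⟨_, rfl, by rw [h1]; exact (hg.valid k).G_mem i j⟩, ?_⟩
  rw [lo_iff, hi_iff, lo_iff, hi_iff, h1]
  exact (hg.valid k).partner i j

lemma cross (hF : CharBig F) (hg : Gads τ g) : ∀ z ∈ (cfg τ g).Z, ∀ z' ∈ (cfg τ g).Z, ∀ d,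
    proj d z ∈ (cfg τ g).split d → proj d z' = proj d z →
    (cfg τ g).cls z ≠ (cfg τ g).cls z' → ∃ b, (cfg τ g).Partner b z z' := by
  intro z hz z' hz' d hd e hne
  obtain ⟨k, hk, hzk, e1⟩ := hg.loc hF hz hd
  obtain ⟨k', _, hzk', e2⟩ := hg.loc hF hz' (e ▸ hd)
  have : k' = k := sline_inj hF (by rw [e1, e2, e])
  subst this
  rcases Cand.mem_pts.mp hzk with ⟨i, rfl⟩ | ⟨i, rfl⟩ <;>
    rcases Cand.mem_pts.mp hzk' with ⟨j, rfl⟩ | ⟨j, rfl⟩
  · exact absurd ((hg.cls_X hF hk i).trans (hg.cls_X hF hk j).symm) hne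
  · exact ⟨_, hg.partner_XY _ i j⟩
  · obtain ⟨h1, h2⟩ := hg.partner_XY k' j i
    exact ⟨_, h1, by tauto⟩
  · exact absurd ((cls_Y hk i).trans (cls_Y hk j).symm) hne

lemma clean (hF : CharBig F) (hg : Gads τ g) : ∀ z ∈ (cfg τ g).Z, ∀ d,
    proj d z ∈ (cfg τ g).split d → ∀ p, proj d p = proj d z →
    ∀ b, (cfg τ g).Partner b z p → p ∈ (cfg τ g).Z ∧ (cfg τ g).cls p ≠ (cfg τ g).cls z := by
  intro z hz d hd p hp b hb
  obtain ⟨k, hk, hzk, e⟩ := hg.loc hF hz hd
  have hpon : On p (sline k) := by rw [e]; exact hp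
  have hzon : On z (sline k) := (hg.valid k).on z hzk
  obtain ⟨h1, h2⟩ := hb
  obtain ⟨a, rfl, ht⟩ := isM_iff.mp h1
  rw [lo_iff, hi_iff, lo_iff, hi_iff] at h2
  have nlo := fam_ne_sline hF (loF_ne (τ a)).1 (loF_ne (τ a)).2.1 a k
  have nhi := fam_ne_sline hF (loF_ne (τ a)).2.2.1 (loF_ne (τ a)).2.2.2.1 a k
  have hl : ∃ i i', (g k).B i i' = a ∧ (g k).G i i' = τ a := by
    rcases h2 with h2 | h2
    · exact hg.link hzk (act_lo_hi ht).1 h2.1 nlo
    · exact hg.link hzk (act_lo_hi ht).2 h2.1 nhi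
  obtain ⟨i, j, e1, e2⟩ := hl
  have h3 := (hg.valid k).partner i j
  rw [e1, e2] at h3
  have hX := (hg.valid k).on _ ((g k).X_mem i)
  have hY := (hg.valid k).on _ ((g k).Y_mem j)
  have key : (z = (g k).X i ∧ p = (g k).Y j) ∨ (z = (g k).Y j ∧ p = (g k).X i) := by
    rcases h2 with h2 | h2 <;> rcases h3 with h3 | h3
    · left; exact ⟨eq_of_on_on nlo h2.1 hzon h3.1 hX, eq_of_on_on nhi h2.2 hpon h3.2 hY⟩
    · right; exact ⟨eq_of_on_on nlo h2.1 hzon h3.2 hY, eq_of_on_on nhi h2.2 hpon h3.1 hX⟩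
    · right; exact ⟨eq_of_on_on nhi h2.1 hzon h3.2 hY, eq_of_on_on nlo h2.2 hpon h3.1 hX⟩
    · left; exact ⟨eq_of_on_on nhi h2.1 hzon h3.1 hX, eq_of_on_on nlo h2.2 hpon h3.2 hY⟩
  rcases key with ⟨rfl, rfl⟩ | ⟨rfl, rfl⟩
  · refine ⟨mem_Z.mpr ⟨k, hk, (g k).Y_mem j⟩, ?_⟩
    rw [hg.cls_X hF hk, cls_Y hk]; simp
  · refine ⟨mem_Z.mpr ⟨k, hk, (g k).X_mem i⟩, ?_⟩
    rw [hg.cls_X hF hk, cls_Y hk]; simp

lemma star_link (hF : CharBig F) (hg : Gads τ g) {k : Option (Fin 2 × F)} {z : Pt F}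
    (hz : z ∈ (g k).pts) {a : F} (ht : τ a = 2 ∨ τ a = 3)
    (h : On z (fam (loF (τ a)) a) ∨ On z (fam (hiF (τ a)) a)) :
    ∃ i i', (g k).B i i' = a ∧ (g k).G i i' = τ a := by
  rcases h with h | h
  · exact hg.link hz (act_lo_hi ht).1 h (fam_ne_sline hF (loF_ne _).1 (loF_ne _).2.1 a k)
  · exact hg.link hz (act_lo_hi ht).2 h (fam_ne_sline hF (loF_ne _).2.2.1 (loF_ne _).2.2.2.1 a k)

lemma class_le (hF : CharBig F) (hg : Gads τ g) (S : Finset (Pt F)) {b : Dir F} {c : F} {t : Bool}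
    (h : ∀ z ∈ S, z ∈ (cfg τ g).Z ∧ c ∈ (cfg τ g).split b ∧ proj b z = c ∧ (cfg τ g).cls z = t) :
    S.card ≤ 2 := by
  rcases S.eq_empty_or_nonempty with rfl | ⟨z₀, hz₀⟩
  · simp
  · rw [← hg.card_cls hF b c (h z₀ hz₀).2.1 t]
    exact card_le_card fun z hz => mem_filter.mpr ⟨(h z hz).1, (h z hz).2.2⟩

lemma cover_dir (hF : CharBig F) (hg : Gads τ g) : ∀ d b v,
    ((cfg τ g).Z.filter (fun z => proj d z ∈ (cfg τ g).split d ∧
      (cfg τ g).lab b z = v)).card ≤ 2 := by
  intro d b v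
  rcases lab_cases (cfg τ g) b v (cfg_lo_not_split hF b) with ⟨c, t, h⟩ | ⟨h1, h⟩ | ⟨c, hc, h⟩
  · exact hg.class_le hF _ fun z hz => ⟨(mem_filter.mp hz).1, h z (mem_filter.mp hz).2.2⟩
  · obtain ⟨a, rfl, ht⟩ := isM_iff.mp h1
    simp only [lo_iff, hi_iff] at h
    set S := (cfg τ g).Z.filter (fun z => proj d z ∈ (cfg τ g).split d ∧
      (cfg τ g).lab (some a) z = v) with hS
    have one : ∀ j : Fin 6, j ≠ 0 → j ≠ 1 → (S.filter (fun z => On z (fam j a))).card ≤ 1 := by
      intro j j0 j1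
      refine card_le_one.mpr fun z hz z' hz' => ?_
      simp only [hS, mem_filter] at hz hz'
      obtain ⟨k, _, hzk, e⟩ := hg.loc hF hz.1.1 hz.1.2.1
      obtain ⟨k', _, hzk', e'⟩ := hg.loc hF hz'.1.1 hz'.1.2.1
      obtain ⟨i₁, i₂, _, h2⟩ := hg.star_link hF hzk ht (h z hz.1.2.2)
      obtain ⟨i₃, i₄, _, h4⟩ := hg.star_link hF hzk' ht (h z' hz'.1.2.2)
      have hd : (sline k).1 = (sline k').1 := by rw [e, e']
      have : k = k' := by
        cases k with
        | none =>
          cases k' with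
          | none => rfl
          | some x => exact absurd hd (by simp [sline, fam])
        | some x =>
          cases k' with
          | none => exact absurd hd (by simp [sline, fam])
          | some x' =>
            rw [hg.Gtype] at h2 h4
            have h5 : x.1 = x'.1 := (by decide : ∀ s s' : Fin 2, mT s = mT s' → s = s') _ _
              (h2.trans h4.symm)
            exact congrArg some (Prod.ext h5 (Option.some.inj hd))
      subst this
      exact eq_of_on_on (fam_ne_sline hF j0 j1 a k) hz.2 ((hg.valid k).on _ hzk) hz'.2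
        ((hg.valid k).on _ hzk')
    have hsub : S ⊆ S.filter (fun z => On z (fam (loF (τ a)) a)) ∪
        S.filter (fun z => On z (fam (hiF (τ a)) a)) := by
      intro z hz
      rcases h z (mem_filter.mp hz).2.2 with h' | h'
      · exact mem_union_left _ (mem_filter.mpr ⟨hz, h'⟩)
      · exact mem_union_right _ (mem_filter.mpr ⟨hz, h'⟩)
    have h2 := (card_le_card hsub).trans (card_union_le _ _)
    have h3 := one _ (loF_ne (τ a)).1 (loF_ne (τ a)).2.1
    have h4 := one _ (loF_ne (τ a)).2.2.1 (loF_ne (τ a)).2.2.2.1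
    omega
  · have hsub : (cfg τ g).Z.filter (fun z => proj d z ∈ (cfg τ g).split d ∧
        (cfg τ g).lab b z = v) ⊆ ((cfg τ g).split d).biUnion (fun c' =>
          univ.filter (fun z : Pt F => On z (d, c') ∧ On z (b, c))) := by
      intro z hz
      rw [mem_filter] at hz
      exact mem_biUnion.mpr ⟨_, hz.2.1, mem_filter.mpr ⟨mem_univ _, rfl, h z hz.2.2⟩⟩
    refine (card_le_card hsub).trans (card_biUnion_le.trans
      ((sum_le_sum (g := fun _ => 1) fun c' hc' => ?_).trans ?_))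
    · refine card_le_one.mpr fun z hz z' hz' => ?_
      simp only [mem_filter, mem_univ, true_and] at hz hz'
      refine eq_of_on_on (fun e => hc ?_) hz.1 hz.2 hz'.1 hz'.2
      obtain ⟨rfl, rfl⟩ := Prod.ext_iff.mp e
      exact hc'
    · simpa using cfg_card_split_le hF d

lemma through_le (hF : CharBig F) (O : Pt F) (j : Fin 6) (m : Line F) (S : Finset (Pt F))
    (h : ∀ z ∈ S, On z m ∧ ∃ a, fam j a ≠ m ∧ On O (fam j a) ∧ On z (fam j a)) : S.card ≤ 2 := by
  have hsub : S ⊆ (univ.filter (fun a : F => On O (fam j a))).biUnion (fun a =>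
      univ.filter (fun z : Pt F => fam j a ≠ m ∧ On z (fam j a) ∧ On z m)) := by
    intro z hz
    obtain ⟨h1, a, h2, h3, h4⟩ := h z hz
    exact mem_biUnion.mpr ⟨a, mem_filter.mpr ⟨mem_univ _, h3⟩,
      mem_filter.mpr ⟨mem_univ _, h2, h4, h1⟩⟩
  refine (card_le_card hsub).trans (card_biUnion_le.trans
    ((sum_le_sum (g := fun _ => 1) fun a _ => ?_).trans ?_))
  · refine card_le_one.mpr fun z hz z' hz' => ?_
    simp only [mem_filter, mem_univ, true_and] at hz hz'
    exact eq_of_on_on hz.1 hz.2.1 hz.2.2 hz'.2.1 hz'.2.2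
  · simpa using card_on_fam_le hF O j

lemma cover_pt (hF : CharBig F) (hg : Gads τ g) : ∀ (O : Pt F) b v,
    ((cfg τ g).Z.filter (fun z => (∃ d, proj d z ∈ (cfg τ g).split d ∧ proj d z = proj d O) ∧
      (cfg τ g).lab b z = v)).card ≤ 4 := by
  intro O b v
  classical
  set S := (cfg τ g).Z.filter (fun z => (∃ d, proj d z ∈ (cfg τ g).split d ∧
    proj d z = proj d O) ∧ (cfg τ g).lab b z = v) with hS
  have hloc : ∀ z ∈ S, (cfg τ g).lab b z = v ∧
      ∃ k, sact τ k ∧ z ∈ (g k).pts ∧ On O (sline k) := by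
    intro z hz
    obtain ⟨h1, ⟨d, h2, h3⟩, h4⟩ := mem_filter.mp hz
    obtain ⟨k, hk, hzk, e⟩ := hg.loc hF h1 h2
    exact ⟨h4, k, hk, hzk, by rw [e]; exact h3.symm⟩
  rcases lab_cases (cfg τ g) b v (cfg_lo_not_split hF b) with ⟨c, t, h⟩ | ⟨h1, h⟩ | ⟨c, hc, h⟩
  · exact (hg.class_le hF _ fun z hz =>
      ⟨(mem_filter.mp hz).1, h z (mem_filter.mp hz).2.2⟩).trans (by norm_num)
  · obtain ⟨a, rfl, ht⟩ := isM_iff.mp h1
    simp only [lo_iff, hi_iff] at h
    by_cases hv : ∃ i j, (g none).B i j = a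
    · obtain ⟨i, j, hv⟩ := hv
      refine le_trans (card_le_card fun z hz => ?_) (g none).card_pts_le
      obtain ⟨h2, k, _, hzk, _⟩ := hloc z hz
      cases k with
      | none => exact hzk
      | some x =>
        obtain ⟨i', j', e, _⟩ := hg.star_link hF hzk ht (h z h2)
        exact absurd (e.trans hv.symm) (hg.Bdisj x i' j' i j)
    · obtain ⟨s, hs⟩ := (by decide : ∀ t : Fin 4, (t = 2 ∨ t = 3) → ∃ s, mT s = t) _ ht
      have two : ∀ j : Fin 6, j ≠ 0 → j ≠ 1 → (S.filter (fun z => On z (fam j a))).card ≤ 2 := by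
        intro j j0 j1
        refine through_le hF O (spF s) (fam j a) _ fun z hz => ?_
        rw [mem_filter] at hz
        obtain ⟨h2, k, _, hzk, hO⟩ := hloc z hz.1
        obtain ⟨i', j', e, e'⟩ := hg.star_link hF hzk ht (h z h2)
        cases k with
        | none => exact absurd ⟨i', j', e⟩ hv
        | some x =>
          rw [hg.Gtype] at e'
          have h5 : x.1 = s := (by decide : ∀ s s' : Fin 2, mT s = mT s' → s = s') _ _
            (e'.trans hs.symm)
          subst h5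
          exact ⟨hz.2, x.2, (fam_ne_sline hF j0 j1 a (some x)).symm, hO,
            (hg.valid _).on z hzk⟩
      have hsub : S ⊆ S.filter (fun z => On z (fam (loF (τ a)) a)) ∪
          S.filter (fun z => On z (fam (hiF (τ a)) a)) := by
        intro z hz
        rcases h z (mem_filter.mp hz).2.2 with h' | h'
        · exact mem_union_left _ (mem_filter.mpr ⟨hz, h'⟩)
        · exact mem_union_right _ (mem_filter.mpr ⟨hz, h'⟩)
      have h2 := (card_le_card hsub).trans (card_union_le _ _)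
      have h3 := two _ (loF_ne (τ a)).1 (loF_ne (τ a)).2.1
      have h4 := two _ (loF_ne (τ a)).2.2.1 (loF_ne (τ a)).2.2.2.1
      omega
  · have hm : ∀ k, sact τ k → sline k ≠ (b, c) := fun k hk e => hc (mem_split.mpr ⟨k, hk, e⟩)
    set V := S.filter (fun z => z ∈ (g none).pts ∧ O.1 = 0) with hV
    set T : Fin 2 → Finset (Pt F) := fun s => S.filter (fun z => ∃ a, sact τ (some (s, a)) ∧
      z ∈ (g (some (s, a))).pts ∧ On O (fam (spF s) a)) with hT
    have hon : ∀ z ∈ S, On z (b, c) := fun z hz => h z (hloc z hz).1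
    have hV1 : V.card ≤ 1 := by
      refine card_le_one.mpr fun z hz z' hz' => ?_
      rw [hV, mem_filter] at hz hz'
      exact eq_of_on_on (hm none trivial) ((hg.valid none).on _ hz.2.1) (hon _ hz.1)
        ((hg.valid none).on _ hz'.2.1) (hon _ hz'.1)
    have hT2 : ∀ s, (T s).card ≤ 2 := by
      intro s
      refine through_le hF O (spF s) (b, c) _ fun z hz => ?_
      simp only [hT, mem_filter] at hz
      obtain ⟨h1, a, h2, h3, h4⟩ := hz
      exact ⟨hon z h1, a, hm _ h2, h4, (hg.valid _).on z h3⟩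
    have hsub : S ⊆ V ∪ (T 0 ∪ T 1) := by
      intro z hz
      obtain ⟨_, k, hk, hzk, hO⟩ := hloc z hz
      cases k with
      | none => exact mem_union_left _ (mem_filter.mpr ⟨hz, hzk, hO⟩)
      | some x =>
        obtain ⟨s, a⟩ := x
        have : z ∈ T s := mem_filter.mpr ⟨hz, a, hk, hzk, hO⟩
        refine mem_union_right _ ?_
        fin_cases s
        · exact mem_union_left _ this
        · exact mem_union_right _ this
    have h2 := (card_le_card hsub).trans ((card_union_le _ _).trans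
      (Nat.add_le_add_left (card_union_le _ _) _))
    have h0 := hT2 0
    have h1 := hT2 1
    by_contra hcon
    obtain ⟨z0, hz0⟩ : V.Nonempty := card_pos.mp (by omega)
    obtain ⟨z1, hz1⟩ : (T 0).Nonempty := card_pos.mp (by omega)
    obtain ⟨z2, hz2⟩ : (T 1).Nonempty := card_pos.mp (by omega)
    simp only [hV, hT, mem_filter] at hz0 hz1 hz2
    obtain ⟨a, _, k1, k2⟩ := hz1.2
    obtain ⟨a', k3, k4, k5⟩ := hz2.2
    exact hg.avoid a a' (b, c) O hz0.2.2 k2 k5 (hm _ k3).symm z0 hz0.2.1 z1 k1 z2 k4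
      (hon _ hz0.1) (hon _ hz1.1) (hon _ hz2.1)

end Gads

end Crest.Agent.R34
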