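import Mathlib
import Crest.Agent.R34.Defs

/-!
# Row 34, incidence bound: the counting lemmas
-/

set_option autoImplicit false

namespace Crest.Agent.R34

open Finset

namespace Inc

section geom
variable {F : Type} [Field F]

/-- three points on a common line have a vanishing determinant in any two coordinates -/
lemma cross {l : Line F} {ξ p p' : Pt F} (h0 : On ξ l) (h1 : On p l) (h2 : On p' l)
    (d₀ d₁ : Dir F) :
    (proj d₁ p - proj d₁ ξ) * (proj d₀ p' - proj d₀ ξ)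
      = (proj d₁ p' - proj d₁ ξ) * (proj d₀ p - proj d₀ ξ) := by
  have hc : (p.1 - ξ.1) * (p'.2 - ξ.2) = (p'.1 - ξ.1) * (p.2 - ξ.2) := by
    obtain ⟨d, c⟩ := l
    cases d with
    | none =>
      simp only [On, proj_none] at h0 h1 h2
      rw [h0, h1, h2]; ring
    | some a =>
      simp only [On, proj_some] at h0 h1 h2
      linear_combination (p.1 - ξ.1) * (h2 - h0) - (p'.1 - ξ.1) * (h1 - h0)
  cases d₀ with
  | none =>
    cases d₁ with
    | none => simp only [proj_none]; ring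
    | some b => simp only [proj_none, proj_some]; linear_combination -hc
  | some a =>
    cases d₁ with
    | none => simp only [proj_none, proj_some]; linear_combination hc
    | some b => simp only [proj_some]; linear_combination (a - b) * hc

variable [DecidableEq F]

lemma sum_mult_pairs (𝓛 : Finset (Line F)) (M : Finset (Pt F)) :
    ∑ p ∈ M, (mult 𝓛 p : ℝ) * ((mult 𝓛 p : ℝ) - 1) ≤ (𝓛.card : ℝ) ^ 2 := by
  have h1 : ∑ p ∈ M, ((𝓛.filter (fun l => On p l)).offDiag).card ≤ (𝓛 ×ˢ 𝓛).card := by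
    rw [← Finset.card_biUnion]
    · refine Finset.card_le_card ?_
      intro y hy
      simp only [Finset.mem_biUnion, Finset.mem_offDiag, Finset.mem_filter] at hy
      obtain ⟨p, _, h1, h2, _⟩ := hy
      exact Finset.mem_product.mpr ⟨h1.1, h2.1⟩
    · intro p _ p' _ hpp
      rw [Function.onFun, Finset.disjoint_left]
      intro y hy hy'
      simp only [Finset.mem_offDiag, Finset.mem_filter] at hy hy'
      exact hpp (eq_of_on_on hy.2.2 hy.1.2 hy.2.1.2 hy'.1.2 hy'.2.1.2)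
  rw [Finset.card_product] at h1
  have h2 : ((∑ p ∈ M, ((𝓛.filter (fun l => On p l)).offDiag).card : ℕ) : ℝ)
      ≤ ((𝓛.card * 𝓛.card : ℕ) : ℝ) := by exact_mod_cast h1
  push_cast at h2
  rw [sq]
  refine le_trans (le_of_eq ?_) h2
  refine Finset.sum_congr rfl fun p _ => ?_
  rw [Finset.offDiag_card, Nat.cast_sub (Nat.le_mul_self _)]
  unfold mult
  push_cast; ring

lemma sum_mult_on_line (𝓛 : Finset (Line F)) (M : Finset (Pt F)) (l₀ : Line F) :
    ∑ p ∈ M.filter (fun p => On p l₀), ((mult 𝓛 p : ℝ) - 1) ≤ (𝓛.card : ℝ) := by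
  have h1 : ∑ p ∈ M.filter (fun p => On p l₀), ((𝓛.filter (fun l => On p l)).erase l₀).card
      ≤ 𝓛.card := by
    rw [← Finset.card_biUnion]
    · refine Finset.card_le_card ?_
      intro y hy
      simp only [Finset.mem_biUnion, Finset.mem_erase, Finset.mem_filter] at hy
      obtain ⟨p, _, _, h2, _⟩ := hy
      exact h2
    · intro p hp p' hp' hpp
      rw [Function.onFun, Finset.disjoint_left]
      intro y hy hy'
      simp only [Finset.mem_erase, Finset.mem_filter, Finset.coe_filter, Set.mem_ofPred_eq]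
        at hy hy' hp hp'
      exact hpp (eq_of_on_on hy.1 hy.2.2 hp.2 hy'.2.2 hp'.2)
  have h2 : ((∑ p ∈ M.filter (fun p => On p l₀),
      ((𝓛.filter (fun l => On p l)).erase l₀).card : ℕ) : ℝ) ≤ (𝓛.card : ℝ) := by
    exact_mod_cast h1
  push_cast at h2
  refine le_trans (Finset.sum_le_sum fun p _ => ?_) h2
  have h3 : (𝓛.filter (fun l => On p l)).card ≤ ((𝓛.filter (fun l => On p l)).erase l₀).card + 1 := by
    have := Finset.pred_card_le_card_erase (s := 𝓛.filter (fun l => On p l)) (a := l₀)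
    omega
  have h4 : ((𝓛.filter (fun l => On p l)).card : ℝ)
      ≤ (((𝓛.filter (fun l => On p l)).erase l₀).card : ℝ) + 1 := by exact_mod_cast h3
  unfold mult
  linarith

/-- the points of `M` off `l₀` joined to `ξ` by a line of `𝓛` -/
def joined (𝓛 : Finset (Line F)) (M : Finset (Pt F)) (l₀ : Line F) (ξ : Pt F) : Finset (Pt F) :=
  M.filter (fun x => ¬ On x l₀ ∧ ∃ l ∈ 𝓛, On x l ∧ On ξ l)

/-- ordered pairs of distinct points of `M` on a common line of `𝓛` -/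
def pairs (𝓛 : Finset (Line F)) (M : Finset (Pt F)) : Finset (Pt F × Pt F) :=
  (M ×ˢ M).filter (fun y => y.1 ≠ y.2 ∧ ∃ l ∈ 𝓛, On y.2 l ∧ On y.1 l)

lemma sum_incid (𝓛 : Finset (Line F)) (M : Finset (Pt F)) :
    ∑ l ∈ 𝓛, ((M.filter (fun p => On p l)).card : ℝ) = ∑ p ∈ M, (mult 𝓛 p : ℝ) := by
  unfold mult
  simp only [Finset.card_filter]
  push_cast
  rw [Finset.sum_comm]

lemma card_pairs_ge (𝓛 : Finset (Line F)) (M : Finset (Pt F)) :
    ∑ l ∈ 𝓛, ((M.filter (fun p => On p l)).card : ℝ) ^ 2 - ∑ p ∈ M, (mult 𝓛 p : ℝ)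
      ≤ ((pairs 𝓛 M).card : ℝ) := by
  have h1 : ∑ l ∈ 𝓛, ((M.filter (fun p => On p l)).offDiag).card ≤ (pairs 𝓛 M).card := by
    rw [← Finset.card_biUnion]
    · refine Finset.card_le_card ?_
      intro y hy
      simp only [Finset.mem_biUnion, Finset.mem_offDiag, Finset.mem_filter] at hy
      obtain ⟨l, hl, h1, h2, h3⟩ := hy
      simp only [pairs, Finset.mem_filter, Finset.mem_product]
      exact ⟨⟨h1.1, h2.1⟩, h3, l, hl, h2.2, h1.2⟩
    · intro l _ l' _ hll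
      rw [Function.onFun, Finset.disjoint_left]
      intro y hy hy'
      simp only [Finset.mem_offDiag, Finset.mem_filter] at hy hy'
      exact hy.2.2 (eq_of_on_on hll hy.1.2 hy'.1.2 hy.2.1.2 hy'.2.1.2)
  have h2 : ((∑ l ∈ 𝓛, ((M.filter (fun p => On p l)).offDiag).card : ℕ) : ℝ)
      ≤ ((pairs 𝓛 M).card : ℝ) := by exact_mod_cast h1
  push_cast at h2
  rw [← sum_incid, ← Finset.sum_sub_distrib]
  refine le_trans (le_of_eq ?_) h2
  refine Finset.sum_congr rfl fun p _ => ?_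
  rw [Finset.offDiag_card, Nat.cast_sub (Nat.le_mul_self _)]
  push_cast; ring

lemma sum_joined_ge (𝓛 : Finset (Line F)) (M : Finset (Pt F)) (γ : ℝ)
    (hγ : ∀ p ∈ M, γ ≤ (mult 𝓛 p : ℝ) - 1) :
    γ * ((pairs 𝓛 M).card : ℝ)
      ≤ ∑ l₀ ∈ 𝓛, ∑ ξ ∈ M.filter (fun p => On p l₀), ((joined 𝓛 M l₀ ξ).card : ℝ) := by
  have e : ∑ l₀ ∈ 𝓛, ∑ ξ ∈ M.filter (fun p => On p l₀), ((joined 𝓛 M l₀ ξ).card : ℝ)
      = ∑ y ∈ M ×ˢ M, ((𝓛.filter (fun l₀ => On y.1 l₀ ∧ ¬ On y.2 l₀ ∧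
          ∃ l ∈ 𝓛, On y.2 l ∧ On y.1 l)).card : ℝ) := by
    simp only [joined, Finset.card_filter, Finset.sum_filter, Finset.sum_product]
    push_cast
    rw [Finset.sum_comm]
    refine Finset.sum_congr rfl fun ξ _ => ?_
    rw [Finset.sum_comm]
    refine Finset.sum_congr rfl fun l₀ _ => ?_
    by_cases h : On ξ l₀
    · simp only [h, if_true, true_and]
    · simp [h]
  rw [e]
  calc γ * ((pairs 𝓛 M).card : ℝ) = ∑ _y ∈ pairs 𝓛 M, γ := by simp [mul_comm]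
    _ ≤ ∑ y ∈ pairs 𝓛 M, ((𝓛.filter (fun l₀ => On y.1 l₀ ∧ ¬ On y.2 l₀ ∧
          ∃ l ∈ 𝓛, On y.2 l ∧ On y.1 l)).card : ℝ) := by
        refine Finset.sum_le_sum fun y hy => ?_
        simp only [pairs, Finset.mem_filter, Finset.mem_product] at hy
        obtain ⟨⟨hy1, _⟩, hne, l, hl, h2, h1⟩ := hy
        refine le_trans (hγ y.1 hy1) ?_
        have hsub : (𝓛.filter (fun l => On y.1 l)).erase l ⊆
            𝓛.filter (fun l₀ => On y.1 l₀ ∧ ¬ On y.2 l₀ ∧ ∃ l ∈ 𝓛, On y.2 l ∧ On y.1 l) := by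
          intro l₀ h₀
          simp only [Finset.mem_erase, Finset.mem_filter] at h₀ ⊢
          exact ⟨h₀.2.1, h₀.2.2, fun h => h₀.1 (line_eq_of_on_on hne h₀.2.2 h1 h h2),
            l, hl, h2, h1⟩
        have h3 := Finset.card_le_card hsub
        have h4 := Finset.pred_card_le_card_erase (s := 𝓛.filter (fun l => On y.1 l)) (a := l)
        have h5 : mult 𝓛 y.1 ≤ (𝓛.filter (fun l₀ => On y.1 l₀ ∧ ¬ On y.2 l₀ ∧
          ∃ l ∈ 𝓛, On y.2 l ∧ On y.1 l)).card + 1 := by unfold mult; omega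
        have h6 : (mult 𝓛 y.1 : ℝ) ≤ ((𝓛.filter (fun l₀ => On y.1 l₀ ∧ ¬ On y.2 l₀ ∧
          ∃ l ∈ 𝓛, On y.2 l ∧ On y.1 l)).card : ℝ) + 1 := by exact_mod_cast h5
        linarith
    _ ≤ _ := Finset.sum_le_sum_of_subset_of_nonneg (Finset.filter_subset _ _)
        fun _ _ _ => Nat.cast_nonneg _

/-- the slope coordinate of `p` seen from `ξ` after sending `l₀` to infinity -/
def slope (l₀ : Line F) (d₁ : Dir F) (ξ p : Pt F) : F :=
  (proj d₁ p - proj d₁ ξ) / (proj l₀.1 p - l₀.2)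

lemma card_image_slope (𝓛 : Finset (Line F)) (M : Finset (Pt F)) (l₀ : Line F) (d₁ : Dir F)
    (ξ : Pt F) (hξ : On ξ l₀) :
    ((joined 𝓛 M l₀ ξ).image (slope l₀ d₁ ξ)).card ≤ mult 𝓛 ξ := by
  unfold mult
  refine Finset.card_le_card_of_forall_subsingleton
    (fun v l => ∃ p ∈ joined 𝓛 M l₀ ξ, On p l ∧ slope l₀ d₁ ξ p = v) ?_ ?_
  · intro v hv
    obtain ⟨p, hp, rfl⟩ := Finset.mem_image.mp hv
    have hp' := hp
    simp only [joined, Finset.mem_filter] at hp'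
    obtain ⟨_, _, l, hl, h1, h2⟩ := hp'
    exact ⟨l, Finset.mem_filter.mpr ⟨hl, h2⟩, p, hp, h1, rfl⟩
  · intro l hl v hv v' hv'
    obtain ⟨_, p, hp, h1, rfl⟩ := hv
    obtain ⟨_, p', hp', h1', rfl⟩ := hv'
    simp only [joined, Finset.mem_filter] at hp hp' hl
    have hw : proj l₀.1 p - l₀.2 ≠ 0 := sub_ne_zero.mpr hp.2.1
    have hw' : proj l₀.1 p' - l₀.2 ≠ 0 := sub_ne_zero.mpr hp'.2.1
    have := cross hl.2 h1 h1' l₀.1 d₁
    rw [show proj l₀.1 ξ = l₀.2 from hξ] at this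
    unfold slope
    rw [div_eq_div_iff hw hw', this]

end geom

/-- A dense family of sets contains two members whose intersection meets many members. -/
lemma exists_two {α β : Type} [DecidableEq α] [DecidableEq β] (X : Finset α) (Ξ : Finset β)
    (P : β → Finset α) (hP : ∀ ξ ∈ Ξ, P ξ ⊆ X) (W m r : ℝ) (hW0 : 0 < W)
    (hm : (X.card : ℝ) ≤ m) (hr : (Ξ.card : ℝ) ≤ r) (hW : W ≤ ∑ ξ ∈ Ξ, ((P ξ).card : ℝ))
    (hbig : 2 * r * m ^ 2 ≤ W ^ 2) :
    ∃ ξ₁ ∈ Ξ, ∃ ξ₂ ∈ Ξ, ξ₁ ≠ ξ₂ ∧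
      W ^ 3 ≤ 2 * m ^ 2 * r ^ 2 * ∑ ξ ∈ Ξ, ((P ξ₁ ∩ P ξ₂ ∩ P ξ).card : ℝ) := by
  set s : α → ℝ := fun x => ∑ ξ ∈ Ξ, if x ∈ P ξ then (1 : ℝ) else 0 with hs
  have hs0 : ∀ x, 0 ≤ s x := fun x => Finset.sum_nonneg fun _ _ => by split_ifs <;> norm_num
  have hsr : ∀ x, s x ≤ r := by
    intro x
    refine le_trans ?_ hr
    calc s x ≤ ∑ _ξ ∈ Ξ, (1 : ℝ) := Finset.sum_le_sum fun _ _ => by split_ifs <;> norm_num
      _ = _ := by simp
  have hcard : ∀ T : Finset α, T ⊆ X → (T.card : ℝ) = ∑ x ∈ X, if x ∈ T then (1 : ℝ) else 0 := by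
    intro T hT
    rw [Finset.sum_ite_mem, Finset.inter_eq_right.mpr hT]
    simp
  set W₀ : ℝ := ∑ x ∈ X, s x with hW₀
  have hWW : W ≤ W₀ := by
    refine le_trans hW (le_of_eq ?_)
    rw [hW₀, Finset.sum_comm]
    exact Finset.sum_congr rfl fun ξ hξ => hcard _ (hP ξ hξ)
  have hXne : X.Nonempty := by
    rw [Finset.nonempty_iff_ne_empty]
    rintro rfl
    simp at hW₀
    linarith
  have hX0 : (0 : ℝ) < X.card := by exact_mod_cast hXne.card_pos
  have hm0 : 0 < m := lt_of_lt_of_le hX0 hm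
  have hr0 : 0 ≤ r := le_trans (Nat.cast_nonneg _) hr
  have hpow : W₀ ^ 3 ≤ m ^ 2 * ∑ x ∈ X, s x ^ 3 := by
    have := pow_sum_div_card_le_sum_pow (s := X) (f := s) (fun x _ => hs0 x) 2
    rw [div_le_iff₀ (by positivity)] at this
    refine le_trans this ?_
    rw [mul_comm]
    refine mul_le_mul_of_nonneg_right (pow_le_pow_left₀ hX0.le hm 2) ?_
    exact Finset.sum_nonneg fun x _ => pow_nonneg (hs0 x) 3
  set t : β × β → ℝ := fun y => ∑ ξ ∈ Ξ, ((P y.1 ∩ P y.2 ∩ P ξ).card : ℝ) with ht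
  have ht' : ∀ y ∈ Ξ ×ˢ Ξ, t y = ∑ x ∈ X, (if x ∈ P y.1 then (1 : ℝ) else 0)
      * (if x ∈ P y.2 then (1 : ℝ) else 0) * s x := by
    intro y hy
    simp only [ht, hs, Finset.mul_sum]
    rw [Finset.sum_comm]
    refine Finset.sum_congr rfl fun ξ hξ => ?_
    rw [hcard _ (Finset.inter_subset_right.trans (hP ξ hξ))]
    refine Finset.sum_congr rfl fun x _ => ?_
    by_cases h1 : x ∈ P y.1 <;> by_cases h2 : x ∈ P y.2 <;> by_cases h3 : x ∈ P ξ <;>
      simp [h1, h2, h3]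
  have htot : ∑ y ∈ Ξ ×ˢ Ξ, t y = ∑ x ∈ X, s x ^ 3 := by
    rw [Finset.sum_congr rfl ht', Finset.sum_comm]
    refine Finset.sum_congr rfl fun x _ => ?_
    rw [← Finset.sum_mul, Finset.sum_product]
    dsimp only
    rw [← Finset.sum_mul_sum Ξ Ξ (fun ξ => if x ∈ P ξ then (1 : ℝ) else 0)
      (fun ξ => if x ∈ P ξ then (1 : ℝ) else 0)]
    simp only [hs]; ring
  have hdiag : ∑ y ∈ Ξ.diag, t y ≤ r * W₀ := by
    rw [Finset.sum_congr rfl (fun y hy => ht' y (by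
        rw [← Finset.diag_union_offDiag]; exact Finset.mem_union_left _ hy)), Finset.sum_comm,
      hW₀, Finset.mul_sum]
    refine Finset.sum_le_sum fun x _ => ?_
    rw [← Finset.sum_mul]
    refine mul_le_mul_of_nonneg_right (le_trans ?_ hr) (hs0 x)
    calc _ ≤ ∑ _y ∈ Ξ.diag, (1 : ℝ) := Finset.sum_le_sum fun _ _ => by split_ifs <;> norm_num
      _ = _ := by simp
  have hsplit : ∑ y ∈ Ξ ×ˢ Ξ, t y = ∑ y ∈ Ξ.diag, t y + ∑ y ∈ Ξ.offDiag, t y := by
    rw [← Finset.diag_union_offDiag, Finset.sum_union (Finset.disjoint_diag_offDiag _)]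
  have hW₀0 : 0 < W₀ := lt_of_lt_of_le hW0 hWW
  have hoff : W ^ 3 ≤ 2 * m ^ 2 * ∑ y ∈ Ξ.offDiag, t y := by
    have h1 : W ^ 2 ≤ W₀ ^ 2 := pow_le_pow_left₀ hW0.le hWW 2
    have h2 : W ^ 3 ≤ W₀ ^ 3 := pow_le_pow_left₀ hW0.le hWW 3
    have h3 : 2 * r * m ^ 2 * W₀ ≤ W₀ ^ 2 * W₀ :=
      mul_le_mul_of_nonneg_right (le_trans hbig h1) hW₀0.le
    have h4 : m ^ 2 * ∑ y ∈ Ξ.diag, t y ≤ m ^ 2 * (r * W₀) :=
      mul_le_mul_of_nonneg_left hdiag (by positivity)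
    rw [← htot, hsplit, mul_add] at hpow
    nlinarith
  by_contra hcon
  push Not at hcon
  have hne : Ξ.offDiag.Nonempty := by
    rw [Finset.nonempty_iff_ne_empty]
    intro h
    rw [h] at hoff
    simp at hoff
    have := pow_pos hW0 3
    linarith
  have hlt : ∑ y ∈ Ξ.offDiag, 2 * m ^ 2 * r ^ 2 * t y < ∑ _y ∈ Ξ.offDiag, W ^ 3 := by
    refine Finset.sum_lt_sum_of_nonempty hne fun y hy => ?_
    rw [Finset.mem_offDiag] at hy
    exact hcon y.1 hy.1 y.2 hy.2.1 hy.2.2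
  rw [← Finset.mul_sum, Finset.sum_const, nsmul_eq_mul] at hlt
  have hc : (Ξ.offDiag.card : ℝ) ≤ r ^ 2 := by
    have h1 : Ξ.offDiag.card ≤ Ξ.card * Ξ.card := by
      rw [Finset.offDiag_card]; exact Nat.sub_le _ _
    have h2 : (Ξ.offDiag.card : ℝ) ≤ (Ξ.card : ℝ) * Ξ.card := by exact_mod_cast h1
    refine le_trans h2 ?_
    rw [sq]
    exact mul_le_mul hr hr (Nat.cast_nonneg _) hr0
  have h5 : (Ξ.offDiag.card : ℝ) * W ^ 3 ≤ r ^ 2 * W ^ 3 :=
    mul_le_mul_of_nonneg_right hc (by positivity)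
  have h6 : r ^ 2 * W ^ 3 ≤ r ^ 2 * (2 * m ^ 2 * ∑ y ∈ Ξ.offDiag, t y) :=
    mul_le_mul_of_nonneg_left hoff (by positivity)
  nlinarith

end Inc

end Crest.Agent.R34
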