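import Mathlib
import Crest.Agent.R34.Defs
import Crest.Agent.R34.IncidenceCount

/-!
# Row 34: the incidence bound from the sum-product estimate
-/

set_option autoImplicit false

namespace Crest.Agent.R34

open Finset

namespace Inc

/-- First half: a line `l₀` whose points are joined to many points of `M`. -/
lemma exists_rich_line {F : Type} [Field F] [DecidableEq F] (K Q : ℝ) (hK : 10000 ≤ K)
    (hQ : K ^ 16 ≤ Q) (𝓛 : Finset (Line F)) (M : Finset (Pt F)) (hn : (𝓛.card : ℝ) ≤ Q ^ 2)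
    (hM : ∀ p ∈ M, Q / K ≤ (mult 𝓛 p : ℝ) ∧ (mult 𝓛 p : ℝ) ≤ K * Q)
    (hbig : Q ^ 4 / K ≤ ∑ p ∈ M, (mult 𝓛 p : ℝ) ^ 2) :
    (M.card : ℝ) ≤ 2 * K ^ 2 * Q ^ 2 ∧ ∃ l₀ : Line F,
      ((M.filter (fun p => On p l₀)).card : ℝ) ≤ 2 * K * Q ∧
      Q ^ 3 / (4 * K ^ 5) ≤ ∑ ξ ∈ M.filter (fun p => On p l₀), ((joined 𝓛 M l₀ ξ).card : ℝ) := by
  have hK0 : 0 < K := by linarith
  have hK1 : 1 ≤ K := by linarith
  have hK3 : K ^ 3 ≤ Q := le_trans (pow_le_pow_right₀ hK1 (by norm_num)) hQ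
  have hK2 : K ^ 2 ≤ Q := le_trans (pow_le_pow_right₀ hK1 (by norm_num)) hQ
  have hQ0 : 0 < Q := lt_of_lt_of_le (by positivity) hK2
  have hγ : ∀ p ∈ M, Q / (2 * K) ≤ (mult 𝓛 p : ℝ) - 1 := by
    intro p hp
    have h1 := (hM p hp).1
    have h2 : Q / K = 2 * (Q / (2 * K)) := by field_simp
    have h3 : 1 ≤ Q / (2 * K) := by
      rw [le_div_iff₀ (by positivity)]; nlinarith
    linarith
  have hγ0 : 0 < Q / (2 * K) := by positivity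
  have hm : (M.card : ℝ) ≤ 2 * K ^ 2 * Q ^ 2 := by
    have h1 := sum_mult_pairs 𝓛 M
    have h2 : ∑ _p ∈ M, Q / K * (Q / (2 * K)) ≤ ∑ p ∈ M, (mult 𝓛 p : ℝ) * ((mult 𝓛 p : ℝ) - 1) :=
      Finset.sum_le_sum fun p hp =>
        mul_le_mul (hM p hp).1 (hγ p hp) hγ0.le (Nat.cast_nonneg _)
    rw [Finset.sum_const, nsmul_eq_mul] at h2
    have h3 : (𝓛.card : ℝ) ^ 2 ≤ (Q ^ 2) ^ 2 := pow_le_pow_left₀ (Nat.cast_nonneg _) hn 2
    have h4 : (M.card : ℝ) * (Q / K * (Q / (2 * K))) ≤ (2 * K ^ 2 * Q ^ 2) * (Q / K * (Q / (2 * K))) := by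
      have : (2 * K ^ 2 * Q ^ 2) * (Q / K * (Q / (2 * K))) = (Q ^ 2) ^ 2 := by field_simp
      rw [this]; linarith
    exact le_of_mul_le_mul_right h4 (by positivity)
  refine ⟨hm, ?_⟩
  set I : ℝ := ∑ p ∈ M, (mult 𝓛 p : ℝ) with hI
  have hI1 : Q ^ 3 / K ^ 2 ≤ I := by
    have h1 : ∑ p ∈ M, (mult 𝓛 p : ℝ) ^ 2 ≤ K * Q * I := by
      rw [hI, Finset.mul_sum]
      refine Finset.sum_le_sum fun p hp => ?_
      rw [sq]
      exact mul_le_mul_of_nonneg_right (hM p hp).2 (Nat.cast_nonneg _)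
    have h2 : K * Q * (Q ^ 3 / K ^ 2) ≤ K * Q * I := by
      have : K * Q * (Q ^ 3 / K ^ 2) = Q ^ 4 / K := by field_simp
      rw [this]; linarith
    exact le_of_mul_le_mul_left h2 (by positivity)
  have hI2 : 2 * Q ^ 2 ≤ I := by
    refine le_trans ?_ hI1
    rw [le_div_iff₀ (by positivity)]
    have : 2 * K ^ 2 ≤ Q := by nlinarith
    nlinarith [sq_nonneg Q]
  have hI0 : 0 ≤ I := le_trans (by positivity) hI2
  have hpairs : Q ^ 4 / (2 * K ^ 4) ≤ ((pairs 𝓛 M).card : ℝ) := by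
    have h1 := card_pairs_ge 𝓛 M
    have h2 := sq_sum_le_card_mul_sum_sq (s := 𝓛)
      (f := fun l => ((M.filter (fun p => On p l)).card : ℝ))
    rw [sum_incid, ← hI] at h2
    rw [← hI] at h1
    set S := ∑ l ∈ 𝓛, ((M.filter (fun p => On p l)).card : ℝ) ^ 2 with hS
    have hS0 : 0 ≤ S := Finset.sum_nonneg fun _ _ => sq_nonneg _
    have h3 : I ^ 2 ≤ Q ^ 2 * S := le_trans h2 (mul_le_mul_of_nonneg_right hn hS0)
    have h4 : (Q ^ 3 / K ^ 2) ^ 2 ≤ I ^ 2 := pow_le_pow_left₀ (by positivity) hI1 2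
    have h5 : 2 * Q ^ 2 * I ≤ I * I := mul_le_mul_of_nonneg_right hI2 hI0
    have h6 : Q ^ 2 * (S - I) ≤ Q ^ 2 * ((pairs 𝓛 M).card : ℝ) :=
      mul_le_mul_of_nonneg_left h1 (by positivity)
    have h7 : Q ^ 2 * (Q ^ 4 / (2 * K ^ 4)) ≤ Q ^ 2 * ((pairs 𝓛 M).card : ℝ) := by
      have : Q ^ 2 * (Q ^ 4 / (2 * K ^ 4)) = (Q ^ 3 / K ^ 2) ^ 2 / 2 := by field_simp
      rw [this]; nlinarith
    exact le_of_mul_le_mul_left h7 (by positivity)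
  have hW := sum_joined_ge 𝓛 M (Q / (2 * K)) hγ
  have hW2 : Q ^ 2 * (Q ^ 3 / (4 * K ^ 5))
      ≤ ∑ l₀ ∈ 𝓛, ∑ ξ ∈ M.filter (fun p => On p l₀), ((joined 𝓛 M l₀ ξ).card : ℝ) := by
    refine le_trans ?_ hW
    have : Q ^ 2 * (Q ^ 3 / (4 * K ^ 5)) = Q / (2 * K) * (Q ^ 4 / (2 * K ^ 4)) := by
      field_simp; ring
    rw [this]
    exact mul_le_mul_of_nonneg_left hpairs hγ0.le
  have hne : 𝓛.Nonempty := by
    rw [Finset.nonempty_iff_ne_empty]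
    rintro rfl
    rw [Finset.sum_empty] at hW2
    have : 0 < Q ^ 2 * (Q ^ 3 / (4 * K ^ 5)) := by positivity
    linarith
  obtain ⟨l₀, _, hl₀⟩ := Finset.exists_le_of_sum_le (f := fun _ => Q ^ 3 / (4 * K ^ 5)) hne
    (le_trans (by
      rw [Finset.sum_const, nsmul_eq_mul]
      exact mul_le_mul_of_nonneg_right hn (by positivity)) hW2)
  refine ⟨l₀, ?_, hl₀⟩
  have h1 := sum_mult_on_line 𝓛 M l₀
  have h2 : ∑ _p ∈ M.filter (fun p => On p l₀), Q / (2 * K)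
      ≤ ∑ p ∈ M.filter (fun p => On p l₀), ((mult 𝓛 p : ℝ) - 1) :=
    Finset.sum_le_sum fun p hp => hγ p (Finset.mem_filter.mp hp).1
  rw [Finset.sum_const, nsmul_eq_mul] at h2
  have h4 : ((M.filter (fun p => On p l₀)).card : ℝ) * (Q / (2 * K))
      ≤ (2 * K * Q) * (Q / (2 * K)) := by
    have : (2 * K * Q) * (Q / (2 * K)) = Q ^ 2 := by field_simp
    rw [this]; linarith
  exact le_of_mul_le_mul_right h4 hγ0

/-- Popular members of a family of bounded nonnegative numbers with large sum. -/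
lemma card_popular {β : Type} [DecidableEq β] (Ξ : Finset β) (y : β → ℝ) (a b : β) (K Q : ℝ)
    (hK : 10000 ≤ K) (hQ : K ^ 26 ≤ Q) (hr : (Ξ.card : ℝ) ≤ 2 * K * Q)
    (hy : ∀ ξ ∈ Ξ, y ξ ≤ (K * Q) ^ 2)
    (hsum : (Q ^ 3 / (4 * K ^ 5)) ^ 3
      ≤ 2 * (2 * K ^ 2 * Q ^ 2) ^ 2 * (2 * K * Q) ^ 2 * ∑ ξ ∈ Ξ, y ξ) :
    Q / K ^ 25 ≤ (((Ξ.filter (fun ξ => (K * Q) ^ 2 / K ^ 50 ≤ y ξ)).erase a).erase b).card := by
  have hK0 : 0 < K := by linarith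
  have hK1 : 1 ≤ K := by linarith
  have hQ0 : 0 < Q := lt_of_lt_of_le (by positivity) hQ
  set T := Ξ.filter (fun ξ => (K * Q) ^ 2 / K ^ 50 ≤ y ξ) with hT
  have hc : (T.card : ℝ) ≤ ((T.erase a).erase b).card + 2 := by
    have h1 := Finset.pred_card_le_card_erase (s := T) (a := a)
    have h2 := Finset.pred_card_le_card_erase (s := T.erase a) (a := b)
    have h3 : T.card ≤ ((T.erase a).erase b).card + 2 := by omega
    exact_mod_cast h3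
  have hY : Q ^ 3 / (2048 * K ^ 21) ≤ ∑ ξ ∈ Ξ, y ξ := by
    have h1 : (Q ^ 3 / (4 * K ^ 5)) ^ 3
        = 2 * (2 * K ^ 2 * Q ^ 2) ^ 2 * (2 * K * Q) ^ 2 * (Q ^ 3 / (2048 * K ^ 21)) := by
      field_simp; ring
    rw [h1] at hsum
    exact le_of_mul_le_mul_left hsum (by positivity)
  have hup : ∑ ξ ∈ Ξ, y ξ ≤ T.card * (K * Q) ^ 2 + 2 * K * Q * ((K * Q) ^ 2 / K ^ 50) := by
    rw [← Finset.sum_filter_add_sum_filter_not Ξ (fun ξ => (K * Q) ^ 2 / K ^ 50 ≤ y ξ)]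
    refine add_le_add ?_ ?_
    · rw [← hT, ← nsmul_eq_mul, ← Finset.sum_const]
      exact Finset.sum_le_sum fun ξ hξ => hy ξ (Finset.mem_filter.mp hξ).1
    · calc _ ≤ ∑ _ξ ∈ Ξ.filter (fun ξ => ¬ (K * Q) ^ 2 / K ^ 50 ≤ y ξ), (K * Q) ^ 2 / K ^ 50 :=
            Finset.sum_le_sum fun ξ hξ => (not_le.mp (Finset.mem_filter.mp hξ).2).le
        _ = ((Ξ.filter (fun ξ => ¬ (K * Q) ^ 2 / K ^ 50 ≤ y ξ)).card : ℝ)
              * ((K * Q) ^ 2 / K ^ 50) := by rw [Finset.sum_const, nsmul_eq_mul]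
        _ ≤ _ := by
            refine mul_le_mul_of_nonneg_right (le_trans ?_ hr) (by positivity)
            exact_mod_cast Finset.card_filter_le _ _
  -- divide by `(K Q)^2` and write everything in units of `u = Q / K^25`
  set u : ℝ := Q / K ^ 25 with hu
  have hu0 : 0 < u := by positivity
  have e1 : Q ^ 3 / (2048 * K ^ 21) = (K ^ 2 / 2048 * u) * (K * Q) ^ 2 := by
    rw [hu]; field_simp
  have e2 : 2 * K * Q * ((K * Q) ^ 2 / K ^ 50) = (2 / K ^ 24 * u) * (K * Q) ^ 2 := by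
    rw [hu]; field_simp
  have h3 : (K ^ 2 / 2048 * u) * (K * Q) ^ 2 ≤ (T.card + 2 / K ^ 24 * u) * (K * Q) ^ 2 := by
    rw [← e1, add_mul, ← e2]; linarith
  have h4 : K ^ 2 / 2048 * u ≤ T.card + 2 / K ^ 24 * u := le_of_mul_le_mul_right h3 (by positivity)
  have h5 : 2 / K ^ 24 ≤ 2 := by
    rw [div_le_iff₀ (by positivity)]
    have : 1 ≤ K ^ 24 := one_le_pow₀ hK1
    linarith
  have h6 : 1 ≤ u := by
    rw [hu, le_div_iff₀ (by positivity), one_mul]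
    exact le_trans (pow_le_pow_right₀ hK1 (by norm_num)) hQ
  have h7 : 5 ≤ K ^ 2 / 2048 := by
    rw [le_div_iff₀ (by norm_num)]; nlinarith
  have h8 := mul_le_mul_of_nonneg_right h5 hu0.le
  have h9 := mul_le_mul_of_nonneg_right h7 hu0.le
  linarith

end Inc

open Inc in
theorem incidence_of_sumProd (h : SumProdStmt) : IncidenceStmt := by
  intro F _ _ _ hsq K hK hq 𝓛 M hn hM
  by_contra hcon
  have hK0 : 0 < K := by linarith
  have hK1 : 1 ≤ K := by linarith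
  obtain ⟨Q, hQdef⟩ : ∃ Q : ℝ, Q = Real.sqrt (Fintype.card F) := ⟨_, rfl⟩
  rw [← hQdef] at hM
  have hQnn : 0 ≤ Q := by rw [hQdef]; exact Real.sqrt_nonneg _
  have hQQ : (Fintype.card F : ℝ) = Q ^ 2 := by
    rw [hQdef, Real.sq_sqrt (Nat.cast_nonneg _)]
  have hQ : ∀ j : ℕ, j ≤ 500000 → K ^ j ≤ Q := by
    intro j hj
    refine le_trans (pow_le_pow_right₀ hK1 hj) ?_
    refine (abs_le_of_sq_le_sq' ?_ hQnn).2
    rw [← hQQ, ← pow_mul]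
    exact hq
  have hQlt : ∀ j : ℕ, j < 500000 → K ^ j < Q := by
    intro j hj
    exact lt_of_lt_of_le (pow_lt_pow_right₀ (by linarith) (Nat.lt_succ_self j)) (hQ (j + 1) hj)
  have hQ0 : 0 < Q := lt_of_lt_of_le (by positivity) (hQ 1 (by norm_num))
  have hn' : (𝓛.card : ℝ) ≤ Q ^ 2 := by rw [← hQQ]; exact_mod_cast hn
  have hbig : Q ^ 4 / K ≤ ∑ p ∈ M, (mult 𝓛 p : ℝ) ^ 2 := by
    rw [hQQ, ← pow_mul] at hcon
    exact (not_le.mp hcon).le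
  obtain ⟨hm, l₀, hr, hW⟩ := exists_rich_line K Q hK (hQ 16 (by norm_num)) 𝓛 M hn' hM hbig
  set Ξ₀ := M.filter (fun p => On p l₀) with hΞ₀
  obtain ⟨ξ₁, hξ₁, ξ₂, hξ₂, hne, hY⟩ := exists_two M Ξ₀ (joined 𝓛 M l₀)
    (fun ξ _ => Finset.filter_subset _ _) (Q ^ 3 / (4 * K ^ 5)) (2 * K ^ 2 * Q ^ 2) (2 * K * Q)
    (by positivity) hm hr hW (by
      have h16 := hQ 16 (by norm_num)
      have e : (Q ^ 3 / (4 * K ^ 5)) ^ 2 = Q ^ 5 * Q / (16 * K ^ 10) := by field_simp; ring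
      rw [e, le_div_iff₀ (by positivity)]
      have e2 : 2 * (2 * K * Q) * (2 * K ^ 2 * Q ^ 2) ^ 2 * (16 * K ^ 10)
          = Q ^ 5 * (256 * K ^ 15) := by ring
      rw [e2]
      refine mul_le_mul_of_nonneg_left (le_trans ?_ h16) (by positivity)
      rw [show K ^ 16 = K * K ^ 15 by ring]
      exact mul_le_mul_of_nonneg_right (by linarith) (by positivity))
  -- second coordinate
  obtain ⟨d₁, hd₁⟩ : ∃ d₁ : Dir F, l₀.1 ≠ d₁ := by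
    cases hl : l₀.1 with
    | none => exact ⟨some 0, by simp⟩
    | some a => exact ⟨none, by simp⟩
  have hon : ∀ ξ ∈ Ξ₀, On ξ l₀ := fun ξ hξ => (Finset.mem_filter.mp hξ).2
  have htinj : ∀ ξ ∈ Ξ₀, ∀ ξ' ∈ Ξ₀, proj d₁ ξ = proj d₁ ξ' → ξ = ξ' := by
    intro ξ hξ ξ' hξ' e
    exact eq_of_proj_eq hd₁ ((hon ξ hξ).trans (hon ξ' hξ').symm) e
  have ht12 : proj d₁ ξ₂ - proj d₁ ξ₁ ≠ 0 := by
    intro e
    exact hne (htinj _ hξ₁ _ hξ₂ (sub_eq_zero.mp e).symm)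
  have hw : ∀ ξ, ∀ p ∈ joined 𝓛 M l₀ ξ, proj l₀.1 p - l₀.2 ≠ 0 := by
    intro ξ p hp
    exact sub_ne_zero.mpr (Finset.mem_filter.mp hp).2.1
  have himg : ∀ ξ ∈ Ξ₀, (((joined 𝓛 M l₀ ξ).image (slope l₀ d₁ ξ)).card : ℝ) ≤ K * Q := by
    intro ξ hξ
    refine le_trans ?_ (hM ξ (Finset.mem_filter.mp hξ).1).2
    exact_mod_cast card_image_slope 𝓛 M l₀ d₁ ξ (hon ξ hξ)
  set A := (joined 𝓛 M l₀ ξ₁).image (slope l₀ d₁ ξ₁) with hA
  set B := (joined 𝓛 M l₀ ξ₂).image (slope l₀ d₁ ξ₂) with hB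
  set φ : Pt F → F × F := fun p => (slope l₀ d₁ ξ₁ p, slope l₀ d₁ ξ₂ p) with hφ
  set P : Pt F → Finset (Pt F) :=
    fun ξ => joined 𝓛 M l₀ ξ₁ ∩ joined 𝓛 M l₀ ξ₂ ∩ joined 𝓛 M l₀ ξ with hP
  have hP1 : ∀ ξ, ∀ p ∈ P ξ, p ∈ joined 𝓛 M l₀ ξ₁ := fun ξ p hp =>
    (Finset.mem_inter.mp (Finset.mem_inter.mp hp).1).1
  have hP2 : ∀ ξ, ∀ p ∈ P ξ, p ∈ joined 𝓛 M l₀ ξ₂ := fun ξ p hp =>
    (Finset.mem_inter.mp (Finset.mem_inter.mp hp).1).2
  have hP3 : ∀ ξ, ∀ p ∈ P ξ, p ∈ joined 𝓛 M l₀ ξ := fun ξ p hp => (Finset.mem_inter.mp hp).2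
  have hφinj : ∀ ξ, Set.InjOn φ (P ξ) := by
    intro ξ p hp p' hp' e
    have w1 := hw ξ p (hP3 ξ p hp)
    have w2 := hw ξ p' (hP3 ξ p' hp')
    have e1 : slope l₀ d₁ ξ₁ p = slope l₀ d₁ ξ₁ p' := congrArg Prod.fst e
    have e2 : slope l₀ d₁ ξ₂ p = slope l₀ d₁ ξ₂ p' := congrArg Prod.snd e
    unfold Inc.slope at e1 e2
    rw [div_eq_div_iff w1 w2] at e1 e2
    have e3 : (proj d₁ ξ₂ - proj d₁ ξ₁) * (proj l₀.1 p' - proj l₀.1 p) = 0 := by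
      linear_combination e1 - e2
    have e4 : proj l₀.1 p = proj l₀.1 p' :=
      (sub_eq_zero.mp ((mul_eq_zero.mp e3).resolve_left ht12)).symm
    rw [← e4] at e1
    have e5 := mul_right_cancel₀ w1 e1
    exact eq_of_proj_eq hd₁ e4 (by linear_combination e5)
  have hφsub : ∀ ξ, (P ξ).image φ ⊆ A ×ˢ B := by
    intro ξ y hy
    obtain ⟨p, hp, rfl⟩ := Finset.mem_image.mp hy
    exact Finset.mem_product.mpr ⟨Finset.mem_image_of_mem _ (hP1 ξ p hp),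
      Finset.mem_image_of_mem _ (hP2 ξ p hp)⟩
  have hPcard : ∀ ξ ∈ Ξ₀, ((P ξ).card : ℝ) ≤ (K * Q) ^ 2 := by
    intro ξ _
    have h1 := Finset.card_le_card (hφsub ξ)
    rw [Finset.card_image_of_injOn (hφinj ξ), Finset.card_product] at h1
    have h2 : ((P ξ).card : ℝ) ≤ (A.card : ℝ) * B.card := by exact_mod_cast h1
    refine le_trans h2 ?_
    rw [sq]
    exact mul_le_mul (himg ξ₁ hξ₁) (himg ξ₂ hξ₂) (Nat.cast_nonneg _) (by positivity)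
  have hpop := card_popular Ξ₀ (fun ξ => ((P ξ).card : ℝ)) ξ₁ ξ₂ K Q hK (hQ 26 (by norm_num)) hr
    hPcard hY
  set Ξ' := ((Ξ₀.filter (fun ξ => (K * Q) ^ 2 / K ^ 50 ≤ ((P ξ).card : ℝ))).erase ξ₁).erase ξ₂
    with hΞ'
  have hΞ'mem : ∀ ξ ∈ Ξ', ξ ∈ Ξ₀ ∧ (K * Q) ^ 2 / K ^ 50 ≤ ((P ξ).card : ℝ) ∧
      proj d₁ ξ - proj d₁ ξ₁ ≠ 0 ∧ proj d₁ ξ₂ - proj d₁ ξ ≠ 0 := by
    intro ξ hξ
    simp only [hΞ', Finset.mem_erase] at hξ
    obtain ⟨h2, h1, h0⟩ := hξ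
    obtain ⟨h3, h4⟩ := Finset.mem_filter.mp h0
    exact ⟨h3, h4, fun e => h1 (htinj _ h3 _ hξ₁ (sub_eq_zero.mp e)),
      fun e => h2 (htinj _ h3 _ hξ₂ (sub_eq_zero.mp e).symm)⟩
  set z : Pt F → F := fun ξ => (proj d₁ ξ - proj d₁ ξ₁) / (proj d₁ ξ₂ - proj d₁ ξ) with hz
  have hzinj : Set.InjOn z Ξ' := by
    intro ξ hξ ξ' hξ' e
    obtain ⟨a1, _, _, a2⟩ := hΞ'mem ξ hξ
    obtain ⟨b1, _, _, b2⟩ := hΞ'mem ξ' hξ'
    simp only [hz] at e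
    rw [div_eq_div_iff a2 b2] at e
    have e3 : (proj d₁ ξ₂ - proj d₁ ξ₁) * (proj d₁ ξ - proj d₁ ξ') = 0 := by
      linear_combination e
    exact htinj _ a1 _ b1 (sub_eq_zero.mp ((mul_eq_zero.mp e3).resolve_left ht12))
  have hcardΞ : Q / K ^ 25 ≤ ((Ξ'.image z).card : ℝ) := by
    rw [Finset.card_image_of_injOn hzinj]; exact hpop
  have hch : ∀ v : F, ∃ ξ : Pt F, v ∈ Ξ'.image z → ξ ∈ Ξ' ∧ z ξ = v := by
    intro v
    by_cases hv : v ∈ Ξ'.image z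
    · obtain ⟨ξ, h1, h2⟩ := Finset.mem_image.mp hv
      exact ⟨ξ, fun _ => ⟨h1, h2⟩⟩
    · exact ⟨ξ₁, fun hv' => absurd hv' hv⟩
  choose ι hι using hch
  have hres := h F hsq A B (Ξ'.image z) (K * Q) (K ^ 50) (fun v => (P (ι v)).image φ)
    (le_trans hK (le_self_pow₀ hK1 (by norm_num))) (himg ξ₁ hξ₁) (himg ξ₂ hξ₂)
    (by
      intro h0
      obtain ⟨ξ, h1, h2⟩ := Finset.mem_image.mp h0
      obtain ⟨_, _, a1, a2⟩ := hΞ'mem ξ h1
      exact div_ne_zero a1 a2 h2)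
    (fun v _ => hφsub _)
    (by
      intro v hv
      rw [Finset.card_image_of_injOn (hφinj _)]
      exact (hΞ'mem _ (hι v hv).1).2.1)
    (by
      intro v hv
      obtain ⟨h1, h2⟩ := hι v hv
      obtain ⟨a0, _, a1, a2⟩ := hΞ'mem _ h1
      refine le_trans ?_ (himg _ a0)
      have hsub : ((P (ι v)).image φ).image (fun x => x.1 + v * x.2) ⊆
          ((joined 𝓛 M l₀ (ι v)).image (slope l₀ d₁ (ι v))).image
            (fun s => (proj d₁ ξ₂ - proj d₁ ξ₁) / (proj d₁ ξ₂ - proj d₁ (ι v)) * s) := by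
        intro y hy
        obtain ⟨x, hx, rfl⟩ := Finset.mem_image.mp hy
        obtain ⟨p, hp, rfl⟩ := Finset.mem_image.mp hx
        refine Finset.mem_image.mpr ⟨_, Finset.mem_image_of_mem _ (hP3 _ p hp), ?_⟩
        have w1 := hw _ p (hP3 _ p hp)
        have h3 : v = (proj d₁ (ι v) - proj d₁ ξ₁) / (proj d₁ ξ₂ - proj d₁ (ι v)) := h2.symm
        generalize ι v = ξ at *
        subst h3
        simp only [hφ, Inc.slope]
        field_simp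
        ring
      exact_mod_cast le_trans (Finset.card_le_card hsub) Finset.card_image_le)
    (by
      refine le_trans ?_ (pow_le_pow_left₀ (by positivity) hcardΞ 3)
      rw [hQQ, div_pow, le_div_iff₀ (by positivity), ← pow_mul, ← pow_mul, mul_assoc, ← pow_add,
        show Q ^ 3 = Q ^ 2 * Q by ring]
      exact mul_le_mul_of_nonneg_left (hQ _ (by norm_num)) (by positivity))
  rw [← pow_mul] at hres
  rcases hres with h1 | h1 | h1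
  · have h2 := hQlt (50 * 3000) (by norm_num)
    have h3 : Q ≤ K * Q := le_mul_of_one_le_left hQ0.le hK1
    exact absurd (lt_of_lt_of_le h2 (le_trans h3 h1)) (lt_irrefl _)
  · have h2 := hQlt (50 * 3000 + 1) (by norm_num)
    rw [hQQ, ← mul_assoc, ← pow_succ, sq] at h1
    exact absurd (lt_of_lt_of_le h2 (le_of_mul_le_mul_right h1 hQ0)) (lt_irrefl _)
  · have h2 := hQlt (50 * 3000 + 1 + 25 * 2) (by norm_num)
    have h3 := le_trans (pow_le_pow_left₀ (by positivity) hcardΞ 2) h1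
    rw [div_pow, div_le_iff₀ (by positivity), ← mul_assoc, ← pow_succ, ← pow_mul, mul_right_comm,
      ← pow_add, sq] at h3
    exact absurd (lt_of_lt_of_le h2 (le_of_mul_le_mul_right h3 hQ0)) (lt_irrefl _)

end Crest.Agent.R34
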