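import Mathlib

/-! Numerical inequalities for the main lemma of row 34. -/

set_option autoImplicit false

namespace Crest.Agent.R34

theorem ml_num_basic {d Q n : ℝ} (hd1 : 300 ≤ d) (hQ : d ^ 10 ≤ Q)
    (hn2 : Q ^ 2 - 384 * d * Q ≤ n) :
    0 < Q ∧ d * Q ^ 2 - Q ^ 2 ≤ d * n ∧ Q ^ 2 ≤ 2 * n ∧ 100 * (d ^ 4 * Q) ≤ n ∧ 4 * d ^ 6 ≤ n := by
  have hd0 : 0 < d := by linarith
  have h1 : (1 : ℝ) ≤ d := by linarith
  have hd2 : 90000 ≤ d ^ 2 := by nlinarith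
  have hdd : 90000 * d ^ 8 ≤ Q := by
    have : d ^ 10 = d ^ 2 * d ^ 8 := by ring
    rw [this] at hQ
    exact (mul_le_mul_of_nonneg_right hd2 (by positivity)).trans hQ
  have h84 : d ^ 4 ≤ d ^ 8 := pow_le_pow_right₀ h1 (by norm_num)
  have h82 : d ^ 2 ≤ d ^ 8 := pow_le_pow_right₀ h1 (by norm_num)
  have h81 : d ^ 1 ≤ d ^ 8 := pow_le_pow_right₀ h1 (by norm_num)
  rw [pow_one] at h81
  have hQ0 : 0 < Q := by linarith
  have a1 : 384 * d ^ 2 * Q ≤ Q * Q := mul_le_mul_of_nonneg_right (by linarith) hQ0.le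
  have a2 : 768 * d * Q ≤ Q * Q := mul_le_mul_of_nonneg_right (by linarith) hQ0.le
  have a3 : 200 * d ^ 4 * Q ≤ Q * Q := mul_le_mul_of_nonneg_right (by linarith) hQ0.le
  have a4 := mul_le_mul_of_nonneg_left hn2 hd0.le
  have a5 : d ^ 4 * d ^ 2 ≤ d ^ 4 * Q := mul_le_mul_of_nonneg_left (by linarith) (by positivity)
  have a6 : 0 ≤ d ^ 6 := by positivity
  refine ⟨hQ0, by linear_combination a4 + a1, by linear_combination 2 * hn2 + a2,
    by linear_combination hn2 + (1 / 2) * a2 + (1 / 2) * a3, ?_⟩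
  linear_combination hn2 + (1 / 2) * a2 + (1 / 2) * a3 + 100 * a5 + 96 * a6

theorem ml_num_nu {η hh d Q n : ℝ} (hη0 : 0 < η) (hη1 : η ≤ 1) (hh0 : 0 < hh) (hhd : hh ≤ d)
    (hd1 : 300 ≤ d) (hQ1 : 1 ≤ Q) (hnq : d * Q ^ 2 - Q ^ 2 ≤ d * n)
    (hnQ : 100 * (d ^ 4 * Q) ≤ n) :
    (η - 3 / hh - 7 / d) * n ^ 2 ≤ n ^ 2 - n -
      (1 - η) * Q ^ 2 * (n + (2 * n / (2 / hh * n)) ^ 2 / 2) - 2 / hh * n * (3 / 2 * n) -
      2 * (n * (2 * Q)) - 12 * (2 * n / (n / d ^ 3)) * (n * (2 * Q)) := by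
  have hd0 : 0 < d := by linarith
  have h1 : (1 : ℝ) ≤ d := by linarith
  have hQ0 : 0 < Q := by linarith
  have hn0 : 0 < n := lt_of_lt_of_le (by positivity) hnQ
  have hd4Q : d ^ 4 ≤ d ^ 4 * Q := le_mul_of_one_le_right (by positivity) hQ1
  have d3 : d ^ 3 ≤ d ^ 4 := pow_le_pow_right₀ h1 (by norm_num)
  have d1 : d ^ 1 ≤ d ^ 4 := pow_le_pow_right₀ h1 (by norm_num)
  rw [pow_one] at d1
  have hh2 : hh ^ 2 ≤ d ^ 2 := pow_le_pow_left₀ hh0.le hhd 2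
  have e1 : 2 * n / (2 / hh * n) = hh := by field_simp
  have e2 : 2 * n / (n / d ^ 3) = 2 * d ^ 3 := by field_simp
  have e3 : 2 / hh * n * (3 / 2 * n) = 3 / hh * n ^ 2 := by ring
  rw [e1, e2, e3]
  obtain ⟨x, hx⟩ : ∃ x : ℝ, x = 1 / d := ⟨_, rfl⟩
  have hx0 : 0 < x := by rw [hx]; positivity
  have hxd : x * d = 1 := by rw [hx]; field_simp
  have hx1 : x ≤ 1 / 2 := by rw [hx, div_le_iff₀ hd0]; linarith
  have e4 : 7 / d = 7 * x := by rw [hx]; ring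
  rw [e4]
  have a1 : Q ^ 2 ≤ (1 + 2 * x) * n := by
    have b1 : (1 - x) * Q ^ 2 ≤ n := by
      have := mul_le_mul_of_nonneg_left hnq hx0.le
      have b2 : x * (d * Q ^ 2 - Q ^ 2) = (1 - x) * Q ^ 2 := by
        rw [mul_sub, ← mul_assoc, hxd]; ring
      have b3 : x * (d * n) = n := by rw [← mul_assoc, hxd, one_mul]
      linarith
    have b0 : 0 ≤ x * (1 - 2 * x) := mul_nonneg hx0.le (by linarith)
    have b4 : 1 ≤ (1 + 2 * x) * (1 - x) := by linear_combination b0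
    have b5 : Q ^ 2 ≤ (1 + 2 * x) * (1 - x) * Q ^ 2 := le_mul_of_one_le_left (by positivity) b4
    linear_combination b5 + mul_le_mul_of_nonneg_left b1 (by linarith : 0 ≤ 1 + 2 * x)
  have hxn : ∀ y : ℝ, d * y ≤ n → y ≤ x * n := fun y hy => by
    have := mul_le_mul_of_nonneg_left hy hx0.le
    rwa [← mul_assoc, hxd, one_mul] at this
  have p3 : 0 ≤ d ^ 3 := by positivity
  have a2 : hh ^ 2 / 2 ≤ x * n := hxn _ (by
    have c1 := mul_le_mul_of_nonneg_left hh2 hd0.le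
    linear_combination (1 / 2) * c1 + hnQ + 100 * hd4Q + 100 * d3 + (199 / 2) * p3)
  have a3 : 1 ≤ x * n := hxn _ (by linarith)
  have a4 : 4 * Q + 48 * d ^ 3 * Q ≤ x * n := hxn _ (by
    have c1 : d * Q ≤ d ^ 4 * Q := mul_le_mul_of_nonneg_right d1 hQ0.le
    have c2 : 0 ≤ d ^ 4 * Q := by positivity
    linear_combination hnQ + 4 * c1 + 48 * c2)
  have a5 : Q ^ 2 * (n + hh ^ 2 / 2) ≤ (1 + 5 * x) * n ^ 2 := by
    have : Q ^ 2 * (n + hh ^ 2 / 2) ≤ ((1 + 2 * x) * n) * ((1 + x) * n) :=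
      mul_le_mul a1 (by linarith) (by positivity) (by positivity)
    have b0 : 0 ≤ x * (1 - x) := mul_nonneg hx0.le (by linarith)
    have b6 : (1 + 2 * x) * (1 + x) ≤ 1 + 5 * x := by linear_combination 2 * b0
    linear_combination this + mul_le_mul_of_nonneg_right b6 (sq_nonneg n)
  have a6 : (1 - η) * (Q ^ 2 * (n + hh ^ 2 / 2)) ≤ (1 - η) * n ^ 2 + 5 * x * n ^ 2 := by
    have c1 := mul_le_mul_of_nonneg_left a5 (by linarith : 0 ≤ 1 - η)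
    have c2 : 0 ≤ η * (5 * x * n ^ 2) := by positivity
    linear_combination c1 + c2
  have a7 := mul_le_mul_of_nonneg_left a3 hn0.le
  have a8 := mul_le_mul_of_nonneg_left a4 hn0.le
  linear_combination a6 + a7 + a8

/-- The numerical inequalities. -/
theorem ml_numerics {η ρ hh d Q n : ℝ} (hη0 : 0 < η) (hη1 : η ≤ 1) (hρ0 : 0 < ρ) (hρ1 : ρ ≤ 1)
    (hh1 : 20 ≤ ρ * η * hh) (hd : 10 * hh + 100 ≤ d) (hQ : d ^ 10 ≤ Q)
    (hn2 : Q ^ 2 - 384 * d * Q ≤ n) :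
    0 < n ∧ 4 * n ≤ (2 / hh * n) ^ 2 ∧ 4 * n ≤ (n / d ^ 3) ^ 2 ∧ 2 * Q < 2 / hh * n ∧
    (η - 3 / hh - 7 / d) * n ^ 2 ≤ n ^ 2 - n -
      (1 - η) * Q ^ 2 * (n + (2 * n / (2 / hh * n)) ^ 2 / 2) - 2 / hh * n * (3 / 2 * n) -
      2 * (n * (2 * Q)) - 12 * (2 * n / (n / d ^ 3)) * (n * (2 * Q)) ∧
    2 / hh * n * (3 / 2 * n) + (Q ^ 2) ^ 2 / d ^ 2 + Q / d ^ 2 * (3 * d * Q ^ 2 * Q) ≤
      (3 / hh + 16 / d) * n ^ 2 ∧
    ρ * (η / 4) < ρ * ((η - 3 / hh - 7 / d) - 2 * d * (2 * Q / n) -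
      d ^ 2 * (12 * (n / d ^ 3 / n))) - (3 / hh + 16 / d) := by
  have hρη : ρ * η ≤ 1 := mul_le_one₀ hρ1 hη0.le hη1
  have hρη0 : 0 < ρ * η := mul_pos hρ0 hη0
  have hh20 : 20 ≤ hh := by
    by_contra hc
    push Not at hc
    nlinarith
  have hh0 : 0 < hh := by linarith
  have hd0 : 0 < d := by linarith
  have hd1 : 300 ≤ d := by linarith
  have h1 : (1 : ℝ) ≤ d := by linarith
  obtain ⟨hQ0, hnq, hnq2, hnQ, hnQ6⟩ := ml_num_basic hd1 hQ hn2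
  have hQ1 : 1 ≤ Q := (one_le_pow₀ h1).trans hQ
  have hn0 : 0 < n := lt_of_lt_of_le (by positivity) hnQ
  have hhd : hh ≤ d := by linarith
  have hh2 : hh ^ 2 ≤ d ^ 2 := pow_le_pow_left₀ hh0.le hhd 2
  have h62 : d ^ 2 ≤ d ^ 6 := pow_le_pow_right₀ h1 (by norm_num)
  have h42 : d ^ 2 ≤ d ^ 4 := pow_le_pow_right₀ h1 (by norm_num)
  have d1 : d ^ 1 ≤ d ^ 4 := pow_le_pow_right₀ h1 (by norm_num)
  rw [pow_one] at d1
  refine ⟨hn0, ?_, ?_, ?_, ml_num_nu hη0 hη1 hh0 hhd hd1 hQ1 hnq hnQ, ?_, ?_⟩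
  · have : (2 / hh * n) ^ 2 = 4 * n * (n / hh ^ 2) := by field_simp; ring
    rw [this]
    refine le_mul_of_one_le_right (by positivity) ?_
    rw [le_div_iff₀ (by positivity)]
    linarith [sq_nonneg d]
  · have : (n / d ^ 3) ^ 2 = 4 * n * (n / (4 * d ^ 6)) := by field_simp
    rw [this]
    refine le_mul_of_one_le_right (by positivity) ?_
    rw [le_div_iff₀ (by positivity)]
    linarith
  · rw [div_mul_eq_mul_div, lt_div_iff₀ hh0]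
    have c1 : hh * Q ≤ d ^ 4 * Q := mul_le_mul_of_nonneg_right (by linarith) hQ0.le
    have c2 : 0 < d ^ 4 * Q := by positivity
    linear_combination 2 * c1 + 2 * hnQ + 198 * c2
  · have e3 : 2 / hh * n * (3 / 2 * n) = 3 / hh * n ^ 2 := by ring
    have e4 : Q / d ^ 2 * (3 * d * Q ^ 2 * Q) = 3 / d * (Q ^ 2) ^ 2 := by field_simp
    have a1 : (Q ^ 2) ^ 2 ≤ 4 * n ^ 2 := by
      have := pow_le_pow_left₀ (sq_nonneg Q) hnq2 2
      linarith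
    have a2 : (Q ^ 2) ^ 2 / d ^ 2 ≤ 1 / d * (Q ^ 2) ^ 2 := by
      rw [one_div, ← div_eq_inv_mul]
      exact div_le_div_of_nonneg_left (by positivity) hd0 (le_self_pow₀ h1 two_ne_zero)
    have a3 := mul_le_mul_of_nonneg_left a1 (by positivity : 0 ≤ 4 / d)
    rw [e3, e4]
    have e5 : 1 / d * (Q ^ 2) ^ 2 + 3 / d * (Q ^ 2) ^ 2 = 4 / d * (Q ^ 2) ^ 2 := by ring
    have e6 : (3 / hh + 16 / d) * n ^ 2 = 3 / hh * n ^ 2 + 4 / d * (4 * n ^ 2) := by ring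
    linarith
  · have e1 : d ^ 2 * (12 * (n / d ^ 3 / n)) = 12 / d := by field_simp
    have a1 : 2 * d * (2 * Q / n) ≤ 1 / d := by
      rw [← mul_div_assoc, div_le_div_iff₀ hn0 hd0]
      have c1 : d ^ 2 * Q ≤ d ^ 4 * Q := mul_le_mul_of_nonneg_right h42 hQ0.le
      have c2 : 0 ≤ d ^ 4 * Q := by positivity
      linear_combination 4 * c1 + hnQ + 96 * c2
    rw [e1]
    obtain ⟨x, hx⟩ : ∃ x : ℝ, x = 1 / d := ⟨_, rfl⟩
    obtain ⟨y, hy⟩ : ∃ y : ℝ, y = 1 / hh := ⟨_, rfl⟩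
    have hx0 : 0 < x := by rw [hx]; positivity
    have hy0 : 0 < y := by rw [hy]; positivity
    have b1 : 20 * y ≤ ρ * η := by
      rw [hy, mul_one_div, div_le_iff₀ hh0]; exact hh1
    have b2 : 10 * x ≤ y := by
      rw [hx, hy, mul_one_div, div_le_div_iff₀ hd0 hh0]; linarith
    have e2 : 3 / hh = 3 * y := by rw [hy]; ring
    have e3 : 7 / d = 7 * x := by rw [hx]; ring
    have e4 : 12 / d = 12 * x := by rw [hx]; ring
    have e5 : 16 / d = 16 * x := by rw [hx]; ring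
    rw [e2, e3, e4, e5]
    have b3 : ρ * (2 * d * (2 * Q / n)) ≤ x :=
      (mul_le_of_le_one_left (by positivity) hρ1).trans (hx ▸ a1)
    have b4 : ρ * y ≤ y := mul_le_of_le_one_left hy0.le hρ1
    have b5 : ρ * x ≤ x := mul_le_of_le_one_left hx0.le hρ1
    have b6 : ρ * (η - 3 * y - 7 * x - 2 * d * (2 * Q / n) - 12 * x) =
        ρ * η - 3 * (ρ * y) - 19 * (ρ * x) - ρ * (2 * d * (2 * Q / n)) := by ring
    have b7 : ρ * (η / 4) = ρ * η / 4 := by ring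
    rw [b6, b7]
    linarith

end Crest.Agent.R34
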