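import Crest.Agent.R34.MainLemmaNice
import Crest.Agent.R34.MainLemmaNum

/-! The main lemma of row 34, from the incidence bound. -/

set_option autoImplicit false

namespace Crest.Agent.R34

open Finset

section
variable {F : Type} [Field F] [DecidableEq F]

theorem exists_good_config [Fintype F] (R : Finset (Pt F)) (𝓕 C : Finset (Line F))
    (hC : 0 < C.card) {T t₀ t₁ ν lam ρ c : ℝ} {D h : ℕ} (hD : 0 < D) (H : Fin h → Pt F)
    (hH1 : ∀ t, (H t).1 = 0 ∨ T < (mult C (H t) : ℝ))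
    (hH2 : ∀ p : Pt F, t₀ ≤ (mult C p : ℝ) → ∃ t, H t = p)
    (hρ : 0 ≤ ρ) (hT : 0 ≤ T) (ht₁ : 0 ≤ t₁) (h12 : ∀ p : Pt F, mult 𝓕 p ≤ 12)
    (hν : ν * (C.card : ℝ) ^ 2 ≤ ∑ a ∈ C, ∑ b ∈ C, ind (Nice 𝓕 C T t₁ a b))
    (hl : ∑ a ∈ C, ∑ b ∈ C, ind (LowR R C t₀ a b) ≤ lam * (C.card : ℝ) ^ 2)
    (hc : c < ρ * (ν - 2 * D * (T / C.card) - (D : ℝ) ^ 2 * (12 * (t₁ / C.card))) - lam) :
    ∃ a b : Fin D → Line F, (∀ i, a i ∈ C) ∧ (∀ j, b j ∈ C) ∧
      c * (D : ℝ) ^ 2 < ρ * ((goodSet 𝓕 a b H).card : ℝ) -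
        (((goodSet 𝓕 a b H).filter (fun x => x.2.2 ∈ R)).card : ℝ) := by
  classical
  have hn : (0 : ℝ) < C.card := by exact_mod_cast hC
  set P := Fintype.piFinset (fun _ : Fin D ⊕ Fin D => C) with hP
  have hN : (0 : ℝ) < P.card := by
    rw [hP, Fintype.card_piFinset]
    push_cast
    exact Finset.prod_pos fun _ _ => hn
  have div2 : ∀ {x y : ℝ}, (C.card : ℝ) ^ 2 * x ≤ P.card * (y * (C.card : ℝ) ^ 2) →
      x ≤ P.card * y := fun {x y} h => by
    have h2 : (0 : ℝ) < (C.card : ℝ) ^ 2 := by positivity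
    nlinarith
  have div1 : ∀ {x y : ℝ}, (C.card : ℝ) * x ≤ P.card * y → x ≤ P.card * (y / C.card) :=
    fun {x y} h => by
      rw [← mul_div_assoc, le_div_iff₀ hn]; linarith
  have E1 : ∀ i j : Fin D, P.card * ν ≤
      ∑ w ∈ P, ind (Nice 𝓕 C T t₁ (w (Sum.inl i)) (w (Sum.inr j))) := by
    intro i j
    have := div2 (y := -ν) (ml_avg_two C (Sum.inl i) (Sum.inr j)
      (fun w => -ind (Nice 𝓕 C T t₁ (w (Sum.inl i)) (w (Sum.inr j)))) _ fun w _ => by
        simp only [Function.update_self, ne_eq, reduceCtorEq, not_false_eq_true,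
          Function.update_of_ne, Finset.sum_neg_distrib]
        linarith)
    rw [Finset.sum_neg_distrib] at this
    linarith
  have E2 : ∀ i j : Fin D, ∑ w ∈ P, ind (LowR R C t₀ (w (Sum.inl i)) (w (Sum.inr j))) ≤
      P.card * lam := by
    intro i j
    exact div2 (ml_avg_two C (Sum.inl i) (Sum.inr j)
      (fun w => ind (LowR R C t₀ (w (Sum.inl i)) (w (Sum.inr j)))) _ fun w _ => by
        simpa only [Function.update_self, ne_eq, reduceCtorEq, not_false_eq_true,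
          Function.update_of_ne] using hl)
  have E3 : ∀ (i j : Fin D) (u : Fin D ⊕ Fin D), Sum.inl i ≠ u → Sum.inr j ≠ u →
      ∑ w ∈ P, ind (Bad1 𝓕 C T t₁ (w (Sum.inl i)) (w (Sum.inr j)) (w u)) ≤
        P.card * (T / C.card) := by
    intro i j u h1 h2
    exact div1 (ml_avg_one C u
      (fun w => ind (Bad1 𝓕 C T t₁ (w (Sum.inl i)) (w (Sum.inr j)) (w u))) _ fun w _ => by
        simpa only [Function.update_self, Function.update_of_ne h1, Function.update_of_ne h2]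
          using bad1_count 𝓕 C hT _ _)
  have E4 : ∀ (i j k l : Fin D), k ≠ i → l ≠ j →
      ∑ w ∈ P, ind (Bad2 𝓕 C T t₁ (w (Sum.inl i)) (w (Sum.inr j)) (w (Sum.inl k))
        (w (Sum.inr l))) ≤ P.card * (12 * (t₁ / C.card)) := by
    intro i j k l hk hl
    have g1 : (Sum.inl i : Fin D ⊕ Fin D) ≠ Sum.inl k := fun h => hk (Sum.inl_injective h).symm
    have g2 : (Sum.inr j : Fin D ⊕ Fin D) ≠ Sum.inr l := fun h => hl (Sum.inr_injective h).symm
    exact div2 (ml_avg_two C (Sum.inl k) (Sum.inr l)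
      (fun w => ind (Bad2 𝓕 C T t₁ (w (Sum.inl i)) (w (Sum.inr j)) (w (Sum.inl k))
        (w (Sum.inr l)))) _ fun w _ => by
        simp only [Function.update_self, ne_eq, reduceCtorEq, not_false_eq_true,
          Function.update_of_ne, Function.update_of_ne g1, Function.update_of_ne g2]
        refine (bad2_count 𝓕 C ht₁ h12 _ _).trans (le_of_eq ?_)
        field_simp)
  have hcard : ∀ i : Fin D, ((univ.erase i).card : ℝ) ≤ D := fun i => by
    have : (univ.erase i).card ≤ D := (Finset.card_le_univ _).trans (by simp)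
    exact_mod_cast this
  have E5 : ∀ i j : Fin D,
      P.card * (ν - 2 * D * (T / C.card) - (D : ℝ) ^ 2 * (12 * (t₁ / C.card))) ≤
      ∑ w ∈ P, ind (∃ p, GoodPair 𝓕 (fun i => w (Sum.inl i)) (fun j => w (Sum.inr j)) H i j p) := by
    intro i j
    refine le_trans ?_ (Finset.sum_le_sum fun w _ =>
      good_ge 𝓕 C (t₁ := t₁) (fun i => w (Sum.inl i)) (fun j => w (Sum.inr j)) H hH1 i j)
    rw [Finset.sum_sub_distrib, Finset.sum_sub_distrib, Finset.sum_sub_distrib]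
    have hx : 0 ≤ P.card * (T / C.card) := by positivity
    have hy : 0 ≤ P.card * (12 * (t₁ / C.card)) := by positivity
    have a1 : ∑ w ∈ P, ∑ l ∈ univ.erase j,
        ind (Bad1 𝓕 C T t₁ (w (Sum.inl i)) (w (Sum.inr j)) (w (Sum.inr l))) ≤
        D * (P.card * (T / C.card)) := by
      rw [Finset.sum_comm]
      refine (Finset.sum_le_sum fun l hl => E3 i j (Sum.inr l) (by simp)
        (fun h => (mem_erase.1 hl).1 (Sum.inr_injective h).symm)).trans ?_
      rw [Finset.sum_const, nsmul_eq_mul]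
      exact mul_le_mul_of_nonneg_right (hcard j) hx
    have a2 : ∑ w ∈ P, ∑ k ∈ univ.erase i,
        ind (Bad1 𝓕 C T t₁ (w (Sum.inl i)) (w (Sum.inr j)) (w (Sum.inl k))) ≤
        D * (P.card * (T / C.card)) := by
      rw [Finset.sum_comm]
      refine (Finset.sum_le_sum fun k hk => E3 i j (Sum.inl k)
        (fun h => (mem_erase.1 hk).1 (Sum.inl_injective h).symm) (by simp)).trans ?_
      rw [Finset.sum_const, nsmul_eq_mul]
      exact mul_le_mul_of_nonneg_right (hcard i) hx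
    have a3 : ∑ w ∈ P, ∑ k ∈ univ.erase i, ∑ l ∈ univ.erase j,
        ind (Bad2 𝓕 C T t₁ (w (Sum.inl i)) (w (Sum.inr j)) (w (Sum.inl k)) (w (Sum.inr l))) ≤
        D * (D * (P.card * (12 * (t₁ / C.card)))) := by
      rw [Finset.sum_comm]
      have : ∀ k ∈ univ.erase i, ∑ w ∈ P, ∑ l ∈ univ.erase j,
          ind (Bad2 𝓕 C T t₁ (w (Sum.inl i)) (w (Sum.inr j)) (w (Sum.inl k)) (w (Sum.inr l))) ≤
          D * (P.card * (12 * (t₁ / C.card))) := by
        intro k hk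
        rw [Finset.sum_comm]
        refine (Finset.sum_le_sum fun l hl =>
          E4 i j k l (mem_erase.1 hk).1 (mem_erase.1 hl).1).trans ?_
        rw [Finset.sum_const, nsmul_eq_mul]
        exact mul_le_mul_of_nonneg_right (hcard j) hy
      refine (Finset.sum_le_sum this).trans ?_
      rw [Finset.sum_const, nsmul_eq_mul]
      exact mul_le_mul_of_nonneg_right (hcard i) (by positivity)
    have a4 := E1 i j
    nlinarith
  by_contra hcon
  push Not at hcon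
  have hD0 : (0 : ℝ) < D := by exact_mod_cast hD
  have h1 : ∀ w ∈ P, ∑ i : Fin D, ∑ j : Fin D,
      (ρ * ind (∃ p, GoodPair 𝓕 (fun i => w (Sum.inl i)) (fun j => w (Sum.inr j)) H i j p) -
        ind (LowR R C t₀ (w (Sum.inl i)) (w (Sum.inr j)))) ≤ c * (D : ℝ) ^ 2 := by
    intro w hw
    have hw' := Fintype.mem_piFinset.1 hw
    have h2 := hcon (fun i => w (Sum.inl i)) (fun j => w (Sum.inr j)) (fun i => hw' _)
      (fun j => hw' _)
    have h3 := card_goodSet_ge 𝓕 (fun i => w (Sum.inl i)) (fun j => w (Sum.inr j)) H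
    have h4 := card_goodSet_filter_le R 𝓕 C (fun i => w (Sum.inl i)) (fun j => w (Sum.inr j)) H
      hH2
    simp only [Finset.sum_sub_distrib, ← Finset.mul_sum]
    nlinarith [mul_le_mul_of_nonneg_left h3 hρ]
  have h2 := Finset.sum_le_sum h1
  rw [Finset.sum_const, nsmul_eq_mul, Finset.sum_comm] at h2
  have h3 : ∀ i : Fin D, ∑ j : Fin D, P.card *
      (ρ * (ν - 2 * D * (T / C.card) - (D : ℝ) ^ 2 * (12 * (t₁ / C.card))) - lam) ≤
      ∑ w ∈ P, ∑ j : Fin D,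
      (ρ * ind (∃ p, GoodPair 𝓕 (fun i => w (Sum.inl i)) (fun j => w (Sum.inr j)) H i j p) -
        ind (LowR R C t₀ (w (Sum.inl i)) (w (Sum.inr j)))) := by
    intro i
    rw [Finset.sum_comm]
    refine Finset.sum_le_sum fun j _ => ?_
    rw [Finset.sum_sub_distrib, ← Finset.mul_sum]
    nlinarith [mul_le_mul_of_nonneg_left (E5 i j) hρ, E2 i j]
  have h4 := (Finset.sum_le_sum fun i (_ : i ∈ univ) => h3 i).trans h2
  simp only [Finset.sum_const, card_univ, Fintype.card_fin, nsmul_eq_mul] at h4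
  have h5 := mul_lt_mul_of_pos_left hc (by positivity : (0 : ℝ) < P.card * (D : ℝ) ^ 2)
  nlinarith

omit [Field F] [DecidableEq F] in
theorem exists_listing (S : Finset (Pt F)) {h : ℕ} (hS : S.card ≤ h) (z : Pt F) :
    ∃ H : Fin h → Pt F, (∀ t, H t = z ∨ H t ∈ S) ∧ ∀ p ∈ S, ∃ t, H t = p := by
  classical
  refine ⟨fun t => if ht : (t : ℕ) < S.card then (S.equivFin.symm ⟨t, ht⟩ : Pt F) else z,
    fun t => ?_, fun p hp => ⟨⟨S.equivFin ⟨p, hp⟩, lt_of_lt_of_le (S.equivFin ⟨p, hp⟩).2 hS⟩, ?_⟩⟩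
  · by_cases ht : (t : ℕ) < S.card
    · right; simp only [dif_pos ht]; exact (S.equivFin.symm ⟨t, ht⟩).2
    · left; simp only [dif_neg ht]
  · simp

end

theorem mainLemma_of_incidence (hinc : IncidenceStmt) : MainLemmaStmt := by
  intro η ρ₁ hη hρ₁
  by_cases hη1 : 1 ≤ η
  · refine ⟨1, 0, 0, one_pos, fun F _ _ _ _ D _ _ R 𝓕 Allowed lam _ _ _ _ _ _ C _ _ _ =>
      ⟨Sum.inr none, le_trans ?_ (Nat.cast_nonneg _)⟩⟩
    exact mul_nonpos_of_nonpos_of_nonneg (by linarith) (Nat.cast_nonneg _)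
  have hη1' : η ≤ 1 := (not_le.1 hη1).le
  set ρ := min ρ₁ 1 with hρ
  have hρ0 : 0 < ρ := lt_min hρ₁ one_pos
  have hρ1 : ρ ≤ 1 := min_le_right _ _
  set h : ℕ := ⌈20 / (ρ * η)⌉₊ with hh
  have hh1 : 20 ≤ ρ * η * h := by
    have : 20 / (ρ * η) ≤ (h : ℝ) := Nat.le_ceil _
    rw [div_le_iff₀ (mul_pos hρ0 hη)] at this
    linarith
  refine ⟨η / 4, h, 10 * h + 100, by positivity, fun F _ _ _ hsq D hD hDq R 𝓕 Allowed lam h12 hA0
    hlam hRl hR hcert C hCA hCq hcov => ?_⟩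
  classical
  by_contra hcon
  push Not at hcon
  set Q := Real.sqrt (Fintype.card F) with hQ
  have hq : (Fintype.card F : ℝ) = Q ^ 2 := (Real.sq_sqrt (Nat.cast_nonneg _)).symm
  have hQ0 : 0 ≤ Q := Real.sqrt_nonneg _
  clear hQ
  have hd : 10 * (h : ℝ) + 100 ≤ D := by exact_mod_cast hD
  have hD1 : (100 : ℝ) ≤ D := by linarith [(Nat.cast_nonneg h : (0 : ℝ) ≤ h)]
  have hDq' : (D : ℝ) ^ 10000000 ≤ Fintype.card F := by exact_mod_cast hDq
  have hDQ : (D : ℝ) ^ 10 ≤ Q := by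
    refine Real.le_sqrt_of_sq_le (le_trans ?_ hDq')
    rw [← pow_mul]
    exact pow_le_pow_right₀ (by clear hDq hDq'; linarith) (by norm_num)
  have hinc' := fun M => hinc F hsq ((D : ℝ) ^ 2) (by clear hDq hDq'; nlinarith) (by
    refine le_trans ?_ hDq'
    rw [← pow_mul]
    exact pow_le_pow_right₀ (by clear hDq hDq'; linarith) (by norm_num)) C M hCq
  clear hDq hDq'
  have hn1 : (C.card : ℝ) ≤ Q ^ 2 := by rw [← hq]; exact_mod_cast hCq
  have hQ1 : 0 < Q := lt_of_lt_of_le (by positivity) hDQ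
  rw [hq] at hlam hR
  have hsum : ∑ p ∈ R, (mult C p : ℝ) ≤ C.card * (lam + D * Q) := by
    have h1 : ∑ p ∈ R, (mult C p : ℝ) = ∑ l ∈ C, ((R.filter (fun p => On p l)).card : ℝ) := by
      simp only [mult, Finset.natCast_card_filter]
      exact Finset.sum_comm
    rw [h1, ← nsmul_eq_mul, ← Finset.sum_const]
    exact Finset.sum_le_sum fun l hl => hRl l (hCA l hl)
  have hRle : (R.card : ℝ) ≤ ∑ p ∈ R, (mult C p : ℝ) := by
    rw [Finset.card_eq_sum_ones]
    push_cast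
    refine Finset.sum_le_sum fun p hp => ?_
    obtain ⟨l, hl, hpl⟩ := hcov p hp
    have : 0 < mult C p := card_pos.2 ⟨l, mem_filter.2 ⟨hl, hpl⟩⟩
    exact_mod_cast this
  have hlam0 : 0 ≤ lam := le_trans (by positivity) hlam
  have hnDQ : (C.card : ℝ) * (D * Q) ≤ Q ^ 2 * (D * Q) :=
    mul_le_mul_of_nonneg_right hn1 (by positivity)
  have hn2 : Q ^ 2 - 384 * D * Q ≤ C.card := by
    have h1 : (Q ^ 2 - C.card) * lam ≤ 3 * D * Q ^ 2 * Q := by nlinarith
    have h2 : (Q ^ 2 - C.card) * (Q ^ 2 / 128) ≤ (Q ^ 2 - C.card) * lam :=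
      mul_le_mul_of_nonneg_left hlam (by linarith)
    have h3 : Q ^ 2 * (Q ^ 2 - C.card) ≤ Q ^ 2 * (384 * D * Q) := by nlinarith
    have := le_of_mul_le_mul_left h3 (by positivity)
    linarith
  have hE : ∑ p ∈ R, ((mult C p : ℝ) - 1) ≤ 3 * D * Q ^ 2 * Q := by
    rw [Finset.sum_sub_distrib, Finset.sum_const, nsmul_eq_mul, mul_one]
    nlinarith [mul_le_mul_of_nonneg_right hn1 hlam0]
  obtain ⟨hn0, k1, k2, k3, k4, k5, k6⟩ := ml_numerics hη hη1' hρ0 hρ1 hh1 hd hDQ hn2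
  have hh0 : (0 : ℝ) < h := by
    by_contra hc
    push Not at hc
    nlinarith [mul_pos hρ0 hη]
  have hT4 : 4 * (C.card : ℝ) ≤ (2 * Q) ^ 2 := by nlinarith
  have ht₀ : 0 < 2 / (h : ℝ) * C.card := mul_pos (div_pos two_pos hh0) hn0
  have ht₁ : 0 < (C.card : ℝ) / D ^ 3 := div_pos hn0 (by positivity)
  have hν := nice_count 𝓕 C (G := (1 - η) * Q ^ 2) (T := 2 * Q) (t₀ := 2 / h * C.card)
    (t₁ := C.card / D ^ 3) (mul_nonneg (by linarith) (sq_nonneg _)) (by positivity) ht₀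
    ht₁ hT4 k1 k2 h12 (fun h0 => hA0 (hCA _ h0)) (fun O => by
      rw [← hq]; exact (hcon O).le)
  have hl := lowR_count R C (T := 2 * Q) (t₀ := 2 / h * C.card) (u := Q / D ^ 2)
    (I := (Q ^ 2) ^ 2 / D ^ 2) (by positivity) ht₀.le (by positivity) hT4 hcov (fun M hM => by
      rw [← hq]
      refine hinc' M fun p hp => ⟨(hM p hp).1, (hM p hp).2.trans ?_⟩
      exact mul_le_mul_of_nonneg_right (by nlinarith) hQ0) hE
  have hHc : (univ.filter (fun p : Pt F => 2 / (h : ℝ) * C.card ≤ (mult C p : ℝ))).card ≤ h := by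
    have h1 := heavy_pts_card C ht₀ k1
    have h2 : 2 * (C.card : ℝ) / (2 / h * C.card) = h := by
      rw [div_eq_iff ht₀.ne', ← mul_assoc, mul_div_cancel₀ _ hh0.ne']
    rw [h2] at h1
    exact_mod_cast h1
  obtain ⟨H, hH1, hH2⟩ := exists_listing _ hHc ((0 : F), (0 : F))
  obtain ⟨a, b, ha, hb, hab⟩ := exists_good_config R 𝓕 C (by exact_mod_cast hn0)
    (T := 2 * Q) (t₀ := 2 / h * C.card) (t₁ := C.card / D ^ 3) (D := D) (by omega) H
    (fun t => by
      rcases hH1 t with h1 | h1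
      · left; rw [h1]
      · right; exact k3.trans_le (mem_filter.1 h1).2)
    (fun p hp => hH2 p (mem_filter.2 ⟨mem_univ _, hp⟩)) hρ0.le (by positivity) ht₁.le h12
    (k4.trans hν) (hl.trans k5) k6
  have g0 : (0 : ℝ) ≤ ((goodSet 𝓕 a b H).filter (fun x => x.2.2 ∈ R)).card := Nat.cast_nonneg _
  have g1 : η / 4 * (D : ℝ) ^ 2 ≤ (goodSet 𝓕 a b H).card := by
    have : ρ * (η / 4 * (D : ℝ) ^ 2) ≤ ρ * (goodSet 𝓕 a b H).card := by nlinarith
    exact le_of_mul_le_mul_left this hρ0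
  have g2 := hcert a b H (fun i => hCA _ (ha i)) (fun j => hCA _ (hb j)) g1
  have g3 : ρ * ((goodSet 𝓕 a b H).card : ℝ) ≤ ρ₁ * (goodSet 𝓕 a b H).card :=
    mul_le_mul_of_nonneg_right (min_le_left _ _) (Nat.cast_nonneg _)
  have g4 : 0 ≤ ρ * (η / 4) * (D : ℝ) ^ 2 := by positivity
  linarith

end Crest.Agent.R34
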