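import Mathlib
import Crest.Agent.R34.Cand
import Crest.Agent.R34.Expect

/-!
# Existence of good random types (union bound)
-/

set_option autoImplicit false
set_option linter.unusedSectionVars false

namespace Crest.Agent.R34

open Finset Real

/-- the numerical estimate behind the union bounds -/
lemma small_bound (c : ℝ) (hc : 0 < c) (h N : ℕ) : ∃ D₁ : ℕ, ∀ D : ℕ, D₁ ≤ D → ∀ q : ℕ, 1 ≤ q →
    q ≤ (D + 1) ^ N → (q : ℝ) ^ (6 * D + 2 * h + 3) * exp (-(c * (D : ℝ) ^ 2)) ≤ 1 / 10 := by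
  refine ⟨max (h + 3) ⌈((32 * N + 3) / c) ^ 2⌉₊, fun D hD q hq1 hq => ?_⟩
  have hD1 : h + 3 ≤ D := le_trans (le_max_left _ _) hD
  have hD2 : ((32 * N + 3) / c) ^ 2 ≤ (D : ℝ) := Nat.ceil_le.mp (le_trans (le_max_right _ _) hD)
  have hD3 : (32 * N + 3) / c ≤ √(D : ℝ) := Real.le_sqrt_of_sq_le hD2
  have hD4 : 32 * N + 3 ≤ c * √(D : ℝ) := by rwa [div_le_iff₀' hc] at hD3
  have hD5 : (3 : ℝ) ≤ D := by exact_mod_cast (by omega : 3 ≤ D)
  have hs : √(D : ℝ) * √(D : ℝ) = D := Real.mul_self_sqrt (Nat.cast_nonneg _)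
  have hs1 : 1 ≤ √(D : ℝ) := Real.le_sqrt_of_sq_le (by linarith)
  have hqpos : (0 : ℝ) < q := by exact_mod_cast hq1
  have hlog : Real.log (D + 1) ≤ 4 * √(D : ℝ) := by
    have h1 : (D + 1 : ℝ) ≤ (2 * √(D : ℝ)) ^ 2 := by nlinarith
    have h2 : Real.log (D + 1) ≤ Real.log ((2 * √(D : ℝ)) ^ 2) :=
      Real.log_le_log (by positivity) h1
    rw [Real.log_pow] at h2
    have h3 := Real.log_le_sub_one_of_pos (show 0 < 2 * √(D : ℝ) by positivity)
    push_cast at h2
    linarith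
  have hlq : Real.log q ≤ N * (4 * √(D : ℝ)) := by
    have h1 : (q : ℝ) ≤ ((D : ℝ) + 1) ^ N := by exact_mod_cast hq
    have h2 := Real.log_le_log hqpos h1
    rw [Real.log_pow] at h2
    exact h2.trans (mul_le_mul_of_nonneg_left hlog (Nat.cast_nonneg _))
  have hlq0 : 0 ≤ Real.log q := Real.log_nonneg (by exact_mod_cast hq1)
  have he : ((6 * D + 2 * h + 3 : ℕ) : ℝ) ≤ 8 * D := by
    exact_mod_cast (by omega : 6 * D + 2 * h + 3 ≤ 8 * D)
  have h1 : (q : ℝ) ^ (6 * D + 2 * h + 3) = exp (((6 * D + 2 * h + 3 : ℕ) : ℝ) * Real.log q) := by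
    rw [← Real.log_pow, Real.exp_log (by positivity)]
  rw [h1, ← Real.exp_add]
  have h2 : ((6 * D + 2 * h + 3 : ℕ) : ℝ) * Real.log q ≤ 8 * D * (N * (4 * √(D : ℝ))) :=
    mul_le_mul he hlq hlq0 (by positivity)
  have h3 : ((6 * D + 2 * h + 3 : ℕ) : ℝ) * Real.log q + -(c * (D : ℝ) ^ 2) ≤ -3 := by
    have h4 : c * (D : ℝ) ^ 2 = (c * √(D : ℝ)) * (D * √(D : ℝ)) := by
      calc c * (D : ℝ) ^ 2 = c * (D * (√(D : ℝ) * √(D : ℝ))) := by rw [hs]; ring
        _ = _ := by ring
    have h5 : (32 * N + 3) * (D * √(D : ℝ)) ≤ (c * √(D : ℝ)) * (D * √(D : ℝ)) :=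
      mul_le_mul_of_nonneg_right hD4 (by positivity)
    have h6 : 1 ≤ D * √(D : ℝ) := by nlinarith
    nlinarith
  refine (Real.exp_le_exp.mpr h3).trans ?_
  rw [Real.exp_neg, ← one_div]
  apply one_div_le_one_div_of_le (by norm_num)
  have := Real.add_one_le_exp (3 / 2 : ℝ)
  have h7 : exp 3 = exp 1 * exp 1 * exp 1 := by rw [← Real.exp_add, ← Real.exp_add]; norm_num
  have h8 := Real.exp_one_gt_d9
  rw [h7]
  nlinarith [mul_le_mul h8.le h8.le (by norm_num) (Real.exp_pos 1).le]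

variable {F : Type} [Field F] [Fintype F] [DecidableEq F]

/-- points of a line off the axis `x = 0` -/
def lineSet (l : Line F) : Finset (Pt F) := univ.filter (fun p => On p l ∧ p.1 ≠ 0)

lemma lineSet_card_ne_univ (l : Line F) (b : F) :
    ((lineSet l).filter (fun p => alw {l} p b ≠ univ)).card ≤ 6 := by
  have : (lineSet l).filter (fun p => alw {l} p b ≠ univ) ⊆
      univ.biUnion (fun j : Fin 6 => univ.filter (fun p : Pt F =>
        fam j b ≠ l ∧ On p l ∧ On p (fam j b))) := by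
    intro p hp
    rw [mem_filter] at hp
    obtain ⟨j, h1, h2⟩ := alw_ne_univ hp.2
    refine mem_biUnion.mpr ⟨j, mem_univ _, mem_filter.mpr ⟨mem_univ _, by simpa using h1, ?_, h2⟩⟩
    exact (mem_filter.mp hp.1).2.1
  refine (card_le_card this).trans (card_biUnion_le.trans ?_)
  refine (sum_le_sum (g := fun _ => 1) fun j _ => ?_).trans (by simp)
  refine card_le_one.mpr fun p hp p' hp' => ?_
  simp only [mem_filter, mem_univ, true_and] at hp hp'
  exact eq_of_on_on hp.1 hp.2.2 hp.2.1 hp'.2.2 hp'.2.1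

lemma avg_line (hF : CharBig F) (l : Line F) (hl : l ≠ (none, 0)) :
    tot l - 1 ≤ avg (fun τ => (cnt (lineSet l) (alw {l}) τ : ℝ)) ∧
      avg (fun τ => (cnt (lineSet l) (alw {l}) τ : ℝ)) ≤ tot l := by
  rw [avg_cnt]
  have h1 : ∑ p ∈ lineSet l, ∏ b, (((alw {l} p b).card : ℝ) / Fintype.card (Fin 4))
      = ∑ p ∈ lineSet l, wt l p := sum_congr rfl fun p _ => prod_alw hF _ _
  rw [h1]
  have h2 : tot l = ∑ p ∈ lineSet l, wt l p +
      ∑ p ∈ univ.filter (fun p : Pt F => On p l ∧ p.1 = 0), wt l p := by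
    unfold tot lineSet
    rw [← sum_filter_add_sum_filter_not (univ.filter (fun p : Pt F => On p l)) (fun p => p.1 ≠ 0),
      filter_filter, filter_filter]
    simp only [not_not]
  have h3 : (univ.filter (fun p : Pt F => On p l ∧ p.1 = 0)).card ≤ 1 := by
    refine card_le_one.mpr fun p hp p' hp' => ?_
    simp only [mem_filter, mem_univ, true_and] at hp hp'
    exact eq_of_on_on hl hp.1 hp.2 hp'.1 hp'.2
  have h4 : ∑ p ∈ univ.filter (fun p : Pt F => On p l ∧ p.1 = 0), wt l p ≤ 1 := by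
    refine (sum_le_sum fun p _ => wt_le_one l p).trans ?_
    simp only [sum_const, nsmul_eq_mul, mul_one]
    exact_mod_cast h3
  have h5 : 0 ≤ ∑ p ∈ univ.filter (fun p : Pt F => On p l ∧ p.1 = 0), wt l p :=
    sum_nonneg fun p _ => wt_nonneg l p
  constructor <;> linarith

lemma line_exp (D : ℕ) : ((D : ℝ) / 2 * √(Fintype.card F)) ^ 2 /
    (2 * (((6 : ℕ) : ℝ) ^ 2 * Fintype.card F)) = 1 / 288 * (D : ℝ) ^ 2 := by
  have hq : (0 : ℝ) < Fintype.card F := by exact_mod_cast Fintype.card_pos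
  rw [mul_pow, Real.sq_sqrt hq.le]
  push_cast
  field_simp
  ring

lemma line_tail_lower (hF : CharBig F) (l : Line F) (hl : l ≠ (none, 0)) (D : ℕ) :
    ((univ.filter (fun τ : F → Fin 4 => (cnt (lineSet l) (alw {l}) τ : ℝ)
      < tot l - 1 - (D : ℝ) / 2 * √(Fintype.card F))).card : ℝ) ≤
      (Fintype.card (F → Fin 4) : ℝ) * exp (-(1 / 288 * (D : ℝ) ^ 2)) := by
  have hq : (0 : ℝ) < Fintype.card F := by exact_mod_cast Fintype.card_pos
  have := cnt_lower (lineSet l) (alw {l}) _ ((D : ℝ) / 2 * √(Fintype.card F)) _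
    (sum_sq_le_of_le _ 6 (lineSet_card_ne_univ l)) (by positivity) (by positivity)
    (avg_line hF l hl).1
  rwa [line_exp] at this

lemma line_tail_upper (hF : CharBig F) (l : Line F) (hl : l ≠ (none, 0)) (D : ℕ) :
    ((univ.filter (fun τ : F → Fin 4 => tot l + (D : ℝ) / 2 * √(Fintype.card F)
      < (cnt (lineSet l) (alw {l}) τ : ℝ))).card : ℝ) ≤
      (Fintype.card (F → Fin 4) : ℝ) * exp (-(1 / 288 * (D : ℝ) ^ 2)) := by
  have hq : (0 : ℝ) < Fintype.card F := by exact_mod_cast Fintype.card_pos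
  have := cnt_upper (lineSet l) (alw {l}) _ ((D : ℝ) / 2 * √(Fintype.card F)) _
    (sum_sq_le_of_le _ 6 (lineSet_card_ne_univ l)) (by positivity) (by positivity)
    (avg_line hF l hl).2
  rwa [line_exp] at this

/-- the lines of a certificate -/
def certLines {D : ℕ} (a b : Fin D → Line F) : Finset (Line F) := univ.image a ∪ univ.image b

/-- the density constant of the certificate -/
noncomputable def rho1 : ℝ := (1 / 4) ^ 12 / 2

lemma rho1_pos : 0 < rho1 := by unfold rho1; positivity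

lemma goodSet_card_ne_univ {D h : ℕ} (a b : Fin D → Line F) (H : Fin h → Pt F) (b' : F) :
    ((goodSet (famSet F) a b H).filter
      (fun x => alw (certLines a b) x.2.2 b' ≠ univ)).card ≤ 6 := by
  classical
  have : (goodSet (famSet F) a b H).filter (fun x => alw (certLines a b) x.2.2 b' ≠ univ) ⊆
      univ.biUnion (fun j : Fin 6 => (goodSet (famSet F) a b H).filter (fun x =>
        fam j b' ∉ certLines a b ∧ On x.2.2 (fam j b'))) := by
    intro x hx
    rw [mem_filter] at hx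
    obtain ⟨j, h1, h2⟩ := alw_ne_univ hx.2
    exact mem_biUnion.mpr ⟨j, mem_univ _, mem_filter.mpr ⟨hx.1, h1, h2⟩⟩
  refine (card_le_card this).trans (card_biUnion_le.trans ?_)
  refine (sum_le_sum (g := fun _ => 1) fun j _ => ?_).trans (by simp)
  refine card_le_one.mpr fun x hx x' hx' => ?_
  simp only [goodSet, mem_filter, mem_univ, true_and] at hx hx'
  obtain ⟨⟨h1, h2, h3, _, _, h6⟩, h7, h8⟩ := hx
  obtain ⟨⟨h1', h2', h3', _, _, _⟩, _, h8'⟩ := hx'
  simp only [certLines, mem_union, mem_image, mem_univ, true_and, not_or, not_exists] at h7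
  obtain ⟨e1, e2⟩ := h6 _ (fam_mem j b') h8 h7.1 h7.2 _ _ _ h1' h2' h3' h8'
  obtain ⟨i, j', p⟩ := x
  obtain ⟨i', j'', p'⟩ := x'
  simp only at *
  subst e1 e2
  rw [eq_of_on_on h1 h2 h3 h2' h3']

lemma cert_tail (hF : CharBig F) {D h : ℕ} (hD : 0 < D) {c₀ : ℝ} (hc : 0 < c₀)
    (a b : Fin D → Line F) (H : Fin h → Pt F) :
    ((univ.filter (fun τ : F → Fin 4 =>
      c₀ * (D : ℝ) ^ 2 ≤ ((goodSet (famSet F) a b H).card : ℝ) ∧
      (cnt (goodSet (famSet F) a b H) (fun x => alw (certLines a b) x.2.2) τ : ℝ)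
        < rho1 * (goodSet (famSet F) a b H).card)).card : ℝ) ≤
      (Fintype.card (F → Fin 4) : ℝ) * exp (-(rho1 ^ 2 / 144 * c₀ * (D : ℝ) ^ 2)) := by
  by_cases hG : c₀ * (D : ℝ) ^ 2 ≤ ((goodSet (famSet F) a b H).card : ℝ)
  · set G := goodSet (famSet F) a b H
    have hD' : (0 : ℝ) < D := by exact_mod_cast hD
    have hG0 : (0 : ℝ) < G.card := lt_of_lt_of_le (by positivity) hG
    have hμ : 2 * rho1 * G.card ≤
        avg (fun τ => (cnt G (fun x => alw (certLines a b) x.2.2) τ : ℝ)) := by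
      rw [avg_cnt]
      calc 2 * rho1 * G.card = ∑ _x ∈ G, (1 / (Fintype.card (Fin 4) : ℝ)) ^ 12 := by
            unfold rho1; simp; ring
        _ ≤ _ := sum_le_sum fun x _ => prod_card_ge _ 12 (alw_nonempty hF _ _)
          (card_alw_ne_univ hF _ _)
    have := cnt_lower G (fun x => alw (certLines a b) x.2.2) _ (rho1 * G.card) _
      (sum_sq_le_of_double G _ 6 12 (goodSet_card_ne_univ a b H)
        (fun x _ => card_alw_ne_univ hF _ _)) (by positivity) (by have := rho1_pos; positivity) hμ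
    have e1 : 2 * rho1 * G.card - rho1 * G.card = rho1 * G.card := by ring
    have e2 : (rho1 * G.card) ^ 2 / (2 * (((6 : ℕ) : ℝ) * ((12 : ℕ) : ℝ) * G.card))
        = rho1 ^ 2 / 144 * G.card := by
      push_cast; field_simp; ring
    rw [e1, e2] at this
    simp only [hG, true_and]
    refine this.trans (mul_le_mul_of_nonneg_left (Real.exp_le_exp.mpr ?_) (Nat.cast_nonneg _))
    have : 0 ≤ rho1 ^ 2 / 144 := by positivity
    nlinarith
  · simp only [hG, false_and, filter_false, card_empty, Nat.cast_zero]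
    positivity

/-- the conclusion of the union bound -/
structure TauGood {J : Type} (l : J → Line F) (I : J → Finset F) (c : J → F → Cand F)
    (D h : ℕ) (c₀ : ℝ) (τ : F → Fin 4) : Prop where
  lower : ∀ m : Line F, m ≠ (none, 0) →
    tot m - 1 - (D : ℝ) / 2 * √(Fintype.card F) ≤ cnt (lineSet m) (alw {m}) τ
  upper : ∀ m : Line F, m ≠ (none, 0) →
    (cnt (lineSet m) (alw {m}) τ : ℝ) ≤ tot m + (D : ℝ) / 2 * √(Fintype.card F)
  cert : ∀ (a b : Fin D → Line F) (H : Fin h → Pt F),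
    c₀ * (D : ℝ) ^ 2 ≤ ((goodSet (famSet F) a b H).card : ℝ) →
    rho1 * (goodSet (famSet F) a b H).card ≤
      (cnt (goodSet (famSet F) a b H) (fun x => alw (certLines a b) x.2.2) τ : ℝ)
  gad : ∀ k, kap * Fintype.card F ≤ cnt (I k) (fun u => (c k u).calw (l k)) τ

theorem exists_tau (c₀ : ℝ) (hc : 0 < c₀) (h N : ℕ) : ∃ D₁ : ℕ,
    ∀ (F : Type) [Field F] [Fintype F] [DecidableEq F], CharBig F → ∀ D : ℕ, D₁ ≤ D →
      D ^ 2 ≤ Fintype.card F → Fintype.card F ≤ (D + 1) ^ N →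
      ∀ (l : Option (Fin 2 × F) → Line F) (I : Option (Fin 2 × F) → Finset F)
        (c : Option (Fin 2 × F) → F → Cand F), (∀ k, CandFam (l k) (I k) (c k)) →
        ∃ τ, TauGood l I c D h c₀ τ := by
  have hk := kap_pos
  have hr := rho1_pos
  set κ : ℝ := min (1 / 288) (min (rho1 ^ 2 / 144 * c₀) (kap ^ 2 / 5408)) with hκ
  have hκ0 : 0 < κ := by rw [hκ]; positivity
  obtain ⟨D₁, hD₁⟩ := small_bound κ hκ0 h N
  refine ⟨max D₁ 2, fun F _ _ _ hF D hD hq1 hq2 l I c hfam => ?_⟩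
  classical
  set q := Fintype.card F with hq
  have hD2 : 2 ≤ D := le_trans (le_max_right _ _) hD
  have hq4 : 4 ≤ q := le_trans (by nlinarith) hq1
  have hsm := hD₁ D (le_trans (le_max_left _ _) hD) q (by omega) hq2
  set M : ℝ := (Fintype.card (F → Fin 4) : ℝ) with hM
  have hM0 : 0 < M := by rw [hM]; exact_mod_cast Fintype.card_pos
  have fin : ∀ (n : ℕ) (k : ℝ), n ≤ q ^ (6 * D + 2 * h + 3) → κ * (D : ℝ) ^ 2 ≤ k →
      (n : ℝ) * (M * exp (-k)) ≤ M / 10 := by
    intro n k hn hk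
    have h1 : (n : ℝ) ≤ (q : ℝ) ^ (6 * D + 2 * h + 3) := by exact_mod_cast hn
    have h2 : exp (-k) ≤ exp (-(κ * (D : ℝ) ^ 2)) := Real.exp_le_exp.mpr (by linarith)
    have h3 : (n : ℝ) * exp (-k) ≤ 1 / 10 :=
      le_trans (mul_le_mul h1 h2 (Real.exp_pos _).le (by positivity)) hsm
    nlinarith
  have hL : Fintype.card (Line F) ≤ q ^ 3 := by
    simp only [Fintype.card_prod, Fintype.card_option, ← hq]
    have h1 : q + 1 ≤ q * q := by nlinarith
    calc (q + 1) * q ≤ (q * q) * q := Nat.mul_le_mul_right _ h1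
      _ = q ^ 3 := by ring
  have hpow : ∀ n, n ≤ 6 * D + 2 * h + 3 → q ^ n ≤ q ^ (6 * D + 2 * h + 3) :=
    fun n hn => Nat.pow_le_pow_right (by omega) hn
  have hD0 : (0 : ℝ) ≤ (D : ℝ) ^ 2 := by positivity
  have b1 := (card_filter_exists_le (fun (m : Line F) (τ : F → Fin 4) => m ≠ (none, 0) ∧
      (cnt (lineSet m) (alw {m}) τ : ℝ) < tot m - 1 - (D : ℝ) / 2 * √(Fintype.card F))
      (M * exp (-(1 / 288 * (D : ℝ) ^ 2))) (fun m => by
        by_cases hm : m = (none, 0)
        · simp only [hm, ne_eq, not_true, false_and, filter_false, card_empty, Nat.cast_zero]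
          positivity
        · simp only [ne_eq, hm, not_false_iff, true_and]
          exact line_tail_lower hF m hm D)).trans
      (fin _ _ (hL.trans (hpow 3 (by omega)))
        (mul_le_mul_of_nonneg_right (min_le_left _ _) hD0))
  have b2 := (card_filter_exists_le (fun (m : Line F) (τ : F → Fin 4) => m ≠ (none, 0) ∧
      tot m + (D : ℝ) / 2 * √(Fintype.card F) < (cnt (lineSet m) (alw {m}) τ : ℝ))
      (M * exp (-(1 / 288 * (D : ℝ) ^ 2))) (fun m => by
        by_cases hm : m = (none, 0)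
        · simp only [hm, ne_eq, not_true, false_and, filter_false, card_empty, Nat.cast_zero]
          positivity
        · simp only [ne_eq, hm, not_false_iff, true_and]
          exact line_tail_upper hF m hm D)).trans
      (fin _ _ (hL.trans (hpow 3 (by omega)))
        (mul_le_mul_of_nonneg_right (min_le_left _ _) hD0))
  have b3 := (card_filter_exists_le
      (fun (x : (Fin D → Line F) × (Fin D → Line F) × (Fin h → Pt F)) (τ : F → Fin 4) =>
      c₀ * (D : ℝ) ^ 2 ≤ ((goodSet (famSet F) x.1 x.2.1 x.2.2).card : ℝ) ∧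
      (cnt (goodSet (famSet F) x.1 x.2.1 x.2.2) (fun y => alw (certLines x.1 x.2.1) y.2.2) τ : ℝ)
        < rho1 * (goodSet (famSet F) x.1 x.2.1 x.2.2).card)
      (M * exp (-(rho1 ^ 2 / 144 * c₀ * (D : ℝ) ^ 2))) (fun x =>
        cert_tail hF (by omega) hc x.1 x.2.1 x.2.2)).trans
      (fin _ _ (by
        rw [Fintype.card_prod, Fintype.card_prod, Fintype.card_fun, Fintype.card_fun,
          Fintype.card_fin, Fintype.card_fin]
        have h1 : Fintype.card (Line F) ^ D ≤ (q ^ 3) ^ D := Nat.pow_le_pow_left hL _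
        have h2 : Fintype.card (Pt F) ^ h = q ^ (2 * h) := by
          rw [Fintype.card_prod, ← hq, pow_mul, sq]
        rw [h2]
        calc _ ≤ (q ^ 3) ^ D * ((q ^ 3) ^ D * q ^ (2 * h)) :=
              Nat.mul_le_mul h1 (Nat.mul_le_mul_right _ h1)
          _ = q ^ (6 * D + 2 * h) := by ring
          _ ≤ _ := hpow _ (by omega))
        (mul_le_mul_of_nonneg_right ((min_le_right _ _).trans (min_le_left _ _)) hD0))
  have b4 := (card_filter_exists_le (fun (k : Option (Fin 2 × F)) (τ : F → Fin 4) =>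
      (cnt (I k) (fun u => (c k u).calw (l k)) τ : ℝ) < kap * Fintype.card F)
      (M * exp (-(kap ^ 2 / 5408 * Fintype.card F))) (fun k => (hfam k).tail hF)).trans
      (fin _ _ (by
        refine le_trans ?_ (hpow 3 (by omega))
        simp only [Fintype.card_prod, Fintype.card_option, Fintype.card_fin, ← hq]
        have h1 : 4 ≤ q * q := by nlinarith
        calc 2 * q + 1 ≤ 4 * q := by omega
          _ ≤ (q * q) * q := Nat.mul_le_mul_right _ h1
          _ = q ^ 3 := by ring)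
        (by
          have h1 : (D : ℝ) ^ 2 ≤ q := by exact_mod_cast hq1
          exact mul_le_mul ((min_le_right _ _).trans (min_le_right _ _)) h1 hD0 (by positivity)))
  by_contra hne
  push Not at hne
  have hsub : ∀ (A B C E : Finset (F → Fin 4)), (A.card : ℝ) ≤ M / 10 → (B.card : ℝ) ≤ M / 10 →
      (C.card : ℝ) ≤ M / 10 → (E.card : ℝ) ≤ M / 10 →
      (∀ τ, τ ∈ A ∨ τ ∈ B ∨ τ ∈ C ∨ τ ∈ E) → False := by
    intro A B C E hA hB hC hE hall
    have h1 : (univ : Finset (F → Fin 4)) ⊆ A ∪ (B ∪ (C ∪ E)) := by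
      intro τ _; simpa using hall τ
    have h2 := (card_le_card h1).trans ((card_union_le _ _).trans (Nat.add_le_add_left
      ((card_union_le _ _).trans (Nat.add_le_add_left (card_union_le _ _) _)) _))
    rw [card_univ] at h2
    have h3 : M ≤ A.card + (B.card + (C.card + E.card)) := by rw [hM]; exact_mod_cast h2
    linarith
  refine hsub _ _ _ _ b1 b2 b3 b4 fun τ => ?_
  simp only [mem_filter, mem_univ, true_and]
  by_contra hcon
  push Not at hcon
  exact hne τ ⟨hcon.1, hcon.2.1, fun a b H => hcon.2.2.1 (a, b, H), hcon.2.2.2⟩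

end Crest.Agent.R34
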