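import Mathlib
import Crest.Agent.R34.Defs
import Crest.Agent.R34.SumProdBSG
import Crest.Agent.R34.SumProdSmall

/-!
# Row 34: the sum-product step
-/

set_option autoImplicit false

namespace Crest.Agent.R34

open Finset
open scoped Pointwise

/-- Among many large subsets of a set, one meets many others in a large set. -/
lemma sp_common {ι α : Type*} [DecidableEq α] (I : Finset ι) (U : Finset α) (S : ι → Finset α)
    {s n : ℝ} (hs : 0 < s) (hn : 0 < n) (hI : I.Nonempty) (hU : (U.card : ℝ) ≤ n)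
    (hSU : ∀ i ∈ I, S i ⊆ U) (hS : ∀ i ∈ I, s ≤ ((S i).card : ℝ)) :
    ∃ j ∈ I, ∃ J ⊆ I, (I.card : ℝ) * s ^ 2 / (2 * n ^ 2) ≤ J.card ∧
      ∀ i ∈ J, s ^ 2 / (2 * n) ≤ ((S i ∩ S j).card : ℝ) := by
  classical
  have hIc : (0 : ℝ) < I.card := by exact_mod_cast hI.card_pos
  obtain ⟨r, hr⟩ : ∃ r : α → ℝ, ∀ x, r x = ∑ i ∈ I, if x ∈ S i then (1 : ℝ) else 0 :=
    ⟨_, fun _ => rfl⟩
  have hcard : ∀ T : Finset α, T ⊆ U → (T.card : ℝ) = ∑ x ∈ U, if x ∈ T then (1 : ℝ) else 0 := by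
    intro T hT
    rw [sum_ite_mem, inter_eq_right.mpr hT]
    simp
  have h1 : (I.card : ℝ) * s ≤ ∑ x ∈ U, r x := by
    simp only [hr]
    rw [sum_comm]
    have := card_nsmul_le_sum I (fun i => ∑ x ∈ U, if x ∈ S i then (1 : ℝ) else 0) s
      (fun i hi => by rw [← hcard _ (hSU i hi)]; exact hS i hi)
    rwa [nsmul_eq_mul] at this
  have h2 : ∑ x ∈ U, r x ^ 2 = ∑ j ∈ I, ∑ i ∈ I, ((S i ∩ S j).card : ℝ) := by
    have : ∀ x, r x ^ 2 = ∑ j ∈ I, ∑ i ∈ I, if x ∈ S i ∩ S j then (1 : ℝ) else 0 := by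
      intro x
      rw [sq, hr, sum_mul_sum]
      refine sum_congr rfl fun j _ => sum_congr rfl fun i _ => ?_
      by_cases a : x ∈ S i <;> by_cases b : x ∈ S j <;> simp [a, b]
    simp only [this]
    rw [sum_comm]
    refine sum_congr rfl fun j _ => ?_
    rw [sum_comm]
    refine sum_congr rfl fun i hi => ?_
    rw [hcard _ (inter_subset_left.trans (hSU i hi))]
  have h3 : (∑ x ∈ U, r x) ^ 2 ≤ U.card * ∑ x ∈ U, r x ^ 2 := sq_sum_le_card_mul_sum_sq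
  have h4 : ((I.card : ℝ) * s) ^ 2 ≤ n * ∑ j ∈ I, ∑ i ∈ I, ((S i ∩ S j).card : ℝ) := by
    rw [← h2]
    refine (pow_le_pow_left₀ (by positivity) h1 2).trans (h3.trans ?_)
    exact mul_le_mul_of_nonneg_right hU (sum_nonneg fun x _ => sq_nonneg _)
  have h5 : (I.card : ℝ) * (I.card * s ^ 2 / n) ≤ ∑ j ∈ I, ∑ i ∈ I, ((S i ∩ S j).card : ℝ) := by
    rw [← mul_div_assoc, div_le_iff₀ hn]
    nlinarith
  obtain ⟨j, hj, hj'⟩ := sp_exists_ge I (fun j => ∑ i ∈ I, ((S i ∩ S j).card : ℝ))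
    (c := I.card * s ^ 2 / n) (n := I.card) (by positivity) hIc le_rfl h5
  refine ⟨j, hj, I.filter (fun i => s ^ 2 / (2 * n) ≤ ((S i ∩ S j).card : ℝ)), filter_subset _ _,
    ?_, fun i hi => (mem_filter.mp hi).2⟩
  have h6 := sp_popular I (fun i => ((S i ∩ S j).card : ℝ)) (τ := s ^ 2 / (2 * n)) (n := I.card)
    (M := n) (by positivity) le_rfl (fun i hi => le_trans
      (by exact_mod_cast card_le_card (inter_subset_left.trans (hSU i hi))) hU)
  have h7 := hj'.trans h6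
  rw [div_le_iff₀ (by positivity)]
  have e : (I.card : ℝ) * s ^ 2 / n = 2 * (I.card * (s ^ 2 / (2 * n))) := by field_simp
  have e2 : (I.card : ℝ) * s ^ 2 = (I.card * (s ^ 2 / (2 * n))) * (2 * n) := by field_simp
  rw [e] at h7
  rw [e2]
  nlinarith

/-- Three Ruzsa triangle inequalities. -/
lemma sp_ruzsa {F : Type*} [Field F] [DecidableEq F] (A0 B0 A1 B1 : Finset F) {ξ0 ξ : F}
    (h0 : ξ0 ≠ 0) (h1 : ξ ≠ 0) {L N : ℝ} (hL : 0 < L) (hN : 0 < N)
    (s0 : ((A0 + ξ0 • B0).card : ℝ) ≤ L * N) (s1 : ((A1 + ξ • B1).card : ℝ) ≤ L * N)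
    (hA : N / L ≤ ((A1 ∩ A0).card : ℝ)) (hB : N / L ≤ ((B1 ∩ B0).card : ℝ)) :
    SpSmall B0 (L ^ 8) (ξ / ξ0) 1 := by
  have hNL : 0 < N / L := by positivity
  have cast : ∀ {X Y : Finset F}, X ⊆ Y → (X.card : ℝ) ≤ Y.card := fun h => by
    exact_mod_cast card_le_card h
  have key : ∀ {u v w : ℝ}, N / L ≤ v → 0 ≤ u → u * v ≤ w * N → u ≤ L * w := by
    intro u v w hv hu h
    have h2 : u * (N / L) ≤ w * N := (mul_le_mul_of_nonneg_left hv hu).trans h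
    rw [← mul_div_assoc, div_le_iff₀ hL] at h2
    nlinarith
  have t1 : ((ξ0 • B0 - ξ • (B1 ∩ B0)).card : ℝ) ≤ L * (L ^ 2 * N) := by
    have h := ruzsa_triangle_inequality_sub_add_add (ξ0 • B0) (A1 ∩ A0) (ξ • (B1 ∩ B0))
    have h' : ((ξ0 • B0 - ξ • (B1 ∩ B0)).card : ℝ) * (A1 ∩ A0).card ≤
        (ξ0 • B0 + A1 ∩ A0).card * (ξ • (B1 ∩ B0) + A1 ∩ A0).card := by exact_mod_cast h
    have a1 : ((ξ0 • B0 + A1 ∩ A0).card : ℝ) ≤ L * N := by
      refine le_trans (cast ?_) s0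
      rw [add_comm]
      exact add_subset_add_right inter_subset_right
    have a2 : ((ξ • (B1 ∩ B0) + A1 ∩ A0).card : ℝ) ≤ L * N := by
      refine le_trans (cast ?_) s1
      rw [add_comm]
      exact add_subset_add inter_subset_left (smul_finset_subset_smul_finset inter_subset_left)
    refine key hA (Nat.cast_nonneg _) (h'.trans ?_)
    calc _ ≤ (L * N) * (L * N) := mul_le_mul a1 a2 (Nat.cast_nonneg _) (by positivity)
      _ = _ := by ring
  have t2 : ((B0 - B0).card : ℝ) ≤ L * (L ^ 2 * N) := by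
    have h := ruzsa_triangle_inequality_sub_add_add (ξ0 • B0) A0 (ξ0 • B0)
    rw [← sp_smul_sub, sp_card_smul h0, add_comm] at h
    have h' : ((B0 - B0).card : ℝ) * A0.card ≤ (A0 + ξ0 • B0).card * (A0 + ξ0 • B0).card := by
      exact_mod_cast h
    refine key (hA.trans (cast inter_subset_right)) (Nat.cast_nonneg _) (h'.trans ?_)
    calc _ ≤ (L * N) * (L * N) := mul_le_mul s0 s0 (Nat.cast_nonneg _) (by positivity)
      _ = _ := by ring
  have t3 : ((ξ0 • B0 - ξ • B0).card : ℝ) ≤ L * (L ^ 6 * N) := by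
    have h := ruzsa_triangle_inequality_sub_sub_sub (ξ0 • B0) (ξ • (B1 ∩ B0)) (ξ • B0)
    rw [← sp_smul_sub ξ B0, sp_card_smul h1, sp_card_smul h1] at h
    have h' : ((ξ0 • B0 - ξ • B0).card : ℝ) * (B1 ∩ B0).card ≤
        (ξ0 • B0 - ξ • (B1 ∩ B0)).card * (B0 - B1 ∩ B0).card := by exact_mod_cast h
    have a2 : ((B0 - B1 ∩ B0).card : ℝ) ≤ L * (L ^ 2 * N) :=
      le_trans (cast (sub_subset_sub_left inter_subset_right)) t2
    refine key hB (Nat.cast_nonneg _) (h'.trans ?_)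
    calc _ ≤ (L * (L ^ 2 * N)) * (L * (L ^ 2 * N)) :=
          mul_le_mul t1 a2 (Nat.cast_nonneg _) (by positivity)
      _ = _ := by ring
  unfold SpSmall
  rw [← sp_card_smul h0 (B0 - (ξ / ξ0) • B0), sp_smul_sub, ← mul_smul, mul_div_cancel₀ _ h0]
  have hB0 : N ≤ L * B0.card := by
    have := hB.trans (cast inter_subset_right)
    rwa [div_le_iff₀' hL] at this
  calc _ ≤ L * (L ^ 6 * N) := t3
    _ = L ^ 7 * N := by ring
    _ ≤ L ^ 7 * (L * B0.card) := mul_le_mul_of_nonneg_left hB0 (by positivity)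
    _ = _ := by ring

lemma sp_final {F : Type*} [Field F] [DecidableEq F] (X Λ : Finset F) {Q N L : ℝ} (hQ0 : 0 < Q)
    (hN : 0 < N) (hL : 0 < L) (hXlow : N / L ≤ (X.card : ℝ)) (hXup : (X.card : ℝ) ≤ N)
    (hΛ : ∀ t ∈ Λ, ((X - t • X).card : ℝ) ≤ Q * X.card) :
    (Λ.card : ℝ) ≤ 2 * Q * N ∨ N ≤ 2 * Q * L := by
  have hXpos : (0 : ℝ) < X.card := lt_of_lt_of_le (by positivity) hXlow
  rcases Λ.eq_empty_or_nonempty with rfl | hne
  · left
    simp only [card_empty, Nat.cast_zero]; positivity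
  have hΛpos : (0 : ℝ) < Λ.card := by exact_mod_cast hne.card_pos
  have h := sp_energy X Λ hne (M := Q * X.card) hΛ
  have h' : (Λ.card : ℝ) * X.card ≤ Q * (Λ.card + (X.card : ℝ) ^ 2) := by
    refine le_of_mul_le_mul_right ?_ (pow_pos hXpos 3)
    calc _ = (Λ.card : ℝ) * (X.card : ℝ) ^ 4 := by ring
      _ ≤ _ := h
      _ = _ := by ring
  by_cases hc : (Λ.card : ℝ) ≤ (X.card : ℝ) ^ 2
  · left
    have b1 : (Λ.card : ℝ) * X.card ≤ 2 * Q * X.card * X.card := by nlinarith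
    have b2 := le_of_mul_le_mul_right b1 hXpos
    exact b2.trans (mul_le_mul_of_nonneg_left hXup (by positivity))
  · right
    push Not at hc
    have b1 : (Λ.card : ℝ) * X.card ≤ Λ.card * (2 * Q) := by nlinarith
    have b2 := le_of_mul_le_mul_left b1 hΛpos
    have b3 := hXlow.trans b2
    rwa [div_le_iff₀ hL] at b3

lemma sp_numeric {K : ℝ} (hK : 10000 ≤ K) :
    2 * ((K ^ 6) ^ 8) ^ 36 * K ^ 10 ≤ K ^ 3000 := by
  have hK1 : 1 ≤ K := by linarith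
  have e : K * ((K ^ 6) ^ 8) ^ 36 * K ^ 10 = K ^ 1739 := by
    rw [← pow_mul, ← pow_mul, ← pow_succ', ← pow_add]
  calc 2 * ((K ^ 6) ^ 8) ^ 36 * K ^ 10 ≤ K * ((K ^ 6) ^ 8) ^ 36 * K ^ 10 := by
        gcongr; linarith
    _ = K ^ 1739 := e
    _ ≤ K ^ 3000 := pow_le_pow_right₀ hK1 (by norm_num)

theorem sumProd : SumProdStmt := by
  intro F _ _ _ hq A B Ξ N K G hK hA hB h0 hG hGc hS hΞ
  classical
  have h2Q := sp_numeric hK
  have hT : 0 < K ^ 3000 := pow_pos (by linarith) _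
  generalize K ^ 3000 = T at h2Q hT ⊢
  obtain ⟨P, hP⟩ : ∃ P : ℝ, P = (K ^ 6) ^ 8 := ⟨_, rfl⟩
  obtain ⟨Q, hQ⟩ : ∃ Q : ℝ, Q = P ^ 36 := ⟨_, rfl⟩
  rw [← hP, ← hQ] at h2Q
  by_cases hN1 : N ≤ T
  · exact Or.inl hN1
  right
  push Not at hN1
  have hK0 : 0 < K := by linarith
  have hK1 : 1 ≤ K := by linarith
  have hN : 0 < N := lt_trans hT hN1
  have hq0 : (0 : ℝ) < Fintype.card F := by exact_mod_cast Fintype.card_pos
  have hΞne : Ξ.Nonempty := by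
    rw [nonempty_iff_ne_empty]
    rintro rfl
    have : (0 : ℝ) < Fintype.card F * K ^ 30 := by positivity
    simp only [card_empty, Nat.cast_zero] at hΞ
    linarith
  have hξ0 : ∀ ξ ∈ Ξ, ξ ≠ 0 := fun ξ h e => h0 (e ▸ h)
  have hch : ∀ ξ : F, ∃ p : Finset F × Finset F, ξ ∈ Ξ → p.1 ⊆ A ∧ p.2 ⊆ B ∧
      N / (6 * K) ≤ (p.1.card : ℝ) ∧ N / (4 * K) ≤ (p.2.card : ℝ) ∧
      ((p.1 + ξ • p.2).card : ℝ) ≤ K ^ 6 * N := by
    intro ξ
    by_cases h : ξ ∈ Ξ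
    · obtain ⟨A', hA', B', hB', h1, h2, h3⟩ :=
        sp_bsg A B (G ξ) (hξ0 ξ h) hN hK0 hA hB (hG ξ h) (hGc ξ h) (hS ξ h)
      refine ⟨(A', B'), fun _ => ⟨hA', hB', h1, h2, h3.trans ?_⟩⟩
      refine mul_le_mul_of_nonneg_right ?_ hN.le
      rw [pow_succ' K 5]
      exact mul_le_mul_of_nonneg_right (by linarith) (by positivity)
    · exact ⟨(∅, ∅), fun h' => absurd h' h⟩
  choose p hp using hch
  obtain ⟨ξ0, hξ0m, J, hJ, hJc, hJi⟩ := sp_common Ξ (A ×ˢ B) (fun ξ => (p ξ).1 ×ˢ (p ξ).2)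
    (s := N ^ 2 / (24 * K ^ 2)) (n := N ^ 2) (by positivity) (by positivity) hΞne
    (by
      rw [card_product, Nat.cast_mul, sq]
      exact mul_le_mul hA hB (Nat.cast_nonneg _) hN.le)
    (fun ξ h => product_subset_product (hp ξ h).1 (hp ξ h).2.1)
    (fun ξ h => by
      rw [card_product, Nat.cast_mul]
      calc N ^ 2 / (24 * K ^ 2) = N / (6 * K) * (N / (4 * K)) := by field_simp; ring
        _ ≤ _ := mul_le_mul (hp ξ h).2.2.1 (hp ξ h).2.2.2.1 (by positivity) (Nat.cast_nonneg _))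
  have hK45 : 1152 * K ^ 4 ≤ K ^ 5 := by
    rw [pow_succ' K 4]
    exact mul_le_mul_of_nonneg_right (by linarith) (by positivity)
  have hK56 : K ^ 5 ≤ K ^ 6 := pow_le_pow_right₀ hK1 (by norm_num)
  have hJc' : (Ξ.card : ℝ) ≤ K ^ 5 * J.card := by
    have e : (Ξ.card : ℝ) * (N ^ 2 / (24 * K ^ 2)) ^ 2 / (2 * (N ^ 2) ^ 2) =
        Ξ.card / (1152 * K ^ 4) := by field_simp; ring
    rw [e, div_le_iff₀' (by positivity)] at hJc
    exact hJc.trans (mul_le_mul_of_nonneg_right hK45 (Nat.cast_nonneg _))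
  have cast : ∀ {X Y : Finset F}, X ⊆ Y → (X.card : ℝ) ≤ Y.card := fun h => by
    exact_mod_cast card_le_card h
  have hint : ∀ ξ ∈ J, N / K ^ 6 ≤ (((p ξ).1 ∩ (p ξ0).1).card : ℝ) ∧
      N / K ^ 6 ≤ (((p ξ).2 ∩ (p ξ0).2).card : ℝ) := by
    intro ξ h
    have h1 := hJi ξ h
    have e : (N ^ 2 / (24 * K ^ 2)) ^ 2 / (2 * N ^ 2) = N / (1152 * K ^ 4) * N := by
      field_simp; ring
    simp only [e] at h1
    rw [product_inter_product, card_product, Nat.cast_mul] at h1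
    have a1 : (((p ξ).1 ∩ (p ξ0).1).card : ℝ) ≤ N :=
      (cast (inter_subset_right.trans (hp ξ0 hξ0m).1)).trans hA
    have a2 : (((p ξ).2 ∩ (p ξ0).2).card : ℝ) ≤ N :=
      (cast (inter_subset_right.trans (hp ξ0 hξ0m).2.1)).trans hB
    have a3 : N / K ^ 6 ≤ N / (1152 * K ^ 4) :=
      div_le_div_of_nonneg_left hN.le (by positivity) (hK45.trans hK56)
    constructor
    · refine a3.trans (le_of_mul_le_mul_right (h1.trans ?_) hN)
      exact mul_le_mul_of_nonneg_left a2 (Nat.cast_nonneg _)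
    · refine a3.trans (le_of_mul_le_mul_right (h1.trans ?_) hN)
      rw [mul_comm]
      exact mul_le_mul_of_nonneg_left a1 (Nat.cast_nonneg _)
  obtain ⟨X, hX⟩ : ∃ X, X = (p ξ0).2 := ⟨_, rfl⟩
  have hP1 : 1 ≤ P := by rw [hP]; exact one_le_pow₀ (one_le_pow₀ hK1)
  have hKK : 6 * K ≤ K ^ 6 := by
    refine le_trans ?_ (pow_le_pow_right₀ hK1 (show 2 ≤ 6 by norm_num))
    rw [sq]
    exact mul_le_mul_of_nonneg_right (by linarith) hK0.le
  have hXlow : N / K ^ 6 ≤ (X.card : ℝ) := by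
    rw [hX]
    refine le_trans ?_ (hp ξ0 hξ0m).2.2.2.1
    refine div_le_div_of_nonneg_left hN.le (by positivity) ?_
    exact le_trans (by linarith) hKK
  have hX0low : N / K ^ 6 ≤ ((p ξ0).1.card : ℝ) := by
    refine le_trans ?_ (hp ξ0 hξ0m).2.2.1
    refine div_le_div_of_nonneg_left hN.le (by positivity) ?_
    exact le_trans (by linarith) hKK
  have hXup : (X.card : ℝ) ≤ N := by rw [hX]; exact (cast (hp ξ0 hξ0m).2.1).trans hB
  have hXpos : (0 : ℝ) < X.card := lt_of_lt_of_le (by positivity) hXlow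
  have hXne : X.Nonempty := card_pos.mp (by exact_mod_cast hXpos)
  have hone : SpSmall X P 1 1 := by
    have := sp_ruzsa (p ξ0).1 (p ξ0).2 (p ξ0).1 (p ξ0).2 (hξ0 ξ0 hξ0m) (hξ0 ξ0 hξ0m)
      (L := K ^ 6) (by positivity) hN (hp ξ0 hξ0m).2.2.2.2 (hp ξ0 hξ0m).2.2.2.2
      (by rw [inter_self]; exact hX0low) (by rw [inter_self, ← hX]; exact hXlow)
    rwa [div_self (hξ0 ξ0 hξ0m), ← hX, ← hP] at this
  obtain ⟨Y, hY⟩ : ∃ Y, Y = J.image (fun ξ => ξ / ξ0) := ⟨_, rfl⟩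
  have hYc : Y.card = J.card := by
    rw [hY]
    exact card_image_of_injective _ fun a b h => (div_left_inj' (hξ0 ξ0 hξ0m)).mp h
  have hYs : ∀ y ∈ Y, SpSmall X P y 1 := by
    intro y hy
    rw [hY] at hy
    obtain ⟨ξ, hξ, rfl⟩ := mem_image.mp hy
    have := sp_ruzsa (p ξ0).1 (p ξ0).2 (p ξ).1 (p ξ).2 (hξ0 ξ0 hξ0m) (hξ0 ξ (hJ hξ))
      (L := K ^ 6) (by positivity) hN (hp ξ0 hξ0m).2.2.2.2 (hp ξ (hJ hξ)).2.2.2.2
      (hint ξ hξ).1 (hint ξ hξ).2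
    rwa [← hX, ← hP] at this
  have hYq : Fintype.card F < Y.card ^ 3 := by
    have a1 : (Ξ.card : ℝ) ^ 3 ≤ (K ^ 5 * J.card) ^ 3 :=
      pow_le_pow_left₀ (Nat.cast_nonneg _) hJc' 3
    have a2 : (Fintype.card F : ℝ) * K ^ 15 * K ^ 15 ≤ (J.card : ℝ) ^ 3 * K ^ 15 := by
      calc _ = (Fintype.card F : ℝ) * K ^ 30 := by ring
        _ ≤ _ := hΞ.trans a1
        _ = _ := by ring
    have a3 := le_of_mul_le_mul_right a2 (by positivity)
    have a4 : 1 < K ^ 15 := one_lt_pow₀ (by linarith) (by norm_num)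
    have a5 : (Fintype.card F : ℝ) < (J.card : ℝ) ^ 3 :=
      lt_of_lt_of_le (lt_mul_of_one_lt_right hq0 a4) a3
    rw [hYc]
    exact_mod_cast a5
  have hgr := sp_growth hq (SpSmall X P) (fun t i j h hij => SpSmall.mono hP1 h hij)
    (fun t s i j ht hs => SpSmall.mul hXne hP1 ht hs) (fun t i ht => SpSmall.inv ht)
    (fun t i ht => SpSmall.neg hXne hP1 hone ht)
    (fun t s i j ht hs => SpSmall.add hXne hP1 hone ht hs) Y hYs hYq
  obtain ⟨Λ, hΛ, hΛc⟩ := hgr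
  have hQ0 : 0 < Q := by rw [hQ]; positivity
  have hK10 : K ^ 6 ≤ K ^ 10 := pow_le_pow_right₀ hK1 (by norm_num)
  have hK10' : 1 ≤ K ^ 10 := one_le_pow₀ hK1
  have hΛle : (Λ.card : ℝ) ≤ 2 * Q * N := by
    refine (sp_final X Λ hQ0 hN (L := K ^ 6) (by positivity) hXlow hXup
      (fun t ht => by rw [hQ]; exact hΛ t ht)).resolve_right fun b3 => ?_
    have b4 : 2 * Q * K ^ 6 ≤ 2 * Q * K ^ 10 := mul_le_mul_of_nonneg_left hK10 (by positivity)
    exact absurd (b3.trans (b4.trans h2Q)) (not_le.mpr hN1)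
  rcases hΛc with h | h
  · left
    rw [← h]
    refine hΛle.trans (mul_le_mul_of_nonneg_right (le_trans ?_ h2Q) hN.le)
    exact le_mul_of_one_le_right (by positivity) hK10'
  · right
    have a1 : (Ξ.card : ℝ) ^ 2 ≤ (K ^ 5 * J.card) ^ 2 :=
      pow_le_pow_left₀ (Nat.cast_nonneg _) hJc' 2
    have a2 : (J.card : ℝ) ^ 2 = Λ.card := by rw [h, hYc]; push_cast; ring
    calc _ ≤ (K ^ 5 * J.card) ^ 2 := a1
      _ = K ^ 10 * Λ.card := by rw [← a2]; ring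
      _ ≤ K ^ 10 * (2 * Q * N) := mul_le_mul_of_nonneg_left hΛle (by positivity)
      _ = (2 * Q * K ^ 10) * N := by ring
      _ ≤ _ := mul_le_mul_of_nonneg_right h2Q hN.le

end Crest.Agent.R34
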