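import Mathlib
import Crest.Agent.R34.GoodCfg
import Crest.Agent.R34.CandVert
import Crest.Agent.R34.Random
import Crest.Agent.R34.Weil
import Crest.Agent.R34.SumProd
import Crest.Agent.R34.Incidence
import Crest.Agent.R34.MainLemma
import Crest.Agent.R34.Config

/-!
# Assembly
-/

set_option autoImplicit false
set_option linter.unusedSectionVars false

namespace Crest.Agent.R34

open Finset Real

lemma exists_root (N q : ℕ) (hN : 0 < N) : ∃ D : ℕ, D ^ N ≤ q ∧ q < (D + 1) ^ N := by
  classical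
  have hex : ∃ D : ℕ, q < (D + 1) ^ N := ⟨q, lt_of_lt_of_le (Nat.lt_succ_self q)
    (Nat.le_self_pow hN.ne' _)⟩
  refine ⟨Nat.find hex, ?_, Nat.find_spec hex⟩
  rcases h : Nat.find hex with _ | D
  · rw [zero_pow hN.ne']; exact Nat.zero_le _
  · have := Nat.find_min hex (m := D) (by omega)
    exact not_lt.mp this

section
variable {F : Type} [Field F] [Fintype F] [DecidableEq F]

/-- the free points -/
def freeSet (τ : F → Fin 4) : Finset (Pt F) :=
  univ.filter (fun p => p.1 ≠ 0 ∧ ∀ b, τ b ∈ alw ∅ p b)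

lemma mem_freeSet {τ : F → Fin 4} {p : Pt F} :
    p ∈ freeSet τ ↔ ∀ d, ¬ Active τ (d, proj d p) := by
  simp only [freeSet, alw, mem_filter, mem_univ, true_and, notMem_empty, not_false_iff,
    true_implies]
  constructor
  · rintro ⟨h0, h⟩ d (e | ⟨j, a, ha, e⟩)
    · obtain ⟨rfl, e2⟩ := Prod.ext_iff.mp e
      exact h0 e2
    · refine h a j ha ?_
      rw [← e]; rfl
  · intro h
    refine ⟨fun e => h none (Or.inl (Prod.ext rfl e)), fun b j hj hon => ?_⟩
    exact h (some b) (Or.inr ⟨j, b, hj, Prod.ext rfl hon⟩)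

lemma mem_freeSet_of_alw {τ : F → Fin 4} {p : Pt F} {E : Finset (Line F)}
    (hE : ∀ l ∈ E, ¬ Active τ l) (h0 : p.1 ≠ 0) (h : ∀ b, τ b ∈ alw E p b) : p ∈ freeSet τ := by
  simp only [freeSet, alw, mem_filter, mem_univ, true_and, notMem_empty, not_false_iff,
    true_implies] at h ⊢
  exact ⟨h0, fun b j hj => h b j hj (fun hm => hE _ hm (Or.inr ⟨j, b, hj, rfl⟩))⟩

lemma card_free_line {τ : F → Fin 4} {l : Line F} (hl : ¬ Active τ l) :
    ((freeSet τ).filter (fun p => On p l)).card = cnt (lineSet l) (alw {l}) τ := by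
  unfold cnt
  congr 1
  ext p
  rw [mem_filter, mem_filter, lineSet, mem_filter]
  constructor
  · rintro ⟨h1, h2⟩
    simp only [freeSet, alw, mem_filter, mem_univ, true_and, notMem_empty, not_false_iff,
      true_implies] at h1 ⊢
    exact ⟨⟨h2, h1.1⟩, fun b j hj _ => h1.2 b j hj⟩
  · rintro ⟨⟨_, h1, h2⟩, h3⟩
    exact ⟨mem_freeSet_of_alw (by simpa using hl) h2 h3, h1⟩

lemma card_free_ge {τ : F → Fin 4} (x : ℝ)
    (h : ∀ c : F, c ≠ 0 → x ≤ cnt (lineSet (none, c)) (alw {(none, c)}) τ) :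
    ((Fintype.card F : ℝ) - 1) * x ≤ (freeSet τ).card := by
  have h1 : (freeSet τ).card = ∑ c ∈ univ.erase (0 : F),
      ((freeSet τ).filter (fun p => p.1 = c)).card := by
    refine card_eq_sum_card_fiberwise fun p hp => ?_
    simp only [freeSet, coe_filter, mem_univ, true_and, Set.mem_setOf_eq] at hp
    simpa using hp.1
  have h2 : ∀ c ∈ univ.erase (0 : F), x ≤ (((freeSet τ).filter (fun p => p.1 = c)).card : ℝ) := by
    intro c hc
    have hc0 : c ≠ 0 := (mem_erase.mp hc).1
    have hna : ¬ Active τ (none, c) := by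
      rintro (e | ⟨j, a, _, e⟩)
      · exact hc0 (congrArg Prod.snd e)
      · exact fam_ne_vert _ _ _ e.symm
    have := card_free_line hna
    have h3 := h c hc0
    rw [← this] at h3
    exact h3
  rw [h1]
  push_cast
  refine le_trans (le_of_eq ?_) (sum_le_sum h2)
  rw [sum_const, card_erase_of_mem (mem_univ _), card_univ, nsmul_eq_mul,
    Nat.cast_sub Fintype.card_pos]
  simp

end

theorem ryser_field : ∃ q₀ : ℕ, ∀ (F : Type) [Field F] [Fintype F] [DecidableEq F],
    ¬ IsSquare (Fintype.card F) → CharBig F → q₀ ≤ Fintype.card F → Ryser (Fintype.card F) := by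
  have hW := weilProd
  obtain ⟨c₀, h, D₀, hc₀, hM⟩ := mainLemma_of_incidence (incidence_of_sumProd sumProd)
    (1 / 300) rho1 (by norm_num) rho1_pos
  obtain ⟨N, hN⟩ : ∃ N : ℕ, N = 10000000 := ⟨_, rfl⟩
  rw [← hN] at hM
  have hN4 : 4 ≤ N := by omega
  clear hN
  obtain ⟨C, hC0, htot⟩ := tot_estimate hW
  obtain ⟨q₁, hvert⟩ := candFam_vert hW
  obtain ⟨D₁, hτ⟩ := exists_tau c₀ hc₀ h N
  refine ⟨max (max q₁ ⌈300 / kap⌉₊) ((max (max D₀ D₁) (max ⌈2 * C⌉₊ 1000)) ^ N),
    fun F _ _ _ hsq hF hq => ?_⟩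
  classical
  obtain ⟨D, hD1, hD2⟩ := exists_root N (Fintype.card F) (by omega)
  have hD : max (max D₀ D₁) (max ⌈2 * C⌉₊ 1000) ≤ D := by
    have := lt_of_le_of_lt ((le_max_right _ _).trans hq) hD2
    exact Nat.lt_succ_iff.mp (lt_of_pow_lt_pow_left₀ N (Nat.zero_le _) this)
  simp only [max_le_iff] at hD hq
  obtain ⟨⟨hD₀, hD₁⟩, hDC, hD3⟩ := hD
  obtain ⟨⟨hq1, hq2⟩, -⟩ := hq
  have hD4 : D ^ 4 ≤ Fintype.card F := (Nat.pow_le_pow_right (by omega) hN4).trans hD1
  have hD5 : D ^ 2 ≤ Fintype.card F := (Nat.pow_le_pow_right (by omega) (by norm_num)).trans hD4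
  have hq3 : 1000000 ≤ Fintype.card F := le_trans (by nlinarith) hD5
  set I : Option (Fin 2 × F) → Finset F := fun k => match k with
    | none => parV F
    | some x => parS x.1 x.2 with hI
  set c : Option (Fin 2 × F) → F → Cand F := fun k => match k with
    | none => candV
    | some x => candS x.1 x.2 with hc
  have hfam : ∀ k, CandFam (sline k) (I k) (c k) := by
    intro k
    cases k with
    | none => exact hvert F hF hq1
    | some x => exact candFam_slope hF (by omega) x.1 x.2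
  obtain ⟨τ, hτ⟩ := hτ F hF D hD₁ hD5 hD2.le sline I c hfam
  have hk : (300 : ℝ) ≤ kap * Fintype.card F := by
    have := Nat.ceil_le.mp hq2
    rwa [div_le_iff₀' kap_pos] at this
  obtain ⟨g, hg⟩ := exists_gads hF I c hfam (fun _ _ _ _ => rfl)
    (fun k => by exact_mod_cast hk.trans (hτ.gad k))
  set q : ℝ := (Fintype.card F : ℝ) with hqdef
  have hqR : (1000000 : ℝ) ≤ q := by rw [hqdef]; exact_mod_cast hq3
  have hDR : (1000 : ℝ) ≤ D := by exact_mod_cast hD3
  have hCD : 2 * C ≤ D := Nat.ceil_le.mp hDC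
  have hs0 : 0 ≤ √q := Real.sqrt_nonneg _
  have hss : √q * √q = q := Real.mul_self_sqrt (by linarith)
  have hDs : (D : ℝ) ^ 2 ≤ √q := by
    refine Real.le_sqrt_of_sq_le ?_
    rw [hqdef, ← pow_mul]; exact_mod_cast hD4
  have hDq : 1000 * (D * √q) ≤ q := by
    have h1 : 1000 * (D : ℝ) ≤ √q := by nlinarith
    nlinarith
  have hCs : C * √q ≤ D / 2 * √q := mul_le_mul_of_nonneg_right (by linarith) hs0
  have hlow : ∀ l : Line F, l ≠ (none, 0) → ∃ r : ℝ, 1 / 128 ≤ r ∧ (l.1 = none → r = rho) ∧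
      q * r - 1 - D * √q ≤ cnt (lineSet l) (alw {l}) τ := by
    intro l hl
    obtain ⟨r, h1, _, h3, h4⟩ := htot F hF l
    refine ⟨r, h1, h3, ?_⟩
    have := hτ.lower l hl
    have := (abs_le.mp h4).1
    linarith
  have hupp : ∀ l : Line F, l ≠ (none, 0) →
      (cnt (lineSet l) (alw {l}) τ : ℝ) ≤ q * rho + D * √q := by
    intro l hl
    obtain ⟨r, _, h2, _, h4⟩ := htot F hF l
    have := hτ.upper l hl
    have := (abs_le.mp h4).2
    have : q * r ≤ q * rho := mul_le_mul_of_nonneg_left h2 (by linarith)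
    linarith
  refine config_ryser F (cfg τ g) (Fintype.card F / 300 + 1) ⟨cfg_card_split hF, cfg_lo_ne_hi hF,
    cfg_lo_not_split hF, cfg_hi_not_split hF, hg.priv hF, hg.card_cls hF, hg.cross hF,
    hg.clean hF, hg.cover_dir hF, hg.cover_pt hF, ?_, ?_⟩
  · intro l hl
    have hl0 : l ≠ (none, 0) := by
      rintro rfl
      exact hl (mem_split.mpr ⟨none, trivial, rfl⟩)
    refine ⟨(lineSet l).filter (fun p => ∀ b, τ b ∈ alw {l} p b), ?_, ?_⟩
    · obtain ⟨r, h1, _, h3⟩ := hlow l hl0
      have h4 : ((Fintype.card F / 300 : ℕ) : ℝ) ≤ q / 300 := Nat.cast_div_le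
      have h5 : q * (1 / 128) ≤ q * r := mul_le_mul_of_nonneg_left h1 (by linarith)
      have h6 : ((Fintype.card F / 300 + 1 + 2 : ℕ) : ℝ) ≤ cnt (lineSet l) (alw {l}) τ := by
        push_cast
        linarith
      exact_mod_cast h6
    · intro p hp
      simp only [lineSet, alw, mem_filter, mem_univ, true_and, mem_singleton] at hp
      obtain ⟨⟨h1, h2⟩, h3⟩ := hp
      refine ⟨h1, fun d hd => ?_⟩
      rw [isG_iff]
      rintro (e | ⟨j, a, ha, e⟩)
      · obtain ⟨rfl, e2⟩ := Prod.ext_iff.mp e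
        exact h2 e2
      · refine h3 a j ha (fun e' => hd ?_) (by rw [← e]; rfl)
        rw [← e', ← e]
  · intro 𝓒 h1 h2 h3
    simp only [isG_iff] at h1 h3
    have hna : ∀ l, ¬ Active τ l → l ≠ (none, 0) := fun l hl e => hl (Or.inl e)
    have hr1 := rho_ge
    have hr2 := rho_le
    obtain ⟨O, hO⟩ := hM F hsq D hD₀ hD1 (freeSet τ) (famSet F) (fun l => ¬ Active τ l)
      (q * rho) (mult_famSet_le hF) (fun h => h (Or.inl rfl)) (by nlinarith)
      (fun l hl => by rw [card_free_line hl]; exact hupp l (hna l hl))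
      (by
        have := card_free_ge (τ := τ) (q * rho - 1 - D * √q) (fun c hc => by
          obtain ⟨r, _, h5, h6⟩ := hlow (none, c) (fun e => hc (congrArg Prod.snd e))
          rw [h5 rfl] at h6
          exact h6)
        refine le_trans ?_ this
        rw [← hqdef]
        have h7 : 1 ≤ √q := by nlinarith
        have h8 : 2 ≤ D * √q := by nlinarith
        have h9 : q * rho ≤ q := by nlinarith
        have h10 : q * 2 ≤ q * (D * √q) := mul_le_mul_of_nonneg_left h8 (by linarith)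
        nlinarith)
      (fun a b H ha hb hG => by
        refine (hτ.cert a b H hG).trans ?_
        unfold cnt
        refine Nat.cast_le.mpr (card_le_card fun x hx => ?_)
        rw [mem_filter] at hx ⊢
        refine ⟨hx.1, mem_freeSet_of_alw (E := certLines a b) ?_ ?_ hx.2⟩
        · intro l hl
          simp only [certLines, mem_union, mem_image, mem_univ, true_and] at hl
          rcases hl with ⟨i, rfl⟩ | ⟨i, rfl⟩
          · exact ha i
          · exact hb i
        · have := hx.1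
          simp only [goodSet, mem_filter, mem_univ, true_and] at this
          exact this.2.2.2.1)
      𝓒 h1 h2 (fun p hp => h3 p (mem_freeSet.mp hp))
    refine ⟨O, ?_⟩
    have h4 : q / 300 < ((Fintype.card F / 300 + 1 : ℕ) : ℝ) := by
      rw [div_lt_iff₀ (by norm_num), hqdef]
      exact_mod_cast (by omega : Fintype.card F < (Fintype.card F / 300 + 1) * 300)
    have h5 : q ≤ ((𝓒.filter (fun l => POn O l)).card : ℝ) +
        ((Fintype.card F / 300 + 1 : ℕ) : ℝ) := by
      linarith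
    rw [hqdef] at h5
    exact_mod_cast h5

lemma charBig_of_charP (F : Type) [Field F] (p : ℕ) [CharP F p] (hp : 100 < p) : CharBig F := by
  intro n h0 h1 h
  have := Nat.le_of_dvd h0 ((CharP.cast_eq_zero_iff F p n).mp h)
  omega

theorem ryser_prime_pow : ∃ q₀ : ℕ, ∀ s n : ℕ, s.Prime → q₀ ≤ s → Odd n → Ryser (s ^ n) := by
  obtain ⟨q₀, h⟩ := ryser_field
  refine ⟨max q₀ 101, fun s n hs hq hn => ?_⟩
  classical
  haveI : Fact s.Prime := ⟨hs⟩
  have hn0 : n ≠ 0 := by rintro rfl; exact absurd hn (by decide)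
  letI : Fintype (GaloisField s n) := Fintype.ofFinite _
  have hcard : Fintype.card (GaloisField s n) = s ^ n := by
    rw [← Nat.card_eq_fintype_card]; exact GaloisField.card s n hn0
  rw [← hcard]
  refine h _ ?_ (charBig_of_charP _ s (by omega)) ?_
  · rw [hcard]
    rintro ⟨r, hr⟩
    have h1 := congrArg (fun m => Nat.factorization m s) hr
    have hr0 : r ≠ 0 := by
      rintro rfl
      exact pow_ne_zero n hs.ne_zero hr
    simp only [Nat.factorization_mul hr0 hr0, Finsupp.add_apply, Nat.factorization_pow,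
      Finsupp.smul_apply, hs.factorization_self, smul_eq_mul, mul_one] at h1
    obtain ⟨k, hk⟩ := hn
    omega
  · rw [hcard]
    exact ((le_max_left _ _).trans hq).trans (Nat.le_self_pow hn0 s)

end Crest.Agent.R34
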