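import Crest.Agent.R34.Defs

/-! Counting lemmas for the main lemma of row 34. -/

set_option autoImplicit false

namespace Crest.Agent.R34

open Finset

section avg
variable {ι α : Type*} [Fintype ι] [DecidableEq ι]

theorem ml_sum_update (C : Finset α) (s : ι) (f : (ι → α) → ℝ) :
    ∑ w ∈ Fintype.piFinset (fun _ : ι => C), ∑ c ∈ C, f (Function.update w s c) =
      C.card * ∑ w ∈ Fintype.piFinset (fun _ : ι => C), f w := by
  rw [← Finset.sum_product' (f := fun w c => f (Function.update w s c))]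
  have h : (C.card : ℝ) * ∑ w ∈ Fintype.piFinset (fun _ : ι => C), f w =
      ∑ x ∈ Fintype.piFinset (fun _ : ι => C) ×ˢ C, f x.1 := by
    rw [Finset.sum_product' (f := fun w _ => f w), Finset.mul_sum]
    exact Finset.sum_congr rfl fun w _ => by rw [Finset.sum_const, nsmul_eq_mul]
  rw [h]
  have hmem : ∀ x ∈ Fintype.piFinset (fun _ : ι => C) ×ˢ C,
      (Function.update x.1 s x.2, x.1 s) ∈ Fintype.piFinset (fun _ : ι => C) ×ˢ C := by
    intro x hx
    rw [mem_product, Fintype.mem_piFinset] at hx ⊢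
    refine ⟨fun i => ?_, hx.1 s⟩
    by_cases hi : i = s
    · subst hi; simpa using hx.2
    · simpa [Function.update_of_ne hi] using hx.1 i
  refine Finset.sum_bij' (fun x _ => (Function.update x.1 s x.2, x.1 s))
    (fun x _ => (Function.update x.1 s x.2, x.1 s)) hmem hmem ?_ ?_ ?_
  · intro x _; simp
  · intro x _; simp
  · intro x _; rfl

theorem ml_avg_one (C : Finset α) (s : ι) (f : (ι → α) → ℝ) (β : ℝ)
    (h : ∀ w ∈ Fintype.piFinset (fun _ : ι => C), ∑ c ∈ C, f (Function.update w s c) ≤ β) :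
    C.card * ∑ w ∈ Fintype.piFinset (fun _ : ι => C), f w ≤
      (Fintype.piFinset (fun _ : ι => C)).card * β := by
  rw [← ml_sum_update C s f]
  refine (Finset.sum_le_sum h).trans (le_of_eq ?_)
  rw [Finset.sum_const, nsmul_eq_mul]

theorem ml_avg_two (C : Finset α) (s t : ι) (f : (ι → α) → ℝ) (β : ℝ)
    (h : ∀ w ∈ Fintype.piFinset (fun _ : ι => C),
      ∑ c ∈ C, ∑ c' ∈ C, f (Function.update (Function.update w s c) t c') ≤ β) :
    (C.card : ℝ) ^ 2 * ∑ w ∈ Fintype.piFinset (fun _ : ι => C), f w ≤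
      (Fintype.piFinset (fun _ : ι => C)).card * β := by
  have h1 := ml_avg_one C s (fun w => ∑ c' ∈ C, f (Function.update w t c')) β h
  rw [ml_sum_update C t f] at h1
  rw [sq, mul_assoc]; exact h1

end avg

variable {F : Type} [Field F] [DecidableEq F]

/-- number of lines of `C` through the projective point `O` -/
def pdeg (C : Finset (Line F)) (O : PP F) : ℕ := (C.filter (fun l => POn O l)).card

theorem pdeg_inl (C : Finset (Line F)) (p : Pt F) : pdeg C (Sum.inl p) = mult C p := rfl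

theorem ml_offDiag_card {α : Type*} [DecidableEq α] (s : Finset α) :
    (s.offDiag.card : ℝ) = s.card * (s.card - 1) := by
  rw [Finset.offDiag_card, Nat.cast_sub (Nat.le_mul_self _)]
  push_cast; ring

theorem ml_heavy_sum (C : Finset (Line F)) (H : Finset (PP F)) :
    ∑ O ∈ H, (pdeg C O : ℝ) ≤ C.card + H.card * (H.card - 1) / 2 := by
  classical
  have h1 : ∑ O ∈ H, (pdeg C O : ℝ) = ∑ l ∈ C, ((H.filter (fun O => POn O l)).card : ℝ) := by
    simp only [pdeg, Finset.natCast_card_filter]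
    exact Finset.sum_comm
  have h2 : ∀ l, ((H.filter (fun O => POn O l)).card : ℝ) ≤
      1 + ((H.offDiag.filter (fun x => POn x.1 l ∧ POn x.2 l)).card : ℝ) / 2 := by
    intro l
    have : H.offDiag.filter (fun x => POn x.1 l ∧ POn x.2 l) =
        (H.filter (fun O => POn O l)).offDiag := by
      ext x; simp only [mem_filter, mem_offDiag]; tauto
    rw [this, ml_offDiag_card]
    set j := (H.filter (fun O => POn O l)).card
    rcases Nat.lt_or_ge j 2 with h | h
    · interval_cases j <;> norm_num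
    · have : (2 : ℝ) ≤ j := by exact_mod_cast h
      nlinarith
  have h3 : ∑ l ∈ C, ((H.offDiag.filter (fun x => POn x.1 l ∧ POn x.2 l)).card : ℝ) ≤
      H.card * (H.card - 1) := by
    simp only [Finset.natCast_card_filter]
    rw [Finset.sum_comm, ← ml_offDiag_card]
    have : ∀ x ∈ H.offDiag, ∑ l ∈ C, (if POn x.1 l ∧ POn x.2 l then (1 : ℝ) else 0) ≤ 1 := by
      intro x hx
      rw [← Finset.natCast_card_filter]
      have : (C.filter (fun l => POn x.1 l ∧ POn x.2 l)).card ≤ 1 := by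
        rw [Finset.card_le_one]
        intro l hl l' hl'
        by_contra hne
        exact (mem_offDiag.1 hx).2.2 (pp_eq_of_pon hne (mem_filter.1 hl).2.1
          (mem_filter.1 hl').2.1 (mem_filter.1 hl).2.2 (mem_filter.1 hl').2.2)
      exact_mod_cast this
    refine (Finset.sum_le_sum this).trans (le_of_eq ?_)
    simp
  rw [h1]
  refine (Finset.sum_le_sum fun l _ => h2 l).trans ?_
  rw [Finset.sum_add_distrib, ← Finset.sum_div]
  simp only [sum_const, nsmul_eq_mul, mul_one]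
  linarith

theorem ml_heavy_card (C : Finset (Line F)) (H : Finset (PP F)) {t : ℝ} (ht : 0 < t)
    (h4 : 4 * (C.card : ℝ) ≤ t ^ 2) (hH : ∀ O ∈ H, t ≤ (pdeg C O : ℝ)) :
    (H.card : ℝ) ≤ 2 * C.card / t := by
  by_contra hcon
  push Not at hcon
  have h0 : 0 ≤ 2 * (C.card : ℝ) / t := by positivity
  have hk : ⌊2 * (C.card : ℝ) / t⌋₊ + 1 ≤ H.card := by
    have : ⌊2 * (C.card : ℝ) / t⌋₊ < H.card := (Nat.floor_lt h0).2 hcon
    omega
  obtain ⟨H', hH', hc⟩ := Finset.exists_subset_card_eq hk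
  have h1 := ml_heavy_sum C H'
  have h2 : H'.card * t ≤ ∑ O ∈ H', (pdeg C O : ℝ) := by
    rw [← nsmul_eq_mul, ← Finset.sum_const]
    exact Finset.sum_le_sum fun O hO => hH O (hH' hO)
  have h3 : 2 * (C.card : ℝ) / t < H'.card := by
    rw [hc]; push_cast; exact Nat.lt_floor_add_one _
  have h5 : (H'.card : ℝ) - 1 ≤ 2 * C.card / t := by
    rw [hc]; push_cast; linarith [Nat.floor_le h0]
  have h6 : 2 * (C.card : ℝ) / t ≤ t / 2 := by
    rw [div_le_iff₀ ht]; nlinarith
  rw [div_lt_iff₀ ht] at h3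
  have h7 : (0 : ℝ) < H'.card := by rw [hc]; positivity
  nlinarith [mul_le_mul_of_nonneg_left (h5.trans h6) h7.le]

theorem ml_heavy_sum' (C : Finset (Line F)) (H : Finset (PP F)) {t : ℝ} (ht : 0 < t)
    (h4 : 4 * (C.card : ℝ) ≤ t ^ 2) (hH : ∀ O ∈ H, t ≤ (pdeg C O : ℝ)) :
    ∑ O ∈ H, (pdeg C O : ℝ) ≤ C.card + (2 * C.card / t) ^ 2 / 2 := by
  have h1 := ml_heavy_sum C H
  have h2 := ml_heavy_card C H ht h4 hH
  have h3 : (0 : ℝ) ≤ H.card := Nat.cast_nonneg _
  nlinarith

theorem ml_heavy_sum'' (C : Finset (Line F)) (H : Finset (PP F)) {t : ℝ} (ht : 0 < t)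
    (h4 : 4 * (C.card : ℝ) ≤ t ^ 2) (hH : ∀ O ∈ H, t ≤ (pdeg C O : ℝ)) :
    ∑ O ∈ H, (pdeg C O : ℝ) ≤ 3 / 2 * C.card := by
  refine (ml_heavy_sum' C H ht h4 hH).trans ?_
  have h0 : (0 : ℝ) ≤ C.card := Nat.cast_nonneg _
  have : (2 * (C.card : ℝ) / t) ^ 2 ≤ C.card := by
    rw [div_pow, div_le_iff₀ (by positivity)]; nlinarith
  linarith

open Classical in
/-- indicator of a proposition -/
noncomputable def ind (P : Prop) : ℝ := if P then 1 else 0

theorem ind_nonneg (P : Prop) : 0 ≤ ind P := by unfold ind; split_ifs <;> norm_num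

theorem ind_le_one (P : Prop) : ind P ≤ 1 := by unfold ind; split_ifs <;> norm_num

theorem ind_pos {P : Prop} (h : P) : ind P = 1 := if_pos h

theorem ind_neg {P : Prop} (h : ¬ P) : ind P = 0 := if_neg h

theorem ind_mono {P Q : Prop} (h : P → Q) : ind P ≤ ind Q := by
  by_cases hP : P
  · rw [ind_pos hP, ind_pos (h hP)]
  · rw [ind_neg hP]; exact ind_nonneg _

theorem sum_ind_eq {α : Type*} (s : Finset α) (P : α → Prop) [DecidablePred P] :
    ∑ x ∈ s, ind (P x) = (s.filter P).card := by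
  rw [Finset.natCast_card_filter]
  exact Finset.sum_congr rfl fun x _ => by unfold ind; congr

theorem ind_exists_le {α : Type*} (s : Finset α) (P : α → Prop) :
    ind (∃ x ∈ s, P x) ≤ ∑ x ∈ s, ind (P x) := by
  by_cases h : ∃ x ∈ s, P x
  · obtain ⟨x, hx, hP⟩ := h
    refine (ind_le_one _).trans ?_
    rw [← ind_pos hP]
    exact Finset.single_le_sum (f := fun x => ind (P x)) (fun x _ => ind_nonneg _) hx
  · rw [ind_neg h]; exact Finset.sum_nonneg fun x _ => ind_nonneg _

/-- lines through a point of small degree -/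
theorem sum_ind_le_of_through (C : Finset (Line F)) (P : Line F → Prop) {t : ℝ} (ht : 0 ≤ t)
    (h : ∀ c, P c → ∃ O : PP F, (pdeg C O : ℝ) ≤ t ∧ ∀ c', P c' → POn O c') :
    ∑ c ∈ C, ind (P c) ≤ t := by
  by_cases hex : ∃ c, P c
  · obtain ⟨c, hc⟩ := hex
    obtain ⟨O, hO, hall⟩ := h c hc
    refine le_trans (Finset.sum_le_sum fun c' _ => ind_mono (hall c')) ?_
    rw [sum_ind_eq]; exact hO
  · push Not at hex
    rw [Finset.sum_eq_zero fun c _ => ind_neg (hex c)]; exact ht

/-- pairs of distinct lines meeting in a given set of projective points -/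
theorem sum_pairs_le (C : Finset (Line F)) (S : Finset (PP F)) :
    ∑ a ∈ C, ∑ b ∈ C, ind (a ≠ b ∧ ∃ O ∈ S, POn O a ∧ POn O b) ≤
      ∑ O ∈ S, (pdeg C O : ℝ) * (pdeg C O - 1) := by
  classical
  have h1 : ∀ a b : Line F, ind (a ≠ b ∧ ∃ O ∈ S, POn O a ∧ POn O b) ≤
      ∑ O ∈ S, ind (a ≠ b ∧ POn O a ∧ POn O b) := fun a b =>
    le_trans (ind_mono fun ⟨h, O, hO, h'⟩ => ⟨O, hO, h, h'⟩)
      (ind_exists_le S fun O => a ≠ b ∧ POn O a ∧ POn O b)
  refine (Finset.sum_le_sum fun a _ => Finset.sum_le_sum fun b _ => h1 a b).trans (le_of_eq ?_)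
  rw [← Finset.sum_product' (f := fun a b => ∑ O ∈ S, ind (a ≠ b ∧ POn O a ∧ POn O b)),
    Finset.sum_comm]
  refine Finset.sum_congr rfl fun O _ => ?_
  rw [sum_ind_eq, pdeg, ← ml_offDiag_card]
  congr 2
  ext x; simp only [mem_filter, mem_product, mem_offDiag]; tauto

/-- pairs of lines meeting on a given third line in a point of small degree -/
theorem sum_pairs_on_line (C : Finset (Line F)) (m : Line F) {t : ℝ} (ht : 0 ≤ t) :
    ∑ a ∈ C, ∑ b ∈ C, ind (a ≠ m ∧ ∃ p : Pt F, On p m ∧ On p a ∧ On p b ∧ (mult C p : ℝ) ≤ t) ≤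
      C.card * t := by
  rw [← nsmul_eq_mul, ← Finset.sum_const]
  refine Finset.sum_le_sum fun a _ => sum_ind_le_of_through C _ ht ?_
  rintro b ⟨ham, p, h1, h2, -, h4⟩
  refine ⟨Sum.inl p, h4, ?_⟩
  rintro b' ⟨-, p', h1', h2', h3', -⟩
  have : p = p' := eq_of_on_on ham h2 h1 h2' h1'
  subst this
  exact h3'

/-- pairs of parallel lines in a direction of small degree -/
theorem sum_pairs_dir (C : Finset (Line F)) {t : ℝ} (ht : 0 ≤ t) :
    ∑ a ∈ C, ∑ b ∈ C, ind (b.1 = a.1 ∧ (pdeg C (Sum.inr a.1) : ℝ) ≤ t) ≤ C.card * t := by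
  rw [← nsmul_eq_mul, ← Finset.sum_const]
  refine Finset.sum_le_sum fun a _ => sum_ind_le_of_through C _ ht ?_
  rintro b ⟨-, h⟩
  exact ⟨Sum.inr a.1, h, fun b' h' => h'.1⟩

end Crest.Agent.R34
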