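import Crest.Agent.R34.MainLemmaCount

/-! Nice pairs, low pairs and the averaging step of the main lemma of row 34. -/

set_option autoImplicit false

namespace Crest.Agent.R34

open Finset

variable {F : Type} [Field F] [DecidableEq F]

/-- pairs of lines meeting in a generic point of small degree -/
def Nice (𝓕 C : Finset (Line F)) (T t₁ : ℝ) (a b : Line F) : Prop :=
  a ≠ b ∧ ∃ p : Pt F, On p a ∧ On p b ∧ (mult C p : ℝ) ≤ T ∧ p.1 ≠ 0 ∧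
    ∀ m ∈ 𝓕, On p m → m ≠ a → m ≠ b → ∀ p' : Pt F, On p' m → (mult C p' : ℝ) ≤ t₁

/-- pairs of lines meeting in a point of `R` which is not heavy -/
def LowR (R : Finset (Pt F)) (C : Finset (Line F)) (t₀ : ℝ) (a b : Line F) : Prop :=
  a ≠ b ∧ ∃ p ∈ R, On p a ∧ On p b ∧ (mult C p : ℝ) ≤ t₀

theorem heavy_pts_card [Fintype F] (C : Finset (Line F)) {t : ℝ} (ht : 0 < t)
    (h4 : 4 * (C.card : ℝ) ≤ t ^ 2) :
    ((univ.filter (fun p : Pt F => t ≤ (mult C p : ℝ))).card : ℝ) ≤ 2 * C.card / t := by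
  have := ml_heavy_card C ((univ.filter (fun p : Pt F => t ≤ (mult C p : ℝ))).map
    ⟨Sum.inl, Sum.inl_injective⟩) ht h4 (fun O hO => by
      obtain ⟨p, hp, rfl⟩ := mem_map.1 hO
      exact (mem_filter.1 hp).2)
  rwa [card_map] at this

theorem nice_count [Fintype F] (𝓕 C : Finset (Line F)) {G T t₀ t₁ : ℝ} (hG : 0 ≤ G)
    (hT : 0 < T) (ht₀ : 0 < t₀) (ht₁ : 0 < t₁) (hT4 : 4 * (C.card : ℝ) ≤ T ^ 2)
    (ht₀4 : 4 * (C.card : ℝ) ≤ t₀ ^ 2) (ht₁4 : 4 * (C.card : ℝ) ≤ t₁ ^ 2)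
    (h12 : ∀ p : Pt F, mult 𝓕 p ≤ 12) (h0 : ((none, 0) : Line F) ∉ C)
    (hg : ∀ O, (pdeg C O : ℝ) ≤ G) :
    (C.card : ℝ) ^ 2 - C.card - G * (C.card + (2 * C.card / t₀) ^ 2 / 2) - t₀ * (3 / 2 * C.card) -
      2 * (C.card * T) - 12 * (2 * C.card / t₁) * (C.card * T) ≤
      ∑ a ∈ C, ∑ b ∈ C, ind (Nice 𝓕 C T t₁ a b) := by
  classical
  set S₀ : Finset (PP F) := univ.filter (fun O => t₀ ≤ (pdeg C O : ℝ)) with hS₀
  set S₁ : Finset (PP F) := univ.filter (fun O => T ≤ (pdeg C O : ℝ) ∧ (pdeg C O : ℝ) ≤ t₀)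
    with hS₁
  set M : Finset (Line F) := 𝓕.filter (fun m => ∃ p' : Pt F, On p' m ∧ t₁ ≤ (mult C p' : ℝ))
    with hM
  have hMc : (M.card : ℝ) ≤ 12 * (2 * C.card / t₁) := by
    have h1 : M ⊆ (univ.filter (fun p : Pt F => t₁ ≤ (mult C p : ℝ))).biUnion
        (fun p => 𝓕.filter (fun m => On p m)) := by
      intro m hm
      obtain ⟨hm1, p', h2, h3⟩ := mem_filter.1 hm
      exact mem_biUnion.2 ⟨p', mem_filter.2 ⟨mem_univ _, h3⟩, mem_filter.2 ⟨hm1, h2⟩⟩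
    have h2 : M.card ≤ (univ.filter (fun p : Pt F => t₁ ≤ (mult C p : ℝ))).card * 12 :=
      (card_le_card h1).trans (Finset.card_biUnion_le_card_mul _ _ _ fun p _ => h12 p)
    have h3 : (M.card : ℝ) ≤ (univ.filter (fun p : Pt F => t₁ ≤ (mult C p : ℝ))).card * 12 := by
      exact_mod_cast h2
    linarith [heavy_pts_card C ht₁ ht₁4]
  have hpt : ∀ a ∈ C, ∀ b ∈ C, 1 ≤ ind (Nice 𝓕 C T t₁ a b) + ind (a = b) +
      ind (a ≠ b ∧ ∃ O ∈ S₀, POn O a ∧ POn O b) + ind (a ≠ b ∧ ∃ O ∈ S₁, POn O a ∧ POn O b) +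
      ind (b.1 = a.1 ∧ (pdeg C (Sum.inr a.1) : ℝ) ≤ T) +
      ind (a ≠ (none, 0) ∧ ∃ p : Pt F, On p (none, 0) ∧ On p a ∧ On p b ∧ (mult C p : ℝ) ≤ T) +
      ∑ m ∈ M, ind (a ≠ m ∧ ∃ p : Pt F, On p m ∧ On p a ∧ On p b ∧ (mult C p : ℝ) ≤ T) := by
    intro a ha b _
    have n1 := ind_nonneg (Nice 𝓕 C T t₁ a b)
    have n2 := ind_nonneg (a = b)
    have n3 := ind_nonneg (a ≠ b ∧ ∃ O ∈ S₀, POn O a ∧ POn O b)
    have n4 := ind_nonneg (a ≠ b ∧ ∃ O ∈ S₁, POn O a ∧ POn O b)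
    have n5 := ind_nonneg (b.1 = a.1 ∧ (pdeg C (Sum.inr a.1) : ℝ) ≤ T)
    have n6 := ind_nonneg
      (a ≠ (none, 0) ∧ ∃ p : Pt F, On p (none, 0) ∧ On p a ∧ On p b ∧ (mult C p : ℝ) ≤ T)
    have n7 : 0 ≤ ∑ m ∈ M,
        ind (a ≠ m ∧ ∃ p : Pt F, On p m ∧ On p a ∧ On p b ∧ (mult C p : ℝ) ≤ T) :=
      Finset.sum_nonneg fun m _ => ind_nonneg _
    by_cases hab : a = b
    · rw [ind_pos hab]; linarith
    obtain ⟨O, hOa, hOb⟩ := exists_pon a b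
    by_cases c0 : t₀ ≤ (pdeg C O : ℝ)
    · rw [ind_pos (P := a ≠ b ∧ ∃ O ∈ S₀, POn O a ∧ POn O b)
        ⟨hab, O, mem_filter.2 ⟨mem_univ _, c0⟩, hOa, hOb⟩]
      linarith
    by_cases c1 : T ≤ (pdeg C O : ℝ)
    · rw [ind_pos (P := a ≠ b ∧ ∃ O ∈ S₁, POn O a ∧ POn O b)
        ⟨hab, O, mem_filter.2 ⟨mem_univ _, c1, (not_le.1 c0).le⟩, hOa, hOb⟩]
      linarith
    have c2 : (pdeg C O : ℝ) ≤ T := (not_le.1 c1).le
    rcases O with p | d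
    · by_cases c3 : p.1 = 0
      · rw [ind_pos (P := a ≠ (none, 0) ∧ ∃ p : Pt F, On p (none, 0) ∧ On p a ∧ On p b ∧
          (mult C p : ℝ) ≤ T) ⟨fun h => h0 (h ▸ ha), p, c3, hOa, hOb, c2⟩]
        linarith
      by_cases c4 : Nice 𝓕 C T t₁ a b
      · rw [ind_pos c4]; linarith
      have c5 : ∃ m ∈ M, a ≠ m ∧ ∃ p : Pt F, On p m ∧ On p a ∧ On p b ∧ (mult C p : ℝ) ≤ T := by
        by_contra hcon
        refine c4 ⟨hab, p, hOa, hOb, c2, c3, fun m hm hpm hma _ p' hp' => ?_⟩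
        by_contra hlt
        exact hcon ⟨m, mem_filter.2 ⟨hm, p', hp', (not_le.1 hlt).le⟩, hma.symm, p, hpm, hOa, hOb,
          c2⟩
      have := ind_exists_le M
        (fun m => a ≠ m ∧ ∃ p : Pt F, On p m ∧ On p a ∧ On p b ∧ (mult C p : ℝ) ≤ T)
      rw [ind_pos c5] at this
      linarith
    · have ha1 : a.1 = d := hOa
      have hb1 : b.1 = d := hOb
      rw [ind_pos (P := b.1 = a.1 ∧ (pdeg C (Sum.inr a.1) : ℝ) ≤ T)
        ⟨hb1.trans ha1.symm, ha1 ▸ c2⟩]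
      linarith
  have hsum := Finset.sum_le_sum fun a ha => Finset.sum_le_sum fun b hb => hpt a ha b hb
  simp only [Finset.sum_add_distrib] at hsum
  have e1 : ∑ a ∈ C, ∑ b ∈ C, (1 : ℝ) = (C.card : ℝ) ^ 2 := by simp [sq]
  have e2 : ∑ a ∈ C, ∑ b ∈ C, ind (a = b) = C.card := by
    rw [Finset.sum_congr rfl (g := fun _ => (1 : ℝ)) fun a ha => by
      rw [sum_ind_eq, Finset.filter_eq, if_pos ha]; simp]
    simp
  have e3 : ∑ a ∈ C, ∑ b ∈ C, ind (a ≠ b ∧ ∃ O ∈ S₀, POn O a ∧ POn O b) ≤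
      G * (C.card + (2 * C.card / t₀) ^ 2 / 2) := by
    refine (sum_pairs_le C S₀).trans ?_
    have h1 := ml_heavy_sum' C S₀ ht₀ ht₀4 fun O hO => (mem_filter.1 hO).2
    refine le_trans ?_ (mul_le_mul_of_nonneg_left h1 hG)
    rw [Finset.mul_sum]
    refine Finset.sum_le_sum fun O _ => ?_
    have : (0 : ℝ) ≤ pdeg C O := Nat.cast_nonneg _
    nlinarith [hg O]
  have e4 : ∑ a ∈ C, ∑ b ∈ C, ind (a ≠ b ∧ ∃ O ∈ S₁, POn O a ∧ POn O b) ≤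
      t₀ * (3 / 2 * C.card) := by
    refine (sum_pairs_le C S₁).trans ?_
    have h1 := ml_heavy_sum'' C S₁ hT hT4 fun O hO => (mem_filter.1 hO).2.1
    refine le_trans ?_ (mul_le_mul_of_nonneg_left h1 ht₀.le)
    rw [Finset.mul_sum]
    refine Finset.sum_le_sum fun O hO => ?_
    have : (0 : ℝ) ≤ pdeg C O := Nat.cast_nonneg _
    nlinarith [(mem_filter.1 hO).2.2]
  have e5 := sum_pairs_dir C hT.le
  have e6 := sum_pairs_on_line C (none, 0) hT.le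
  have e7 : ∑ a ∈ C, ∑ b ∈ C, ∑ m ∈ M,
      ind (a ≠ m ∧ ∃ p : Pt F, On p m ∧ On p a ∧ On p b ∧ (mult C p : ℝ) ≤ T) ≤
      12 * (2 * C.card / t₁) * (C.card * T) := by
    rw [Finset.sum_congr rfl fun a _ => Finset.sum_comm, Finset.sum_comm]
    refine (Finset.sum_le_sum fun m _ => sum_pairs_on_line C m hT.le).trans ?_
    rw [Finset.sum_const, nsmul_eq_mul]
    exact mul_le_mul_of_nonneg_right hMc (by positivity)
  linarith

theorem lowR_count (R : Finset (Pt F)) (C : Finset (Line F)) {T t₀ u I E : ℝ} (hT : 0 < T)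
    (ht₀ : 0 ≤ t₀) (hu : 0 ≤ u) (hT4 : 4 * (C.card : ℝ) ≤ T ^ 2)
    (hcov : ∀ p ∈ R, ∃ l ∈ C, On p l)
    (hI : ∀ M : Finset (Pt F), (∀ p ∈ M, u ≤ (mult C p : ℝ) ∧ (mult C p : ℝ) ≤ T) →
      ∑ p ∈ M, (mult C p : ℝ) ^ 2 ≤ I)
    (hE : ∑ p ∈ R, ((mult C p : ℝ) - 1) ≤ E) :
    ∑ a ∈ C, ∑ b ∈ C, ind (LowR R C t₀ a b) ≤ t₀ * (3 / 2 * C.card) + I + u * E := by
  classical
  set S : Finset (PP F) := (R.filter (fun p => (mult C p : ℝ) ≤ t₀)).map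
    ⟨Sum.inl, Sum.inl_injective⟩ with hS
  have h1 : ∑ a ∈ C, ∑ b ∈ C, ind (LowR R C t₀ a b) ≤
      ∑ a ∈ C, ∑ b ∈ C, ind (a ≠ b ∧ ∃ O ∈ S, POn O a ∧ POn O b) :=
    Finset.sum_le_sum fun a _ => Finset.sum_le_sum fun b _ => ind_mono
      fun ⟨h, p, hp, h1, h2, h3⟩ =>
        ⟨h, Sum.inl p, mem_map.2 ⟨p, mem_filter.2 ⟨hp, h3⟩, rfl⟩, h1, h2⟩
  refine h1.trans ((sum_pairs_le C S).trans ?_)
  rw [hS, Finset.sum_map, Finset.sum_filter]
  have h2 : ∀ p ∈ R, (if (mult C p : ℝ) ≤ t₀ then (mult C p : ℝ) * (mult C p - 1) else 0) ≤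
      t₀ * (if T ≤ (mult C p : ℝ) then (mult C p : ℝ) else 0) +
      (if u ≤ (mult C p : ℝ) ∧ (mult C p : ℝ) ≤ T then (mult C p : ℝ) ^ 2 else 0) +
      u * ((mult C p : ℝ) - 1) := by
    intro p hp
    have g1 : (1 : ℝ) ≤ mult C p := by
      obtain ⟨l, hl, hpl⟩ := hcov p hp
      have : 0 < mult C p := card_pos.2 ⟨l, mem_filter.2 ⟨hl, hpl⟩⟩
      exact_mod_cast this
    have n1 : 0 ≤ t₀ * (if T ≤ (mult C p : ℝ) then (mult C p : ℝ) else 0) :=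
      mul_nonneg ht₀ (by split_ifs <;> positivity)
    have n2 : 0 ≤ (if u ≤ (mult C p : ℝ) ∧ (mult C p : ℝ) ≤ T then (mult C p : ℝ) ^ 2 else 0) := by
      split_ifs <;> positivity
    have n3 : 0 ≤ u * ((mult C p : ℝ) - 1) := mul_nonneg hu (by linarith)
    by_cases c0 : (mult C p : ℝ) ≤ t₀
    · rw [if_pos c0]
      by_cases c1 : T ≤ (mult C p : ℝ)
      · rw [if_pos c1]; nlinarith
      by_cases c2 : u ≤ (mult C p : ℝ)
      · rw [if_pos (⟨c2, (not_le.1 c1).le⟩ : u ≤ (mult C p : ℝ) ∧ (mult C p : ℝ) ≤ T)]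
        nlinarith
      · nlinarith [mul_le_mul_of_nonneg_right (not_le.1 c2).le
          (by linarith : (0 : ℝ) ≤ mult C p - 1)]
    · rw [if_neg c0]; linarith
  refine (Finset.sum_le_sum h2).trans ?_
  rw [Finset.sum_add_distrib, Finset.sum_add_distrib, ← Finset.mul_sum, ← Finset.mul_sum,
    ← Finset.sum_filter, ← Finset.sum_filter]
  have h3 := ml_heavy_sum'' C ((R.filter (fun p => T ≤ (mult C p : ℝ))).map
    ⟨Sum.inl, Sum.inl_injective⟩) hT hT4 (fun O hO => by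
      obtain ⟨p, hp, rfl⟩ := mem_map.1 hO
      exact (mem_filter.1 hp).2)
  rw [Finset.sum_map] at h3
  have h4 := hI (R.filter (fun p => u ≤ (mult C p : ℝ) ∧ (mult C p : ℝ) ≤ T))
    fun p hp => (mem_filter.1 hp).2
  exact add_le_add (add_le_add (mul_le_mul_of_nonneg_left h3 ht₀) h4)
    (mul_le_mul_of_nonneg_left hE hu)

/-- a third line through the intersection point of a nice pair -/
def Bad1 (𝓕 C : Finset (Line F)) (T t₁ : ℝ) (a b c : Line F) : Prop :=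
  Nice 𝓕 C T t₁ a b ∧ ∃ p : Pt F, On p a ∧ On p b ∧ On p c

/-- a second pair meeting on a line of `𝓕` through the intersection point of a nice pair -/
def Bad2 (𝓕 C : Finset (Line F)) (T t₁ : ℝ) (a b c c' : Line F) : Prop :=
  Nice 𝓕 C T t₁ a b ∧ ∃ p : Pt F, On p a ∧ On p b ∧ ∃ m ∈ 𝓕, On p m ∧ m ≠ a ∧ m ≠ b ∧ c ≠ m ∧
    ∃ p' : Pt F, On p' m ∧ On p' c ∧ On p' c'

theorem bad1_count (𝓕 C : Finset (Line F)) {T t₁ : ℝ} (hT : 0 ≤ T) (a b : Line F) :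
    ∑ c ∈ C, ind (Bad1 𝓕 C T t₁ a b c) ≤ T := by
  refine sum_ind_le_of_through C _ hT ?_
  rintro c ⟨⟨hab, p, h1, h2, h3, -⟩, -⟩
  refine ⟨Sum.inl p, h3, ?_⟩
  rintro c' ⟨-, p', h1', h2', h3'⟩
  have : p = p' := eq_of_on_on hab h1 h2 h1' h2'
  subst this
  exact h3'

theorem bad2_count (𝓕 C : Finset (Line F)) {T t₁ : ℝ} (ht₁ : 0 ≤ t₁)
    (h12 : ∀ p : Pt F, mult 𝓕 p ≤ 12) (a b : Line F) :
    ∑ c ∈ C, ∑ c' ∈ C, ind (Bad2 𝓕 C T t₁ a b c c') ≤ 12 * (C.card * t₁) := by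
  by_cases hn : Nice 𝓕 C T t₁ a b
  · obtain ⟨hab, p, h1, h2, -, -, h5⟩ := hn
    have h6 : ∀ c c', ind (Bad2 𝓕 C T t₁ a b c c') ≤ ∑ m ∈ 𝓕.filter (fun m => On p m),
        ind (c ≠ m ∧ ∃ p' : Pt F, On p' m ∧ On p' c ∧ On p' c' ∧ (mult C p' : ℝ) ≤ t₁) := by
      intro c c'
      refine le_trans (ind_mono ?_) (ind_exists_le _ _)
      rintro ⟨-, q, g1, g2, m, hm, g3, g4, g5, g6, p', g7, g8, g9⟩
      have : p = q := eq_of_on_on hab h1 h2 g1 g2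
      subst this
      exact ⟨m, mem_filter.2 ⟨hm, g3⟩, g6, p', g7, g8, g9, h5 m hm g3 g4 g5 p' g7⟩
    refine (Finset.sum_le_sum fun c _ => Finset.sum_le_sum fun c' _ => h6 c c').trans ?_
    rw [Finset.sum_congr rfl fun a _ => Finset.sum_comm, Finset.sum_comm]
    refine (Finset.sum_le_sum fun m _ => sum_pairs_on_line C m ht₁).trans ?_
    rw [Finset.sum_const, nsmul_eq_mul]
    have : ((𝓕.filter (fun m => On p m)).card : ℝ) ≤ 12 := by exact_mod_cast h12 p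
    exact mul_le_mul_of_nonneg_right this (by positivity)
  · rw [Finset.sum_eq_zero fun c _ => Finset.sum_eq_zero fun c' _ => ind_neg fun h => hn h.1]
    positivity

theorem good_ge (𝓕 C : Finset (Line F)) {T t₁ : ℝ} {D h : ℕ} (a b : Fin D → Line F)
    (H : Fin h → Pt F) (hH : ∀ t, (H t).1 = 0 ∨ T < (mult C (H t) : ℝ)) (i j : Fin D) :
    ind (Nice 𝓕 C T t₁ (a i) (b j)) -
      ∑ l ∈ univ.erase j, ind (Bad1 𝓕 C T t₁ (a i) (b j) (b l)) -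
      ∑ k ∈ univ.erase i, ind (Bad1 𝓕 C T t₁ (a i) (b j) (a k)) -
      ∑ k ∈ univ.erase i, ∑ l ∈ univ.erase j, ind (Bad2 𝓕 C T t₁ (a i) (b j) (a k) (b l)) ≤
      ind (∃ p, GoodPair 𝓕 a b H i j p) := by
  have n0 := ind_nonneg (∃ p, GoodPair 𝓕 a b H i j p)
  have n1 : 0 ≤ ∑ l ∈ univ.erase j, ind (Bad1 𝓕 C T t₁ (a i) (b j) (b l)) :=
    Finset.sum_nonneg fun _ _ => ind_nonneg _
  have n2 : 0 ≤ ∑ k ∈ univ.erase i, ind (Bad1 𝓕 C T t₁ (a i) (b j) (a k)) :=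
    Finset.sum_nonneg fun _ _ => ind_nonneg _
  have n3 : 0 ≤ ∑ k ∈ univ.erase i, ∑ l ∈ univ.erase j,
      ind (Bad2 𝓕 C T t₁ (a i) (b j) (a k) (b l)) :=
    Finset.sum_nonneg fun _ _ => Finset.sum_nonneg fun _ _ => ind_nonneg _
  have n4 := ind_le_one (Nice 𝓕 C T t₁ (a i) (b j))
  by_cases hn : Nice 𝓕 C T t₁ (a i) (b j)
  swap
  · rw [ind_neg hn]; linarith
  by_cases c1 : ∃ l ∈ univ.erase j, Bad1 𝓕 C T t₁ (a i) (b j) (b l)
  · have := ind_exists_le (univ.erase j) (fun l => Bad1 𝓕 C T t₁ (a i) (b j) (b l))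
    rw [ind_pos c1] at this
    linarith
  by_cases c2 : ∃ k ∈ univ.erase i, Bad1 𝓕 C T t₁ (a i) (b j) (a k)
  · have := ind_exists_le (univ.erase i) (fun k => Bad1 𝓕 C T t₁ (a i) (b j) (a k))
    rw [ind_pos c2] at this
    linarith
  by_cases c3 : ∃ k ∈ univ.erase i, ∃ l ∈ univ.erase j,
      Bad2 𝓕 C T t₁ (a i) (b j) (a k) (b l)
  · have h1 := ind_exists_le (univ.erase i) (fun k => ∃ l ∈ univ.erase j,
      Bad2 𝓕 C T t₁ (a i) (b j) (a k) (b l))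
    rw [ind_pos c3] at h1
    have h2 : ∑ k ∈ univ.erase i, ind (∃ l ∈ univ.erase j,
        Bad2 𝓕 C T t₁ (a i) (b j) (a k) (b l)) ≤ ∑ k ∈ univ.erase i, ∑ l ∈ univ.erase j,
        ind (Bad2 𝓕 C T t₁ (a i) (b j) (a k) (b l)) :=
      Finset.sum_le_sum fun k _ => ind_exists_le _ _
    linarith
  have hgood : ∃ p, GoodPair 𝓕 a b H i j p := by
    obtain ⟨hab, p, h1, h2, h3, h4, h5⟩ := id hn
    refine ⟨p, hab, h1, h2, h4, fun t ht => ?_, fun m hm hpm ham hbm k l p' _ g1 g2 g3 => ?_⟩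
    · rcases hH t with h6 | h6
      · exact h4 (ht ▸ h6)
      · rw [ht] at h6; linarith
    · by_cases hk : k = i
      · refine ⟨hk, ?_⟩
        by_contra hl
        subst hk
        have : p = p' := eq_of_on_on (ham k) h1 hpm g1 g3
        subst this
        exact c1 ⟨l, mem_erase.2 ⟨hl, mem_univ _⟩, hn, p, h1, h2, g2⟩
      · exfalso
        by_cases hl : l = j
        · subst hl
          have : p = p' := eq_of_on_on (hbm l) h2 hpm g2 g3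
          subst this
          exact c2 ⟨k, mem_erase.2 ⟨hk, mem_univ _⟩, hn, p, h1, h2, g1⟩
        · exact c3 ⟨k, mem_erase.2 ⟨hk, mem_univ _⟩, l, mem_erase.2 ⟨hl, mem_univ _⟩, hn, p, h1,
            h2, m, hm, hpm, (ham i).symm, (hbm j).symm, ham k, p', g3, g1, g2⟩
  rw [ind_pos hgood]
  linarith

omit [DecidableEq F] in
theorem card_goodSet_ge [Fintype F] (𝓕 : Finset (Line F)) {D h : ℕ} (a b : Fin D → Line F)
    (H : Fin h → Pt F) :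
    ∑ i, ∑ j, ind (∃ p, GoodPair 𝓕 a b H i j p) ≤ ((goodSet 𝓕 a b H).card : ℝ) := by
  classical
  rw [goodSet, ← sum_ind_eq, Fintype.sum_prod_type]
  refine Finset.sum_le_sum fun i _ => ?_
  rw [Fintype.sum_prod_type]
  refine Finset.sum_le_sum fun j _ => ?_
  refine le_trans (ind_mono fun ⟨p, hp⟩ => ⟨p, mem_univ p, hp⟩)
    (ind_exists_le univ fun p => GoodPair 𝓕 a b H i j p)

theorem card_goodSet_filter_le [Fintype F] (R : Finset (Pt F)) (𝓕 C : Finset (Line F)) {t₀ : ℝ}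
    {D h : ℕ} (a b : Fin D → Line F) (H : Fin h → Pt F)
    (hH : ∀ p : Pt F, t₀ ≤ (mult C p : ℝ) → ∃ t, H t = p) :
    (((goodSet 𝓕 a b H).filter (fun x => x.2.2 ∈ R)).card : ℝ) ≤
      ∑ i, ∑ j, ind (LowR R C t₀ (a i) (b j)) := by
  classical
  rw [goodSet, Finset.filter_filter, ← sum_ind_eq, Fintype.sum_prod_type]
  refine Finset.sum_le_sum fun i _ => ?_
  rw [Fintype.sum_prod_type]
  refine Finset.sum_le_sum fun j _ => ?_
  by_cases hl : LowR R C t₀ (a i) (b j)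
  · rw [ind_pos hl, sum_ind_eq]
    have : (univ.filter (fun p : Pt F => GoodPair 𝓕 a b H i j p ∧ p ∈ R)).card ≤ 1 := by
      rw [Finset.card_le_one]
      intro p hp p' hp'
      obtain ⟨-, ⟨h1, h2, h3, -⟩, -⟩ := mem_filter.1 hp
      obtain ⟨-, ⟨-, h2', h3', -⟩, -⟩ := mem_filter.1 hp'
      exact eq_of_on_on h1 h2 h3 h2' h3'
    exact_mod_cast this
  · rw [ind_neg hl]
    refine le_of_eq (Finset.sum_eq_zero fun p _ => ind_neg ?_)
    rintro ⟨⟨h1, h2, h3, -, h5, -⟩, hR⟩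
    refine hl ⟨h1, p, hR, h2, h3, ?_⟩
    by_contra hlt
    obtain ⟨t, ht⟩ := hH p (not_le.1 hlt).le
    exact h5 t ht

end Crest.Agent.R34
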